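import Mathlib

open MeasureTheory Set Filter Topology
open scoped Real

namespace Vale.Agent.P030.H404

/-- The (unnormalised) Fejer kernel `(sin (y/2) / (y/2))^2`. -/
noncomputable def kf (y : ℝ) : ℝ := Real.sinc (y / 2) ^ 2

/-- The triangle function. -/
noncomputable def tri (l : ℝ) : ℝ := max 0 (1 - |l|)

lemma kf_nonneg (y : ℝ) : 0 ≤ kf y := sq_nonneg _

lemma kf_le_one (y : ℝ) : kf y ≤ 1 := by
  have := Real.abs_sinc_le_one (y / 2)
  unfold kf
  rw [← sq_abs]
  nlinarith [abs_nonneg (Real.sinc (y / 2))]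

lemma kf_zero : kf 0 = 1 := by simp [kf]

lemma continuous_kf : Continuous kf := by
  unfold kf
  exact (Real.continuous_sinc.comp (continuous_id.div_const 2)).pow 2

lemma kf_mul_sq (y : ℝ) : kf y * y ^ 2 = 2 * (1 - Real.cos y) := by
  rcases eq_or_ne y 0 with rfl | hy
  · simp
  · have h2 : y / 2 ≠ 0 := div_ne_zero hy two_ne_zero
    unfold kf
    rw [Real.sinc_of_ne_zero h2]
    have h := Real.sin_sq_eq_half_sub (y / 2)
    rw [show 2 * (y / 2) = y by ring] at h
    rw [div_pow, h]
    field_simp

lemma kf_le (y : ℝ) : kf y ≤ 5 * (1 + y ^ 2)⁻¹ := by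
  have h1 := kf_le_one y
  have h2 := kf_mul_sq y
  have h3 := Real.neg_one_le_cos y
  rw [← div_eq_mul_inv, le_div_iff₀ (by positivity)]
  nlinarith

lemma kf_neg (y : ℝ) : kf (-y) = kf y := by
  unfold kf; rw [neg_div, Real.sinc_neg]

lemma integrable_kf : Integrable kf := by
  refine Integrable.mono' (integrable_inv_one_add_sq.const_mul 5)
    continuous_kf.aestronglyMeasurable (Eventually.of_forall fun y => ?_)
  rw [Real.norm_of_nonneg (kf_nonneg y)]
  exact kf_le y

lemma integral_kf_pos : 0 < ∫ y, kf y := by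
  rw [integral_pos_iff_support_of_nonneg kf_nonneg integrable_kf]
  have hopen : IsOpen (Function.support kf) := continuous_kf.isOpen_support
  exact hopen.measure_pos volume ⟨0, by simp [Function.mem_support, kf_zero]⟩

lemma tri_nonneg (l : ℝ) : 0 ≤ tri l := le_max_left _ _

lemma tri_le_one (l : ℝ) : tri l ≤ 1 := max_le zero_le_one (by linarith [abs_nonneg l])

lemma continuous_tri : Continuous tri := by unfold tri; fun_prop

lemma tri_of_abs_le {l : ℝ} (h : |l| ≤ 1) : tri l = 1 - |l| := max_eq_right (by linarith)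

lemma tri_of_one_le {l : ℝ} (h : 1 ≤ |l|) : tri l = 0 := max_eq_left (by linarith)

lemma tri_support {l : ℝ} (h : tri l ≠ 0) : |l| < 1 := by
  by_contra h'
  exact h (tri_of_one_le (not_lt.mp h'))

lemma hasCompactSupport_tri : HasCompactSupport tri := by
  refine HasCompactSupport.of_support_subset_isCompact (isCompact_Icc (a := (-1 : ℝ)) (b := 1)) ?_
  intro l hl
  exact ⟨(abs_lt.mp (tri_support hl)).1.le, (abs_lt.mp (tri_support hl)).2.le⟩

lemma integrable_tri : Integrable tri :=
  continuous_tri.integrable_of_hasCompactSupport hasCompactSupport_tri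

lemma hasDerivAt_coe (l : ℝ) : HasDerivAt (fun l : ℝ => (l : ℂ)) 1 l := by
  simpa using (hasDerivAt_id l).ofReal_comp

/-- Fourier transform of the triangle. -/
lemma fourier_tri (y : ℝ) :
    ∫ l : ℝ, (tri l : ℂ) * Complex.exp (Complex.I * (l * y)) = (kf y : ℂ) := by
  have h0 : ∫ l : ℝ, (tri l : ℂ) * Complex.exp (Complex.I * (l * y))
      = ∫ l in (-1 : ℝ)..1, (tri l : ℂ) * Complex.exp (Complex.I * (l * y)) := by
    rw [intervalIntegral.integral_of_le (by norm_num), eq_comm]
    refine setIntegral_eq_integral_of_forall_compl_eq_zero fun l hl => ?_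
    have : tri l = 0 := by
      by_contra h
      have := abs_lt.mp (tri_support h)
      exact hl ⟨this.1, this.2.le⟩
    simp [this]
  have hc : Continuous fun l : ℝ => (tri l : ℂ) * Complex.exp (Complex.I * (l * y)) := by
    have := continuous_tri
    fun_prop
  have h1 : ∫ l in (-1 : ℝ)..1, (tri l : ℂ) * Complex.exp (Complex.I * (l * y))
      = (∫ l in (-1 : ℝ)..0, (1 + (l : ℂ)) * Complex.exp (Complex.I * (l * y)))
        + ∫ l in (0 : ℝ)..1, (1 - (l : ℂ)) * Complex.exp (Complex.I * (l * y)) := by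
    rw [← intervalIntegral.integral_add_adjacent_intervals (a := (-1 : ℝ)) (b := 0) (c := 1)
      (hc.intervalIntegrable _ _) (hc.intervalIntegrable _ _)]
    congr 1
    · refine intervalIntegral.integral_congr fun l hl => ?_
      rw [uIcc_of_le (by norm_num)] at hl
      have : tri l = 1 + l := by
        rw [tri_of_abs_le (abs_le.mpr ⟨hl.1, by linarith [hl.2]⟩), abs_of_nonpos hl.2]; ring
      simp only [this]; push_cast; ring
    · refine intervalIntegral.integral_congr fun l hl => ?_
      rw [uIcc_of_le (by norm_num)] at hl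
      have : tri l = 1 - l := by
        rw [tri_of_abs_le (abs_le.mpr ⟨by linarith [hl.1], hl.2⟩), abs_of_nonneg hl.1]
      simp only [this]; push_cast; ring
  rw [h0, h1]
  rcases eq_or_ne y 0 with rfl | hy
  · simp only [Complex.ofReal_zero, mul_zero, Complex.exp_zero, mul_one]
    have e1 : ∫ l in (-1 : ℝ)..0, (1 + (l : ℂ)) = 1 / 2 := by
      have : ∀ l ∈ uIcc (-1 : ℝ) 0, HasDerivAt (fun l : ℝ => (l : ℂ) + (l : ℂ) ^ 2 / 2)
          (1 + (l : ℂ)) l := by
        intro l _
        refine HasDerivAt.congr_deriv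
          ((hasDerivAt_coe l).fun_add (((hasDerivAt_coe l).fun_pow 2).div_const 2)) ?_
        push_cast; ring
      rw [intervalIntegral.integral_eq_sub_of_hasDerivAt this
        ((Continuous.intervalIntegrable (by fun_prop) _ _))]
      norm_num
    have e2 : ∫ l in (0 : ℝ)..1, (1 - (l : ℂ)) = 1 / 2 := by
      have : ∀ l ∈ uIcc (0 : ℝ) 1, HasDerivAt (fun l : ℝ => (l : ℂ) - (l : ℂ) ^ 2 / 2)
          (1 - (l : ℂ)) l := by
        intro l _
        refine HasDerivAt.congr_deriv
          ((hasDerivAt_coe l).fun_sub (((hasDerivAt_coe l).fun_pow 2).div_const 2)) ?_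
        push_cast; ring
      rw [intervalIntegral.integral_eq_sub_of_hasDerivAt this
        ((Continuous.intervalIntegrable (by fun_prop) _ _))]
      norm_num
    rw [e1, e2, kf_zero]; norm_num
  · set w : ℂ := Complex.I * y with hw
    have hw0 : w ≠ 0 := mul_ne_zero Complex.I_ne_zero (by exact_mod_cast hy)
    have hexp : ∀ l : ℝ, Complex.exp (Complex.I * (l * y)) = Complex.exp (l * w) := by
      intro l; congr 1; rw [hw]; ring
    simp only [hexp]
    have hE : ∀ l : ℝ, HasDerivAt (fun l : ℝ => Complex.exp (l * w)) (w * Complex.exp (l * w)) l := by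
      intro l
      have := ((hasDerivAt_coe l).mul_const w).cexp
      convert this using 1; ring
    have e1 : ∫ l in (-1 : ℝ)..0, (1 + (l : ℂ)) * Complex.exp (l * w)
        = 1 / w - 1 / w ^ 2 + Complex.exp (-w) / w ^ 2 := by
      have : ∀ l ∈ uIcc (-1 : ℝ) 0, HasDerivAt (fun l : ℝ => (1 + (l : ℂ)) * Complex.exp (l * w) / w
            - Complex.exp (l * w) / w ^ 2) ((1 + (l : ℂ)) * Complex.exp (l * w)) l := by
        intro l _
        have h' : HasDerivAt (fun l : ℝ => 1 + (l : ℂ)) 1 l := by
          simpa using (hasDerivAt_coe l).const_add (1 : ℂ)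
        have h2 := ((h'.mul (hE l)).div_const w).sub ((hE l).div_const (w ^ 2))
        refine h2.congr_deriv ?_
        field_simp
        ring
      rw [intervalIntegral.integral_eq_sub_of_hasDerivAt this
        ((Continuous.intervalIntegrable (by fun_prop) _ _))]
      simp
    have e2 : ∫ l in (0 : ℝ)..1, (1 - (l : ℂ)) * Complex.exp (l * w)
        = Complex.exp w / w ^ 2 - 1 / w - 1 / w ^ 2 := by
      have : ∀ l ∈ uIcc (0 : ℝ) 1, HasDerivAt (fun l : ℝ => (1 - (l : ℂ)) * Complex.exp (l * w) / w
            + Complex.exp (l * w) / w ^ 2) ((1 - (l : ℂ)) * Complex.exp (l * w)) l := by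
        intro l _
        have h' : HasDerivAt (fun l : ℝ => 1 - (l : ℂ)) (-1) l := by
          simpa using (hasDerivAt_coe l).const_sub (1 : ℂ)
        have h2 := ((h'.mul (hE l)).div_const w).add ((hE l).div_const (w ^ 2))
        refine h2.congr_deriv ?_
        field_simp
        ring
      rw [intervalIntegral.integral_eq_sub_of_hasDerivAt this
        ((Continuous.intervalIntegrable (by fun_prop) _ _))]
      simp
      ring
    rw [e1, e2]
    have hk : (kf y : ℂ) = 2 * (1 - Complex.cos y) / (y : ℂ) ^ 2 := by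
      have := kf_mul_sq y
      rw [eq_div_iff (by exact_mod_cast pow_ne_zero 2 hy)]
      exact_mod_cast this
    have hw2 : w ^ 2 = -(y : ℂ) ^ 2 := by
      rw [hw, mul_pow, Complex.I_sq]; ring
    have hcos : Complex.exp w + Complex.exp (-w) = 2 * Complex.cos y := by
      rw [Complex.cos, hw]
      rw [show Complex.I * (y : ℂ) = y * Complex.I by ring,
        show -((y : ℂ) * Complex.I) = -(y : ℂ) * Complex.I by ring]
      ring
    have hy2 : (y : ℂ) ^ 2 ≠ 0 := by exact_mod_cast pow_ne_zero 2 hy
    rw [hk, hw2]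
    have : 1 / w - 1 / -(y : ℂ) ^ 2 + Complex.exp (-w) / -(y : ℂ) ^ 2
        + (Complex.exp w / -(y : ℂ) ^ 2 - 1 / w - 1 / -(y : ℂ) ^ 2)
        = (2 - (Complex.exp w + Complex.exp (-w))) / (y : ℂ) ^ 2 := by
      field_simp
      ring
    rw [this, hcos]; ring

end Vale.Agent.P030.H404
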