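import Vale.Agent.P030.H404.Triv
import Vale.Agent.P030.H678.Rows

/-!
# P030, odd primes, line (I): the polar parts of the totals

`Rl p L e f g`: below order `p` the series `f` has poles of order `< e`, and
`p ^ e * coeff (p + l) f ≡ coeff l g (mod p)` for `l < L`.
-/

open PowerSeries

set_option linter.unusedSectionVars false
set_option linter.unusedVariables false

namespace Vale.Agent.P030.H404

open Vale.Agent.P030.T
open Vale.Agent.P030.H678 (Vg VB)

variable {p : ℕ} [hp : Fact p.Prime]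

/-- the part of order `< p` -/
noncomputable def lo (p : ℕ) (f : ℚ⟦X⟧) : ℚ⟦X⟧ := mk fun n => if n < p then coeff n f else 0
/-- the part of order `≥ p`, shifted -/
noncomputable def hi (p : ℕ) (f : ℚ⟦X⟧) : ℚ⟦X⟧ := mk fun n => coeff (p + n) f

lemma lo_add_hi (p : ℕ) (f : ℚ⟦X⟧) : lo p f + X ^ p * hi p f = f := by
  ext n
  rw [map_add, lo, coeff_mk]
  by_cases h : n < p
  · rw [if_pos h, coeff_X_pow_mul', if_neg (by omega), add_zero]
  · rw [if_neg h, coeff_X_pow_mul', if_pos (by omega), zero_add, hi, coeff_mk,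
      show p + (n - p) = n by omega]

lemma coeff_hi (p n : ℕ) (f : ℚ⟦X⟧) : coeff n (hi p f) = coeff (p + n) f := by
  rw [hi, coeff_mk]

structure Rl (p L e : ℕ) (f g : ℚ⟦X⟧) : Prop where
  low : VB p p (1 - (e : ℤ)) f
  gint : VB p L 0 g
  rel : VB p L 1 (C ((p : ℚ) ^ e) * hi p f - g)

variable {L e : ℕ} {f g f' g' m : ℚ⟦X⟧}

lemma Vg_p : Vg p 1 (p : ℚ) := by
  have := Vg.dvd_nat (p := p) (n := p) dvd_rfl (H678.Vg.one (p := p))
  simpa using this

lemma Vg_p_pow (e : ℕ) : Vg p e ((p : ℚ) ^ e) := by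
  induction e with
  | zero => simpa using (H678.Vg.one (p := p))
  | succ e ih =>
    rw [pow_succ]
    have := ih.mul (Vg_p (p := p))
    push_cast
    exact this

lemma Vg_of_p_pow {x : ℚ} {k : ℤ} (h : Vg p k ((p : ℚ) ^ e * x)) : Vg p (k - e) x := by
  unfold H678.Vg at *
  have hp0 : (0 : ℚ) < p := H678.p_pos'
  rw [padicNorm.mul] at h
  have h1 : padicNorm p ((p : ℚ) ^ e) = ((p : ℚ) ^ e)⁻¹ := by
    induction e with
    | zero => simp
    | succ e ih =>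
      rw [pow_succ, padicNorm.mul, padicNorm.padicNorm_p hp.out.one_lt]
      have : padicNorm p ((p : ℚ) ^ e) = ((p : ℚ) ^ e)⁻¹ := by
        clear ih h
        induction e with
        | zero => simp
        | succ e ih => rw [pow_succ, padicNorm.mul, ih, padicNorm.padicNorm_p hp.out.one_lt, mul_inv]
      rw [this, mul_inv]
  rw [h1, inv_mul_le_iff₀ (by positivity)] at h
  refine h.trans (le_of_eq ?_)
  rw [← zpow_natCast, ← zpow_add₀ hp0.ne']
  congr 1; ring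

lemma Rl.hi_int (h : Rl p L e f g) : VB p L 0 (C ((p : ℚ) ^ e) * hi p f) := by
  have h1 := (h.rel.mono (by norm_num : (0 : ℤ) ≤ 1)).add h.gint
  simpa using h1

lemma Rl.le {L' : ℕ} (h : Rl p L e f g) (hL : L' ≤ L) : Rl p L' e f g :=
  ⟨h.low, h.gint.le hL, h.rel.le hL⟩

lemma hi_add : hi p (f + f') = hi p f + hi p f' := by ext n; simp [hi]
lemma hi_neg : hi p (-f) = -hi p f := by ext n; simp [hi]
lemma hi_C_mul (q : ℚ) : hi p (C q * f) = C q * hi p f := by ext n; simp [hi]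

lemma Rl.add (h : Rl p L e f g) (h' : Rl p L e f' g') : Rl p L e (f + f') (g + g') := by
  refine ⟨h.low.add h'.low, h.gint.add h'.gint, ?_⟩
  have := h.rel.add h'.rel
  rw [hi_add, mul_add]
  have e1 : C ((p : ℚ) ^ e) * hi p f + C ((p : ℚ) ^ e) * hi p f' - (g + g')
    = C ((p : ℚ) ^ e) * hi p f - g + (C ((p : ℚ) ^ e) * hi p f' - g') := by ring
  rw [e1]; exact this

lemma Rl.neg (h : Rl p L e f g) : Rl p L e (-f) (-g) := by
  refine ⟨h.low.neg, h.gint.neg, ?_⟩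
  have := h.rel.neg
  rw [hi_neg]
  have e1 : C ((p : ℚ) ^ e) * -hi p f - -g = -(C ((p : ℚ) ^ e) * hi p f - g) := by ring
  rw [e1]; exact this

lemma Rl.sub (h : Rl p L e f g) (h' : Rl p L e f' g') : Rl p L e (f - f') (g - g') := by
  rw [sub_eq_add_neg, sub_eq_add_neg]; exact h.add h'.neg

lemma hi_mul (m f : ℚ⟦X⟧) : hi p (m * f) = hi p (m * lo p f) + m * hi p f := by
  conv_lhs => rw [← lo_add_hi p f]
  ext n
  have e1 : m * (lo p f + X ^ p * hi p f) = m * lo p f + X ^ p * (m * hi p f) := by ring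
  rw [coeff_hi, map_add, coeff_hi, e1, map_add, add_comm p n, coeff_X_pow_mul]

lemma VB_lo (h : VB p p (1 - (e : ℤ)) f) (N : ℕ) : VB p N (1 - (e : ℤ)) (lo p f) := by
  intro n _
  rw [lo, coeff_mk]
  split_ifs with h1
  · exact h n h1
  · exact H678.Vg.zero _

lemma VB_hi {N : ℕ} {k : ℤ} (h : VB p (p + N) k f) : VB p N k (hi p f) := by
  intro n hn
  rw [hi, coeff_mk]
  exact h _ (by omega)

lemma Rl.mul (hm : VB p (p + L) 0 m) (h : Rl p L e f g) : Rl p L e (m * f) (m * g) := by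
  refine ⟨(hm.le (by omega)).mul0 h.low, (hm.le (by omega)).mul0 h.gint, ?_⟩
  rw [hi_mul]
  have e1 : C ((p : ℚ) ^ e) * (hi p (m * lo p f) + m * hi p f) - m * g
    = C ((p : ℚ) ^ e) * hi p (m * lo p f) + m * (C ((p : ℚ) ^ e) * hi p f - g) := by ring
  rw [e1]
  refine VB.add ?_ ((hm.le (by omega)).mul0 h.rel)
  have h1 : VB p L (1 - (e : ℤ)) (hi p (m * lo p f)) := VB_hi (hm.mul0 (VB_lo h.low _))
  have h2 := (VB.C (N := L) (Vg_p_pow (p := p) e)).mul h1
  exact h2.mono (by omega)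

lemma Rl.C_mul {q : ℚ} (hq : Vg p 0 q) (h : Rl p L e f g) : Rl p L e (C q * f) (C q * g) :=
  h.mul (VB.C hq)

lemma Rl.sc {q : ℚ} (hq : Vg p 0 q) (h : Rl p L e f g) : Rl p L e (T.sc q f) (T.sc q g) :=
  h.C_mul hq

lemma Rl_of_VB (h : VB p (p + L) (1 - (e : ℤ)) f) : Rl p L e f 0 := by
  refine ⟨h.le (by omega), H678.VB.zero, ?_⟩
  rw [sub_zero]
  exact ((VB.C (N := L) (Vg_p_pow (p := p) e)).mul (VB_hi h)).mono (by omega)

lemma Rl.th (h : Rl p L e f g) : Rl p L e (th f) (th g) := by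
  refine ⟨h.low.th, h.gint.th, ?_⟩
  intro n hn
  have h1 := h.rel n hn
  have h2 := h.hi_int n hn
  rw [map_sub, coeff_C_mul, hi, coeff_mk] at h1 ⊢
  rw [coeff_C_mul, hi, coeff_mk] at h2
  have e1 : (p : ℚ) ^ e * coeff (p + n) (T.th f) - coeff n (T.th g)
      = (n : ℚ) * ((p : ℚ) ^ e * coeff (p + n) f - coeff n g)
        + (p : ℚ) * ((p : ℚ) ^ e * coeff (p + n) f) := by
    unfold T.th
    rw [coeff_mk, coeff_mk]
    push_cast
    ring
  rw [e1]
  refine (Vg.nat_mul n h1).add ?_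
  have := (Vg_p (p := p)).mul h2
  simpa using this

lemma Rl.dd (h : Rl p (L + 1) e f g) : Rl p L e (dd f) (dd g) := by
  refine ⟨?_, VB.dd h.gint, ?_⟩
  · intro n hn
    unfold T.dd
    rw [coeff_mk]
    by_cases h1 : n + 1 < p
    · have := Vg.nat_mul (n + 1) (h.low (n + 1) h1)
      simpa using this
    · have h2 : n + 1 = p := by omega
      have h3 := h.hi_int 0 (by omega)
      rw [coeff_C_mul, hi, coeff_mk, add_zero] at h3
      have h4 := Vg_of_p_pow h3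
      have h5 := (Vg_p (p := p)).mul h4
      have e1 : ((n : ℚ) + 1) * coeff (n + 1) f = (p : ℚ) * coeff p f := by
        rw [h2, ← h2]; push_cast; ring
      rw [e1]
      exact h5.mono (by omega)
  · intro n hn
    have h1 := h.rel (n + 1) (by omega)
    have h2 := h.hi_int (n + 1) (by omega)
    rw [map_sub, coeff_C_mul, hi, coeff_mk] at h1 ⊢
    rw [coeff_C_mul, hi, coeff_mk] at h2
    have e1 : (p : ℚ) ^ e * coeff (p + n) (T.dd f) - coeff n (T.dd g)
        = ((n + 1 : ℕ) : ℚ) * ((p : ℚ) ^ e * coeff (p + (n + 1)) f - coeff (n + 1) g)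
          + (p : ℚ) * ((p : ℚ) ^ e * coeff (p + (n + 1)) f) := by
      unfold T.dd
      rw [coeff_mk, coeff_mk, show p + n + 1 = p + (n + 1) by ring]
      push_cast
      ring
    rw [e1]
    refine (Vg.nat_mul (n + 1) h1).add ?_
    have := (Vg_p (p := p)).mul h2
    simpa using this

lemma VB_one_add_X {N : ℕ} : VB p N 0 (1 + X : ℚ⟦X⟧) := VB.one.add VB.X

lemma Rl.tw (h2 : p ≠ 2) (h : Rl p (L + 1) e f g) : Rl p L e (tw f) (tw g) :=
  (((h.mul (H678.VB_one_sub_X)).dd).mul VB_one_add_X).sc (H678.Vg_half h2)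

/-! ### the series of the table -/

/-- products of two series with simple poles -/
lemma VB_mul_simple {f g : ℚ⟦X⟧} (hf0 : VB p p 0 f) (hf : VB p (2 * p) (-1) f)
    (hg0 : VB p p 0 g) (hg : VB p (2 * p) (-1) g) : VB p (2 * p) (-1) (f * g) := by
  intro n hn
  rw [coeff_mul]
  refine Vg.sum fun ij hij => ?_
  have hij' : ij.1 + ij.2 = n := by simpa using hij
  by_cases h1 : ij.1 < p
  · have := (hf0 _ h1).mul (hg ij.2 (by omega))
    simpa using this
  · have := (hf ij.1 (by omega)).mul (hg0 ij.2 (by omega))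
    simpa using this

lemma VB_integ_simple {f : ℚ⟦X⟧} (hf0 : VB p p 0 f) (hf : VB p (2 * p) (-1) f) :
    VB p (2 * p) (-1) (integ f) := by
  intro n hn
  unfold T.integ
  rw [coeff_mk]
  have hp1 := hp.out.one_lt
  split_ifs with h
  · exact H678.Vg.zero _
  · by_cases h1 : p ∣ n
    · have h2 : n = p := by
        obtain ⟨c, rfl⟩ := h1
        have : c < 2 := by
          by_contra hc
          have : p * 2 ≤ p * c := Nat.mul_le_mul_left p (by omega)
          omega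
        have : c ≠ 0 := by rintro rfl; exact h (by simp)
        have : c = 1 := by omega
        rw [this, mul_one]
      have h3 := Vg.div_nat (p := p) (n := n) (by omega) (by rw [h2]; nlinarith)
        (hf0 (n - 1) (by omega))
      simpa using h3
    · exact Vg.div_unit h1 (hf (n - 1) (by omega))

lemma VB_lt_of_unit {f : ℚ⟦X⟧} {r : ℕ → ℚ} (hr : ∀ n, Vg p 0 (r n))
    (hf : ∀ n, n ≠ 0 → coeff n f = r n / n) (h0 : Vg p 0 (coeff 0 f)) : VB p p 0 f := by
  intro n hn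
  rcases Nat.eq_zero_or_pos n with rfl | h
  · exact h0
  · rw [hf n (by omega)]
    exact Vg.div_unit (fun hd => by have := Nat.le_of_dvd h hd; omega) (hr n)

lemma lgm_low : VB p p 0 lgm := by
  refine VB_lt_of_unit (r := fun _ => 1) (fun _ => Vg.one) (fun n hn => ?_) ?_
  · simp [T.lgm, hn]
  · simpa [T.lgm] using H678.Vg.zero (p := p) 0

lemma lgp_low : VB p p 0 lgp := by
  refine VB_lt_of_unit (r := fun n => (-1) ^ (n + 1)) (fun n => ?_) (fun n hn => ?_) ?_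
  · have := Vg.int (p := p) ((-1) ^ (n + 1))
    simpa using this
  · simp [T.lgp, hn]
  · simpa [T.lgp] using H678.Vg.zero (p := p) 0

lemma two_p_le : 2 * p ≤ p ^ 2 := by
  have := hp.out.two_le
  nlinarith

lemma Rl_two_of_VB {f : ℚ⟦X⟧} {L : ℕ} (hL : L ≤ p) (h : VB p (2 * p) (-1) f) : Rl p L 2 f 0 :=
  Rl_of_VB (by exact h.le (by omega))

lemma Rl2_lgm (h2 : p ≠ 2) (hL : L ≤ p) : Rl p L 2 lgm 0 :=
  Rl_two_of_VB hL (VB.lgm (two_p_le (p := p)))

lemma Rl2_lgm_sq (h2 : p ≠ 2) (hL : L ≤ p) : Rl p L 2 (lgm ^ 2) 0 := by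
  rw [pow_two]
  exact Rl_two_of_VB hL (VB_mul_simple lgm_low (VB.lgm (two_p_le (p := p))) lgm_low
    (VB.lgm (two_p_le (p := p))))

lemma Rl2_integ_geoa (h2 : p ≠ 2) (hL : L ≤ p) : Rl p L 2 (integ (geoa * lgm)) 0 :=
  Rl_two_of_VB hL (VB_integ_simple (VB.geoa.mul0 lgm_low) (VB.geoa.mul0 (VB.lgm (two_p_le (p := p)))))

lemma Rl2_integ_geo2 (h2 : p ≠ 2) (hL : L ≤ p) : Rl p L 2 (integ (geo2 * lgm)) 0 :=
  Rl_two_of_VB hL (VB_integ_simple (VB.geo2.mul0 lgm_low) (VB.geo2.mul0 (VB.lgm (two_p_le (p := p)))))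

lemma Rl2_K (h2 : p ≠ 2) : Rl p L 2 serK 0 := Rl_of_VB ((H678.VBK h2 _).mono (by norm_num))

lemma Rl_int (he : 1 ≤ e) (h : VB p (p + L) 0 f) : Rl p L e f 0 :=
  Rl_of_VB (h.mono (by omega))

lemma Rl2_li2 (hL : L ≤ p) : Rl p L 2 li2 1 := by
  have hp1 := hp.out.one_lt
  refine ⟨?_, VB.one, ?_⟩
  · intro n hn
    unfold T.li2
    rw [coeff_mk]
    split_ifs with h
    · exact H678.Vg.zero _
    · have := H678.Vg.div_sq_unit (p := p) (n := n)
        (fun hd => by have := Nat.le_of_dvd (by omega) hd; omega) Vg.one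
      exact this.mono (by norm_num)
  · intro n hn
    rw [map_sub, coeff_C_mul, hi, coeff_mk, coeff_one]
    unfold T.li2
    rw [coeff_mk, if_neg (by omega)]
    split_ifs with h
    · subst h
      have : (p : ℚ) ≠ 0 := by exact_mod_cast hp.out.ne_zero
      have e1 : (p : ℚ) ^ 2 * (1 / ((p + 0 : ℕ) : ℚ) ^ 2) - 1 = 0 := by
        rw [add_zero]; field_simp; ring
      rw [e1]; exact H678.Vg.zero _
    · have h1 := H678.Vg.div_sq_unit (p := p) (n := p + n) (fun hd => by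
          have := (Nat.dvd_add_right (dvd_refl p)).1 hd
          have := Nat.le_of_dvd (by omega) this
          omega) (Vg.one (p := p))
      have h3 := (Vg_p_pow (p := p) 2).mul h1
      rw [sub_zero]
      exact h3.mono (by norm_num)

/-- `log`, simple pole: `p * coeff (p + l)`. -/
lemma Rl1_of_unit {f : ℚ⟦X⟧} {r : ℕ → ℚ} (hr : ∀ n, Vg p 0 (r n)) (hL : L ≤ p)
    (hf : ∀ n, n ≠ 0 → coeff n f = r n / n) (h0 : Vg p 0 (coeff 0 f)) (h1 : r p = 1) :
    Rl p L 1 f 1 := by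
  have hp1 := hp.out.one_lt
  refine ⟨(VB_lt_of_unit hr hf h0).mono (by norm_num), VB.one, ?_⟩
  intro n hn
  rw [map_sub, coeff_C_mul, hi, coeff_mk, coeff_one, hf _ (by omega)]
  split_ifs with h
  · subst h
    have : (p : ℚ) ≠ 0 := by exact_mod_cast hp.out.ne_zero
    have e1 : (p : ℚ) ^ 1 * (r (p + 0) / ((p + 0 : ℕ) : ℚ)) - 1 = 0 := by
      rw [add_zero, h1, pow_one]; field_simp; ring
    rw [e1]; exact H678.Vg.zero _
  · have h1 := Vg.div_unit (p := p) (n := p + n) (fun hd => by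
        have := (Nat.dvd_add_right (dvd_refl p)).1 hd
        have := Nat.le_of_dvd (by omega) this
        omega) (hr (p + n))
    have h3 := (Vg_p_pow (p := p) 1).mul h1
    rw [sub_zero]
    exact h3.mono (by norm_num)

lemma Rl1_lgm (hL : L ≤ p) : Rl p L 1 lgm 1 := by
  refine Rl1_of_unit (r := fun _ => 1) (fun _ => Vg.one) hL (fun n hn => ?_) ?_ rfl
  · simp [T.lgm, hn]
  · simpa [T.lgm] using H678.Vg.zero (p := p) 0

lemma Rl1_lgp (h2 : p ≠ 2) (hL : L ≤ p) : Rl p L 1 lgp 1 := by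
  refine Rl1_of_unit (r := fun n => (-1) ^ (n + 1)) (fun n => ?_) hL (fun n hn => ?_) ?_ ?_
  · have := Vg.int (p := p) ((-1) ^ (n + 1))
    simpa using this
  · simp [T.lgp, hn]
  · simpa [T.lgp] using H678.Vg.zero (p := p) 0
  · have hodd : Odd p := hp.out.odd_of_ne_two h2
    exact (hodd.add_one).neg_one_pow

/-! ### `B` and `B2` -/

/-- one recursion for both -/
lemma Rl_rec (h2 : p ≠ 2) (b : ℕ → ℚ) (r : ℚ) (hr : Vg p 0 r)
    (hrec : ∀ n, b (n + 2) = (((n : ℚ) + 1) ^ 2 * b n + r) / ((n : ℚ) + 2) ^ 2)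
    (hlow : ∀ n < p, Vg p 0 (b n)) (hpp : Vg p (-2) (b p)) (hL : L ≤ p) :
    Rl p L 2 (mk b) (C ((p : ℚ) ^ 2 * b p) * serK) := by
  have hp3 : 3 ≤ p := by
    have := hp.out.two_le
    omega
  have hb : Vg p 0 ((p : ℚ) ^ 2 * b p) := by
    have := (Vg_p_pow (p := p) 2).mul hpp
    simpa using this
  refine ⟨fun n hn => ?_, (VB.C hb).mul0 (H678.VBK h2 _), ?_⟩
  · rw [coeff_mk]; exact (hlow n hn).mono (by norm_num)
  have key : ∀ l, l < p → Vg p 1 ((p : ℚ) ^ 2 * b (p + l) - (p : ℚ) ^ 2 * b p * coeff l serK) := by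
    intro l
    induction l using Nat.strong_induction_on with
    | _ l ih =>
      intro hl
      rcases l with _ | _ | l
      · have e1 : (p : ℚ) ^ 2 * b (p + 0) - (p : ℚ) ^ 2 * b p * coeff 0 serK = 0 := by
          simp [T.serK]
        rw [e1]; exact H678.Vg.zero _
      · have hK1 : coeff (0 + 1) serK = 0 := by simp [T.serK]
        rw [hK1, mul_zero, sub_zero]
        obtain ⟨q, hq⟩ : ∃ q, p = q + 1 := ⟨p - 1, by omega⟩
        have hr1 := hrec q
        have e1 : p + (0 + 1) = q + 2 := by omega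
        rw [e1, hr1]
        have hq1 : ((q : ℚ) + 1) = p := by rw [hq]; push_cast; ring
        have hq2 : ((q : ℚ) + 2) = ((p + 1 : ℕ) : ℚ) := by rw [hq]; push_cast; ring
        rw [hq1, hq2]
        have e2 : (p : ℚ) ^ 2 * (((p : ℚ) ^ 2 * b q + r) / ((p + 1 : ℕ) : ℚ) ^ 2)
            = ((p : ℚ) ^ 2 * ((p : ℚ) ^ 2 * b q + r)) / ((p + 1 : ℕ) : ℚ) ^ 2 := by ring
        rw [e2]
        refine H678.Vg.div_sq_unit (fun hd => ?_) ?_
        · have := (Nat.dvd_add_right (dvd_refl p)).1 hd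
          have := Nat.le_of_dvd one_pos this
          omega
        · have h3 := (Vg_p_pow (p := p) 2).mul (hlow q (by omega))
          have h4 := (h3.mono (by norm_num : (0 : ℤ) ≤ _)).add hr
          have h5 := (Vg_p_pow (p := p) 2).mul h4
          exact h5.mono (by norm_num)
      · have h1 := ih l (by omega) (by omega)
        have hr1 := hrec (p + l)
        rw [show p + (l + 1 + 1) = p + l + 2 by ring, hr1]
        have hK := H678.serK_rec l
        set u := (p : ℚ) ^ 2 * b p with hu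
        set K0 := coeff l serK
        set K2 := coeff (l + 1 + 1) serK with hK2
        have hK0i : Vg p 0 K0 := H678.VgK h2 _
        have hK2i : Vg p 0 K2 := H678.VgK h2 _
        have hn : ((p + l + 2 : ℕ) : ℚ) ≠ 0 := by positivity
        have e1 : (p : ℚ) ^ 2 * (((((p + l : ℕ) : ℚ) + 1) ^ 2 * b (p + l) + r)
              / (((p + l : ℕ) : ℚ) + 2) ^ 2) - u * K2
            = ((((p + l + 1 : ℕ) : ℚ)) ^ 2 * ((p : ℚ) ^ 2 * b (p + l) - u * K0)
                + (p : ℚ) ^ 2 * r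
                + u * ((p : ℚ) * (((p + 2 * (l + 1) : ℕ) : ℚ) * K0)
                  - (p : ℚ) * (((p + 2 * (l + 2) : ℕ) : ℚ) * K2)))
              / ((p + l + 2 : ℕ) : ℚ) ^ 2 := by
          have hK' : ((l : ℚ) + 2) ^ 2 * K2 = ((l : ℚ) + 1) ^ 2 * K0 := hK
          push_cast at hn ⊢
          have hn' : ((p : ℚ) + l + 2) ≠ 0 := hn
          field_simp
          linear_combination (-u) * hK'
        rw [e1]
        refine H678.Vg.div_sq_unit (fun hd => ?_) ?_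
        · rw [add_assoc] at hd
          have := (Nat.dvd_add_right (dvd_refl p)).1 hd
          have := Nat.le_of_dvd (by omega) this
          omega
        · refine ((?_ : Vg p 1 _).add ?_).add ?_
          · have := (Vg.nat_mul (p := p) ((p + l + 1) ^ 2) h1)
            simpa using this
          · exact ((Vg_p_pow (p := p) 2).mul hr).mono (by norm_num)
          · have a1 := (Vg_p (p := p)).mul (Vg.nat_mul (p + 2 * (l + 1)) hK0i)
            have a2 := (Vg_p (p := p)).mul (Vg.nat_mul (p + 2 * (l + 2)) hK2i)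
            have a3 := hb.mul (a1.sub a2)
            exact a3.mono (by norm_num)
  intro n hn
  rw [map_sub, coeff_C_mul, hi, coeff_mk, coeff_mk, coeff_C_mul]
  exact key n (by omega)

lemma cB_low (h2 : p ≠ 2) : ∀ n < p, Vg p 0 (cB n) := fun n hn => by
  have := norm_cB (p := p) h2 n
  rw [Nat.log_of_lt hn] at this
  simpa [H678.Vg] using this

lemma cB2_low (h2 : p ≠ 2) : ∀ n < p, Vg p 0 (cB2 n) := fun n hn => by
  have := norm_cB2 (p := p) h2 n
  rw [Nat.log_of_lt hn] at this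
  simpa [H678.Vg] using this

lemma cB_p (h2 : p ≠ 2) : Vg p (-2) (cB p) := by
  have := norm_cB (p := p) h2 p
  have h1 : Nat.log p p = 1 := by simpa using Nat.log_pow hp.out.one_lt 1
  rw [h1, mul_one] at this
  unfold H678.Vg
  rw [neg_neg]
  exact_mod_cast this

lemma cB2_p (h2 : p ≠ 2) : Vg p (-2) (cB2 p) := by
  have := norm_cB2 (p := p) h2 p
  have h1 : Nat.log p p = 1 := by simpa using Nat.log_pow hp.out.one_lt 1
  rw [h1, mul_one] at this
  unfold H678.Vg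
  rw [neg_neg]
  exact_mod_cast this

lemma Rl2_B (h2 : p ≠ 2) (hL : L ≤ p) :
    Rl p L 2 serB (C ((p : ℚ) ^ 2 * cB p) * serK) := by
  refine Rl_rec h2 cB (-1 / 4) ?_ (fun n => ?_) (cB_low h2) (cB_p h2) hL
  · have := (H678.Vg_quarter (p := p) h2).neg
    rwa [show (-(1 / 4) : ℚ) = -1 / 4 by norm_num] at this
  · rw [cB]; ring

lemma Rl2_B2 (h2 : p ≠ 2) (hL : L ≤ p) :
    Rl p L 2 serB2 (C ((p : ℚ) ^ 2 * cB2 p) * serK) := by
  refine Rl_rec h2 cB2 0 (H678.Vg.zero _) (fun n => ?_) (cB2_low h2) (cB2_p h2) hL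
  rw [cB2, add_zero]

/-! ### the three relations -/

lemma Rl.congr (h : Rl p L e f g) (hf : f = f') (hg : g = g') : Rl p L e f' g' := by
  subst hf; subst hg; exact h

lemma Rl_zero : Rl p L e 0 0 := Rl_of_VB H678.VB.zero

lemma th_C_mul (q : ℚ) (f : ℚ⟦X⟧) : th (C q * f) = C q * th f := by
  ext n
  simp only [T.th, coeff_mk, coeff_C_mul]
  ring

lemma dd_C_mul (q : ℚ) (f : ℚ⟦X⟧) : dd (C q * f) = C q * dd f := by
  ext n
  simp only [T.dd, coeff_mk, coeff_C_mul]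
  ring

lemma tw_C_mul (q : ℚ) (f : ℚ⟦X⟧) : tw (C q * f) = C q * tw f := by
  unfold T.tw T.sc
  rw [show (1 - X : ℚ⟦X⟧) * (C q * f) = C q * ((1 - X) * f) by ring, dd_C_mul]
  ring

/-- the polar part of `z1` -/
theorem relZ (h2 : p ≠ 2) (hL : L ≤ p) {x : ℚ} (hx : Vg p 0 x) (j : Fin 8) :
    Rl p L 2 (tup0 .z1 j + C x * tup1 .z1 j)
      (tup0 .zab j + C ((p : ℚ) ^ 2 * cB p) * tup0 .z8 j) := by
  have hhalf := H678.Vg_half (p := p) h2
  have hX : VB p (p + L) 0 (1 - X : ℚ⟦X⟧) := H678.VB_one_sub_X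
  have hxK : Rl p L 2 (C x * serK) 0 := (Rl2_K (L := L) h2).C_mul hx |>.congr rfl (by ring)
  have h6 : Rl p L 2 (serB - C x * serK) (C ((p : ℚ) ^ 2 * cB p) * serK) :=
    ((Rl2_B h2 hL).sub hxK).congr rfl (by ring)
  fin_cases j
  · refine (Rl_int (e := 2) (by norm_num) (VB.one (p := p) (N := p + L))).congr ?_ ?_
    · show (1 : ℚ⟦X⟧) = 1 + C x * 0; ring
    · show (0 : ℚ⟦X⟧) = 0 + C ((p : ℚ) ^ 2 * cB p) * 0; ring
  · refine (Rl_zero (p := p) (L := L) (e := 2)).congr ?_ ?_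
    · show (0 : ℚ⟦X⟧) = 0 + C x * 0; ring
    · show (0 : ℚ⟦X⟧) = 0 + C ((p : ℚ) ^ 2 * cB p) * 0; ring
  · refine (Rl2_lgm h2 hL).congr ?_ ?_
    · show lgm = lgm + C x * 0; ring
    · show (0 : ℚ⟦X⟧) = 0 + C ((p : ℚ) ^ 2 * cB p) * 0; ring
  · refine (Rl2_li2 hL).congr ?_ ?_
    · show li2 = li2 + C x * 0; ring
    · show (1 : ℚ⟦X⟧) = 1 + C ((p : ℚ) ^ 2 * cB p) * 0; ring
  · refine (Rl2_integ_geoa h2 hL).congr ?_ ?_
    · show integ (geoa * lgm) = integ (geoa * lgm) + C x * 0; ring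
    · show (0 : ℚ⟦X⟧) = 0 + C ((p : ℚ) ^ 2 * cB p) * 0; ring
  · refine ((Rl2_lgm_sq h2 hL).sc hhalf).congr ?_ ?_
    · show sc (1 / 2) (lgm ^ 2) = sc (1 / 2) (lgm ^ 2) + C x * 0; ring
    · show T.sc (1 / 2) (0 : ℚ⟦X⟧) = 0 + C ((p : ℚ) ^ 2 * cB p) * 0
      unfold T.sc; ring
  · refine (h6.mul hX).congr ?_ ?_
    · show (1 - X) * (serB - C x * serK) = (1 - X) * serB + C x * (-((1 - X) * serK)); ring
    · show (1 - X) * (C ((p : ℚ) ^ 2 * cB p) * serK) = 0 + C ((p : ℚ) ^ 2 * cB p) * ((1 - X) * serK)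
      ring
  · refine (h6.th.mul hX).congr ?_ ?_
    · show (1 - X) * th (serB - C x * serK) = (1 - X) * th serB + C x * (-((1 - X) * th serK))
      rw [H678.th_sub, th_C_mul]; ring
    · show (1 - X) * th (C ((p : ℚ) ^ 2 * cB p) * serK)
        = 0 + C ((p : ℚ) ^ 2 * cB p) * ((1 - X) * th serK)
      rw [th_C_mul]; ring

/-- the polar part of `w1` -/
theorem relW (h2 : p ≠ 2) (hL : L + 1 ≤ p) (j : Fin 8) :
    Rl p L 2 (tup0 .w1 j)
      (tup0 .wab j + C (3 / 4) * tup0 .wy j + C (3 / 4 + (p : ℚ) ^ 2 * cB2 p) * tup0 .w8 j) := by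
  have hhalf := H678.Vg_half (p := p) h2
  have hL' : L ≤ p := by omega
  have h2' : Vg p 0 (2 : ℚ) := by exact_mod_cast Vg.nat (p := p) 2
  have c34 : (C (3 / 4) : ℚ⟦X⟧) * C (4 / 3) = 1 := by rw [← map_mul]; norm_num
  fin_cases j
  · refine (Rl_int (e := 2) (by norm_num) (VB.one (p := p) (N := p + L))).congr rfl ?_
    show (0 : ℚ⟦X⟧) = 0 + C (3 / 4) * 0 + C (3 / 4 + (p : ℚ) ^ 2 * cB2 p) * 0
    ring
  · refine (Rl_zero (p := p) (L := L) (e := 2)).congr rfl ?_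
    show (0 : ℚ⟦X⟧) = 0 + C (3 / 4) * 0 + C (3 / 4 + (p : ℚ) ^ 2 * cB2 p) * 0
    ring
  · refine (Rl2_lgm h2 hL').neg.congr rfl ?_
    show (-0 : ℚ⟦X⟧) = 0 + C (3 / 4) * 0 + C (3 / 4 + (p : ℚ) ^ 2 * cB2 p) * 0
    ring
  · refine ((Rl2_integ_geo2 h2 hL').sc h2').neg.congr rfl ?_
    show -T.sc 2 (0 : ℚ⟦X⟧) = 1 + C (3 / 4) * (-C (4 / 3)) + C (3 / 4 + (p : ℚ) ^ 2 * cB2 p) * 0
    unfold T.sc
    linear_combination c34
  · refine ((Rl2_li2 hL').neg.sub ((Rl2_lgm_sq h2 hL').sc hhalf)).congr rfl ?_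
    show (-1 : ℚ⟦X⟧) - T.sc (1 / 2) 0
      = 0 + C (3 / 4) * (-C (4 / 3)) + C (3 / 4 + (p : ℚ) ^ 2 * cB2 p) * 0
    unfold T.sc
    linear_combination c34
  · refine ((Rl2_lgm_sq h2 hL').sc hhalf).congr rfl ?_
    show T.sc (1 / 2) (0 : ℚ⟦X⟧) = 0 + C (3 / 4) * 0 + C (3 / 4 + (p : ℚ) ^ 2 * cB2 p) * 0
    unfold T.sc; ring
  · refine (Rl2_B2 h2 hL').congr rfl ?_
    show C ((p : ℚ) ^ 2 * cB2 p) * serK
      = 0 + C (3 / 4) * (-serK) + C (3 / 4 + (p : ℚ) ^ 2 * cB2 p) * serK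
    rw [map_add]; ring
  · refine (Rl.tw h2 (Rl2_B2 h2 hL)).congr rfl ?_
    show tw (C ((p : ℚ) ^ 2 * cB2 p) * serK)
      = 0 + C (3 / 4) * (-tw serK) + C (3 / 4 + (p : ℚ) ^ 2 * cB2 p) * tw serK
    rw [tw_C_mul, map_add]; ring

/-- the polar part of `wl` -/
theorem relWl (h2 : p ≠ 2) (hL : L ≤ p) (j : Fin 8) :
    Rl p L 1 (tup0 .wl j)
      (C (1 / 2) * (tup0 .wf7 j - C 3 * tup0 .wab j + C (3 / 4) * (tup0 .wy j + tup0 .w8 j))) := by
  have hhalf := H678.Vg_half (p := p) h2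
  have c34 : (C (3 / 4) : ℚ⟦X⟧) * C (4 / 3) = 1 := by rw [← map_mul]; norm_num
  have c2 : (C (1 / 2) : ℚ⟦X⟧) * 2 = 1 := by
    rw [H678.two_eq, ← map_mul]; norm_num
  have c3 : (C 3 : ℚ⟦X⟧) = 3 := map_ofNat (C : ℚ →+* ℚ⟦X⟧) 3
  fin_cases j
  · refine (Rl_zero (p := p) (L := L) (e := 1)).congr rfl ?_
    show (0 : ℚ⟦X⟧) = C (1 / 2) * (0 - C 3 * 0 + C (3 / 4) * (0 + 0))
    ring
  · refine (Rl_int (e := 1) (by norm_num) (VB.one (p := p) (N := p + L))).congr rfl ?_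
    show (0 : ℚ⟦X⟧) = C (1 / 2) * (0 - C 3 * 0 + C (3 / 4) * (0 + 0))
    ring
  · refine (Rl_int (e := 1) (by norm_num) (VB.one (p := p) (N := p + L))).neg.congr rfl ?_
    show (-0 : ℚ⟦X⟧) = C (1 / 2) * (0 - C 3 * 0 + C (3 / 4) * (0 + 0))
    ring
  · refine ((Rl1_lgp h2 hL).add (Rl1_lgm hL)).neg.congr rfl ?_
    show (-(1 + 1) : ℚ⟦X⟧) = C (1 / 2) * (0 - C 3 * 1 + C (3 / 4) * (-C (4 / 3) + 0))
    rw [c3]
    linear_combination C (1 / 2) * c34 + 2 * c2
  · refine ((Rl1_lgm hL).sc hhalf).neg.congr rfl ?_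
    show -T.sc (1 / 2) (1 : ℚ⟦X⟧) = C (1 / 2) * (0 - C 3 * 0 + C (3 / 4) * (-C (4 / 3) + 0))
    unfold T.sc
    linear_combination C (1 / 2) * c34
  · refine ((Rl1_lgm hL).sc hhalf).congr rfl ?_
    show T.sc (1 / 2) (1 : ℚ⟦X⟧) = C (1 / 2) * (1 - C 3 * 0 + C (3 / 4) * (0 + 0))
    unfold T.sc; ring
  · refine (Rl_zero (p := p) (L := L) (e := 1)).congr rfl ?_
    show (0 : ℚ⟦X⟧) = C (1 / 2) * (0 - C 3 * 0 + C (3 / 4) * (-serK + serK))
    ring
  · refine (Rl_zero (p := p) (L := L) (e := 1)).congr rfl ?_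
    show (0 : ℚ⟦X⟧) = C (1 / 2) * (0 - C 3 * 0 + C (3 / 4) * (-tw serK + tw serK))
    ring

end Vale.Agent.P030.H404
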