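import Vale.Agent.P030.H404.LineA1

/-!
# P030, odd primes, line (I): the rows `P_Y`

`Y = u^a (1+u)^b`, `P_T = (1+u) h Y`, `P_F = -(1+u) θh Y`, `P_L = (χ/4) Y`, `P_l = -(χ/4) u^p Y`,
`P_1 = -(1/4) (R + R(-1) u^p) Y`.
-/

open PowerSeries

set_option linter.unusedSectionVars false
set_option linter.unusedVariables false

namespace Vale.Agent.P030.H404

open Vale.Agent.P030.T
open Vale.Agent.P030.H678 (Vg VB Hc hK WW EE eps ch tau W0 YY)

variable {p : ℕ} [hp : Fact p.Prime]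

/-! ### the polynomials -/

/-- `Σ j^a h_j u^j` -/
noncomputable def Hp (p a : ℕ) : Polynomial ℚ :=
  ∑ j ∈ Finset.range p, Polynomial.C ((j : ℚ) ^ a * coeff j serK) * Polynomial.X ^ j

/-- `h(1)` -/
noncomputable def chi (p : ℕ) : ℚ := ∑ j ∈ Finset.range p, coeff j serK

/-- `Q_m = Σ_{m < q < p} h_q` -/
noncomputable def Qm (p m : ℕ) : ℚ := ∑ j ∈ Finset.Ico (m + 1) p, coeff j serK

/-- `R`, `(1-u) R' = χ - h` -/
noncomputable def Rp (p : ℕ) : Polynomial ℚ :=
  ∑ m ∈ Finset.range (p - 1), Polynomial.C (Qm p m / ((m + 1 : ℕ) : ℚ)) * Polynomial.X ^ (m + 1)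

noncomputable def rho (p : ℕ) : ℚ := (Rp p).eval (-1)

noncomputable def Rc (p : ℕ) (u : ℚ⟦X⟧) : ℚ⟦X⟧ :=
  ∑ m ∈ Finset.range (p - 1), C (Qm p m / ((m + 1 : ℕ) : ℚ)) * u ^ (m + 1)

/-- the eight polynomials -/
noncomputable def P0 (p : ℕ) : Fin 8 → Polynomial ℚ :=
  ![-(Polynomial.C (1 / 4) * (Rp p + Polynomial.C (rho p) * Polynomial.X ^ p)),
    -(Polynomial.C (chi p / 4) * Polynomial.X ^ p),
    Polynomial.C (chi p / 4), 0, 0, 0,
    -((1 + Polynomial.X) * Hp p 1), (1 + Polynomial.X) * Hp p 0]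

noncomputable def PY (p a b : ℕ) (j : Fin 8) : Polynomial ℚ :=
  Polynomial.X ^ a * (1 + Polynomial.X) ^ b * P0 p j

lemma aeval_Hp (a : ℕ) (u : ℚ⟦X⟧) : Polynomial.aeval u (Hp p a) = Hc p a u := by
  unfold Hp Hc
  rw [map_sum]
  refine Finset.sum_congr rfl fun j _ => ?_
  rw [map_mul, Polynomial.aeval_C, map_pow, Polynomial.aeval_X]
  rfl

lemma aeval_Rp (u : ℚ⟦X⟧) : Polynomial.aeval u (Rp p) = Rc p u := by
  unfold Rp Rc
  rw [map_sum]
  refine Finset.sum_congr rfl fun j _ => ?_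
  rw [map_mul, Polynomial.aeval_C, map_pow, Polynomial.aeval_X]
  rfl

lemma Qm_succ {m : ℕ} (hm : m + 1 < p) : Qm p m = coeff (m + 1) serK + Qm p (m + 1) := by
  unfold Qm
  rw [Finset.sum_eq_sum_Ico_succ_bot hm]

lemma chi_eq (h1 : 1 ≤ p) : chi p = 1 + Qm p 0 := by
  unfold chi Qm
  rw [Finset.range_eq_Ico, Finset.sum_eq_sum_Ico_succ_bot h1]
  simp [T.serK]

/-- `(1-u) u R'(u) = u (χ - h(u))` -/
lemma tau_dd_Rc {τ u : ℚ⟦X⟧} (hu : τ * dd u = u) (h1 : 1 ≤ p) :
    (1 - u) * (τ * dd (Rc p u)) = u * (C (chi p) - Hc p 0 u) := by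
  have e1 : τ * dd (Rc p u) = ∑ m ∈ Finset.range (p - 1), C (Qm p m) * u ^ (m + 1) := by
    unfold Rc
    rw [H678.dd_sum, Finset.mul_sum]
    refine Finset.sum_congr rfl fun m _ => ?_
    have h3 : ((m + 1 : ℕ) : ℚ) ≠ 0 := by positivity
    rw [dd_C_mul, show τ * (C (Qm p m / ((m + 1 : ℕ) : ℚ)) * dd (u ^ (m + 1)))
      = C (Qm p m / ((m + 1 : ℕ) : ℚ)) * (τ * dd (u ^ (m + 1))) by ring, H678.tau_dd_pow hu,
      ← mul_assoc, ← map_mul, div_mul_cancel₀ _ h3]
  rw [e1]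
  obtain ⟨n, rfl⟩ : ∃ n, p = n + 1 := ⟨p - 1, by omega⟩
  rw [Nat.add_sub_cancel]
  have key : ∀ M ≤ n, (1 - u) * ∑ m ∈ Finset.range M, C (Qm (n + 1) m) * u ^ (m + 1)
      = u * (C (chi (n + 1)) - Hc M.succ 0 u) - C (Qm (n + 1) M) * u ^ (M + 1) := by
    intro M
    induction M with
    | zero =>
      intro _
      have e2 : Hc (Nat.succ 0) 0 u = 1 := by
        unfold H678.Hc
        simp [T.serK]
      rw [Finset.sum_range_zero, mul_zero, e2, chi_eq h1, map_add, map_one]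
      ring
    | succ M ih =>
      intro hM
      rw [Finset.sum_range_succ, mul_add, ih (by omega)]
      have e2 : Hc (Nat.succ (M + 1)) 0 u = Hc (Nat.succ M) 0 u
          + C (coeff (M + 1) serK) * u ^ (M + 1) := by
        unfold H678.Hc
        rw [Nat.succ_eq_add_one, Finset.sum_range_succ, pow_zero, one_mul]
      rw [e2, Qm_succ (p := n + 1) (m := M) (by omega), map_add]
      ring
  rw [key n le_rfl]
  have e3 : Qm (n + 1) n = 0 := by unfold Qm; simp
  rw [e3, map_zero, Nat.succ_eq_add_one]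
  ring

/-! ### degrees -/

lemma natDegree_Hp (a : ℕ) (h1 : 1 ≤ p) : (Hp p a).natDegree ≤ p - 1 := by
  unfold Hp
  refine Polynomial.natDegree_sum_le_of_forall_le _ _ fun j hj => ?_
  have := Finset.mem_range.1 hj
  exact (Polynomial.natDegree_C_mul_X_pow_le _ _).trans (by omega)

lemma natDegree_P0 (h1 : 1 ≤ p) (j : Fin 8) : (P0 p j).natDegree ≤ p := by
  have hX : (1 + Polynomial.X : Polynomial ℚ).natDegree ≤ 1 := by
    rw [add_comm]
    exact (Polynomial.natDegree_X_add_C (1 : ℚ)).le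
  have hH : ∀ a, ((1 + Polynomial.X) * Hp p a).natDegree ≤ p := fun a =>
    Polynomial.natDegree_mul_le.trans (by
      have := natDegree_Hp (p := p) a h1
      omega)
  fin_cases j
  · show (-(Polynomial.C (1 / 4) * (Rp p + Polynomial.C (rho p) * Polynomial.X ^ p))).natDegree ≤ p
    rw [Polynomial.natDegree_neg]
    refine (Polynomial.natDegree_C_mul_le _ _).trans (Polynomial.natDegree_add_le_of_degree_le ?_
      (Polynomial.natDegree_C_mul_X_pow_le _ _))
    unfold Rp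
    refine Polynomial.natDegree_sum_le_of_forall_le _ _ fun j hj => ?_
    have := Finset.mem_range.1 hj
    exact (Polynomial.natDegree_C_mul_X_pow_le _ _).trans (by omega)
  · show (-(Polynomial.C (chi p / 4) * Polynomial.X ^ p)).natDegree ≤ p
    rw [Polynomial.natDegree_neg]
    exact Polynomial.natDegree_C_mul_X_pow_le _ _
  · show (Polynomial.C (chi p / 4)).natDegree ≤ p
    rw [Polynomial.natDegree_C]; omega
  · show (0 : Polynomial ℚ).natDegree ≤ p
    simp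
  · show (0 : Polynomial ℚ).natDegree ≤ p
    simp
  · show (0 : Polynomial ℚ).natDegree ≤ p
    simp
  · show (-((1 + Polynomial.X) * Hp p 1)).natDegree ≤ p
    rw [Polynomial.natDegree_neg]; exact hH 1
  · exact hH 0

lemma natDegree_PY (h1 : 1 ≤ p) (a b : ℕ) (j : Fin 8) : (PY p a b j).natDegree ≤ a + b + p := by
  unfold PY
  have hX : ((1 + Polynomial.X : Polynomial ℚ) ^ b).natDegree ≤ b := by
    refine Polynomial.natDegree_pow_le.trans ?_
    have : (1 + Polynomial.X : Polynomial ℚ).natDegree = 1 := by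
      rw [add_comm]; exact Polynomial.natDegree_X_add_C (1 : ℚ)
    rw [this, mul_one]
  refine Polynomial.natDegree_mul_le.trans (add_le_add (Polynomial.natDegree_mul_le.trans
    (add_le_add ?_ hX)) (natDegree_P0 h1 j))
  exact (Polynomial.natDegree_X_pow a).le

/-! ### values in a chart -/

/-- the value of the row on a group, as a series -/
noncomputable def rowV (p D a b : ℕ) (x : ℚ) (g : Gp) : ℚ⟦X⟧ :=
  ∑ j : Fin 8, ∑ i ∈ Finset.range D,
    C ((PY p a b j).coeff i) * (mon D g.cusp i * (tup0 g j + C x * tup1 g j))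

/-- the series `S_g` -/
noncomputable def Sg (p : ℕ) (u : ℚ⟦X⟧) (x : ℚ) (g : Gp) : ℚ⟦X⟧ :=
  ∑ j : Fin 8, Polynomial.aeval u (P0 p j) * (tup0 g j + C x * tup1 g j)

lemma rowV_chart {D a b : ℕ} {x : ℚ} {g : Gp} (m u : ℚ⟦X⟧) (h1 : 1 ≤ p) (ha : a + b + p < D)
    (hm : ∀ i < D, mon D g.cusp i = m * u ^ i) :
    rowV p D a b x g = m * u ^ a * (1 + u) ^ b * Sg p u x g := by
  unfold rowV Sg
  rw [Finset.mul_sum]
  refine Finset.sum_congr rfl fun j _ => ?_
  have h2 : Polynomial.aeval u (PY p a b j) = u ^ a * (1 + u) ^ b * Polynomial.aeval u (P0 p j) := by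
    unfold PY
    simp only [map_mul, map_pow, map_add, map_one, Polynomial.aeval_X]
  have h3 := Polynomial.aeval_eq_sum_range' (lt_of_le_of_lt (natDegree_PY h1 a b j) ha) u
  have h4 : ∀ i ∈ Finset.range D, C ((PY p a b j).coeff i) * (mon D g.cusp i
      * (tup0 g j + C x * tup1 g j)) = m * ((PY p a b j).coeff i • u ^ i)
        * (tup0 g j + C x * tup1 g j) := by
    intro i hi
    rw [hm i (Finset.mem_range.1 hi), Algebra.smul_def]
    show C ((PY p a b j).coeff i) * _ = m * (C ((PY p a b j).coeff i) * _) * _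
    ring
  rw [Finset.sum_congr rfl h4, ← Finset.sum_mul, ← Finset.mul_sum, ← h3, h2]
  ring

/-! ### integrality -/

lemma Vg_chi (h2 : p ≠ 2) : Vg p 0 (chi p) := Vg.sum fun j _ => H678.VgK h2 j

lemma Vg_Qm (h2 : p ≠ 2) (m : ℕ) : Vg p 0 (Qm p m) := Vg.sum fun j _ => H678.VgK h2 j

lemma Vg_rcoef (h2 : p ≠ 2) {m : ℕ} (hm : m < p - 1) : Vg p 0 (Qm p m / ((m + 1 : ℕ) : ℚ)) :=
  Vg.div_unit (fun hd => by have := Nat.le_of_dvd (by omega) hd; omega) (Vg_Qm h2 m)

lemma Vg_rho (h2 : p ≠ 2) : Vg p 0 (rho p) := by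
  unfold rho Rp
  rw [Polynomial.eval_finsetSum]
  refine Vg.sum fun m hm => ?_
  rw [Polynomial.eval_mul, Polynomial.eval_C, Polynomial.eval_pow, Polynomial.eval_X]
  have h1 := Vg_rcoef h2 (Finset.mem_range.1 hm)
  have h3 := Vg.int (p := p) ((-1) ^ (m + 1))
  have := h1.mul h3
  simpa using this

lemma VB_Rc (h2 : p ≠ 2) {N : ℕ} {u : ℚ⟦X⟧} (hu : VB p N 0 u) : VB p N 0 (Rc p u) :=
  VB.sum fun m hm => (VB.C (Vg_rcoef h2 (Finset.mem_range.1 hm))).mul0 (hu.pow _)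

end Vale.Agent.P030.H404
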