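import Vale.Agent.P030.H404.LineA2

/-!
# P030, odd primes, line (I): the values of the rows `P_Y` on the 17 groups
-/

open PowerSeries

set_option linter.unusedSectionVars false
set_option linter.unusedVariables false

namespace Vale.Agent.P030.H404

open Vale.Agent.P030.T
open Vale.Agent.P030.H678 (Vg VB Hc hK WW EE eps ch tau W0 YY)

variable {p : ℕ} [hp : Fact p.Prime]

lemma dd_lgm : dd lgm = geo := by
  ext n
  simp only [T.dd, T.lgm, T.geo, coeff_mk, Nat.succ_ne_zero, if_false]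
  have : ((n : ℚ) + 1) ≠ 0 := by positivity
  push_cast
  field_simp

lemma dd_lgp : dd lgp = geoa := by
  ext n
  simp only [T.dd, T.lgp, T.geoa, coeff_mk, Nat.succ_ne_zero, if_false]
  have : ((n : ℚ) + 1) ≠ 0 := by positivity
  push_cast
  field_simp
  rw [show n + 1 + 1 = n + 2 by ring, pow_add]; norm_num

/-- a series whose `θ` is `p² q u^(p+1) g` -/
lemma small_of_th {f g : ℚ⟦X⟧} {q : ℚ} (hf : th f = g * (C ((p : ℚ) ^ 2 * q) * X ^ (p + 1)))
    (h0 : coeff 0 f = 0) (hq : Vg p 0 q) (hg : VB p p 0 g) :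
    (∀ n ≤ p, coeff n f = 0) ∧ VB p (2 * p) 2 f := by
  have h1 : ∀ n : ℕ, (n : ℚ) * coeff n f = if p + 1 ≤ n then
      (p : ℚ) ^ 2 * q * coeff (n - (p + 1)) g else 0 := by
    intro n
    have h2 := congrArg (coeff n) hf
    have e1 : g * (C ((p : ℚ) ^ 2 * q) * X ^ (p + 1)) = X ^ (p + 1) * (C ((p : ℚ) ^ 2 * q) * g) := by
      ring
    rw [e1, coeff_X_pow_mul', coeff_C_mul] at h2
    unfold T.th at h2
    rw [coeff_mk] at h2
    exact h2
  have hz : ∀ n : ℕ, n ≤ p → coeff n f = 0 := by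
    intro n hn
    rcases Nat.eq_zero_or_pos n with rfl | hn0
    · exact h0
    · have h2 := h1 n
      rw [if_neg (by omega)] at h2
      have : (n : ℚ) ≠ 0 := by positivity
      exact (mul_eq_zero.1 h2).resolve_left this
  refine ⟨hz, fun n hn => ?_⟩
  by_cases h3 : n ≤ p
  · rw [hz n h3]; exact H678.Vg.zero _
  · have h2 := h1 n
    rw [if_pos (by omega)] at h2
    have hn0 : (n : ℚ) ≠ 0 := by
      have : n ≠ 0 := by omega
      exact_mod_cast this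
    have e2 : coeff n f = ((p : ℚ) ^ 2 * (q * coeff (n - (p + 1)) g)) / n := by
      field_simp; linarith
    rw [e2]
    refine Vg.div_unit (fun hd => ?_) ?_
    · obtain ⟨c, rfl⟩ := hd
      have : c < 2 := by
        by_contra hc
        have : p * 2 ≤ p * c := Nat.mul_le_mul_left p (by omega)
        omega
      have : 1 < c := by
        by_contra hc
        have : p * c ≤ p * 1 := Nat.mul_le_mul_left p (by omega)
        omega
      omega
    · have := (Vg_p_pow (p := p) 2).mul (hq.mul (hg (n - (p + 1)) (by omega)))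
      simpa using this

/-! ### c0 -/

noncomputable def core0 (p : ℕ) : ℚ⟦X⟧ :=
  -(C (1 / 4) * Rc p X) + C (chi p / 4) * lgm + (1 - X ^ 2) * W0 p serB

noncomputable def coreK (p : ℕ) : ℚ⟦X⟧ := (1 - X ^ 2) * W0 p serK

lemma th_W0 (h2 : p ≠ 2) (G : ℚ⟦X⟧) : th ((1 - X ^ 2) * W0 p G)
    = Hc p 0 X * (X * EE G) + G * (C ((p : ℚ) ^ 2 * coeff (p - 1) serK) * X ^ (p + 1)) := by
  have hx : (X : ℚ⟦X⟧) * dd X = X := by rw [H678.dd_X, mul_one]
  have hode : (1 - (X : ℚ⟦X⟧) ^ 2) * (X * dd (X * dd G)) - 2 * X ^ 2 * (X * dd G) - X ^ 2 * G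
      = X * EE G := by
    rw [H678.X_EE, H678.th_eq (th G), H678.th_eq G]; ring
  have w := H678.wronskian (H678.odd_of_ne_two h2) hx hode
  have hV : Hc p 0 X * (X * dd G) - G * Hc p 1 X = W0 p G := by
    unfold H678.W0; rw [H678.th_eq G]; ring
  rw [hV] at w
  rw [H678.th_eq]
  exact w

lemma th_core0 (h2 : p ≠ 2) : th (core0 p)
    = serB * (C ((p : ℚ) ^ 2 * coeff (p - 1) serK) * X ^ (p + 1)) := by
  have hx : (X : ℚ⟦X⟧) * dd X = X := by rw [H678.dd_X, mul_one]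
  have hR := tau_dd_Rc hx hp.out.one_lt.le
  have hg := H678.geo_mul
  have hW := th_W0 h2 serB
  rw [H678.EE_B] at hW
  have e1 : th (core0 p) = -(C (1 / 4) * (X * dd (Rc p X))) + C (chi p / 4) * (X * geo)
      + th ((1 - X ^ 2) * W0 p serB) := by
    unfold core0
    rw [H678.th_add, H678.th_add, th_C_mul, H678.th_eq lgm, dd_lgm]
    congr 2
    have : th (-(C (1 / 4) * Rc p X)) = -th (C (1 / 4) * Rc p X) := by
      rw [H678.th_eq, H678.th_eq, H678.dd_neg]; ring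
    rw [this, th_C_mul, H678.th_eq]
  have e2 : X * dd (Rc p X) = geo * (X * (C (chi p) - Hc p 0 X)) := by
    linear_combination geo * hR - X * dd (Rc p X) * hg
  rw [e1, e2, hW]
  unfold T.sc
  have e3 : (C (chi p / 4) : ℚ⟦X⟧) = C (1 / 4) * C (chi p) := by
    rw [← map_mul]; congr 1; ring
  have e4 : (C (-1 / 4) : ℚ⟦X⟧) = -C (1 / 4) := by
    rw [← map_neg]; congr 1; ring
  rw [e3, e4]
  ring

lemma th_coreK (h2 : p ≠ 2) : th (coreK p)
    = serK * (C ((p : ℚ) ^ 2 * coeff (p - 1) serK) * X ^ (p + 1)) := by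
  unfold coreK
  rw [th_W0 h2, H678.EE_K]
  ring

lemma c0_mul (f g : ℚ⟦X⟧) : coeff 0 (f * g) = coeff 0 f * coeff 0 g := by
  simp [coeff_zero_eq_constantCoeff]

lemma coeff_zero_Hc (a : ℕ) (h1 : 1 ≤ p) : coeff 0 (Hc p (a + 1) X) = 0 := by
  unfold H678.Hc
  rw [map_sum]
  refine Finset.sum_eq_zero fun j _ => ?_
  rw [coeff_C_mul, coeff_X_pow]
  split_ifs with h
  · rw [← h]; simp
  · simp

lemma coeff_zero_W0 (G : ℚ⟦X⟧) : coeff 0 ((1 - X ^ 2) * W0 p G) = 0 := by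
  have h1 : coeff 0 (W0 p G) = 0 := by
    unfold H678.W0
    rw [map_sub, c0_mul, c0_mul, H678.th_eq, c0_mul, coeff_zero_X,
      coeff_zero_Hc (p := p) 0 hp.out.one_lt.le]
    ring
  rw [c0_mul, h1, mul_zero]

/-! ### the series `S_g` -/

lemma aP (u : ℚ⟦X⟧) (q : ℚ) : Polynomial.aeval u (Polynomial.C q) = C q := Polynomial.aeval_C _ _

lemma Sg_eq (u : ℚ⟦X⟧) (x : ℚ) (g : Gp) : Sg p u x g =
    -(C (1 / 4) * (Rc p u + C (rho p) * u ^ p)) * (tup0 g 0 + C x * tup1 g 0)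
    - C (chi p / 4) * u ^ p * (tup0 g 1 + C x * tup1 g 1)
    + C (chi p / 4) * (tup0 g 2 + C x * tup1 g 2)
    - (1 + u) * Hc p 1 u * (tup0 g 6 + C x * tup1 g 6)
    + (1 + u) * Hc p 0 u * (tup0 g 7 + C x * tup1 g 7) := by
  unfold Sg
  rw [Fin.sum_univ_eight]
  have e0 : Polynomial.aeval u (P0 p 0) = -(C (1 / 4) * (Rc p u + C (rho p) * u ^ p)) := by
    show Polynomial.aeval u (-(Polynomial.C (1 / 4) * (Rp p + Polynomial.C (rho p)
      * Polynomial.X ^ p))) = _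
    rw [map_neg, map_mul, map_add, map_mul, aeval_Rp, map_pow, Polynomial.aeval_X, aP, aP]
  have e1 : Polynomial.aeval u (P0 p 1) = -(C (chi p / 4) * u ^ p) := by
    show Polynomial.aeval u (-(Polynomial.C (chi p / 4) * Polynomial.X ^ p)) = _
    rw [map_neg, map_mul, map_pow, Polynomial.aeval_X, aP]
  have e2 : Polynomial.aeval u (P0 p 2) = C (chi p / 4) := aP u _
  have e3 : Polynomial.aeval u (P0 p 3) = 0 := map_zero _
  have e4 : Polynomial.aeval u (P0 p 4) = 0 := map_zero _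
  have e5 : Polynomial.aeval u (P0 p 5) = 0 := map_zero _
  have e6 : Polynomial.aeval u (P0 p 6) = -((1 + u) * Hc p 1 u) := by
    show Polynomial.aeval u (-((1 + Polynomial.X) * Hp p 1)) = _
    rw [map_neg, map_mul, map_add, map_one, Polynomial.aeval_X, aeval_Hp]
  have e7 : Polynomial.aeval u (P0 p 7) = (1 + u) * Hc p 0 u := by
    show Polynomial.aeval u ((1 + Polynomial.X) * Hp p 0) = _
    rw [map_mul, map_add, map_one, Polynomial.aeval_X, aeval_Hp]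
  rw [e0, e1, e2, e3, e4, e5, e6, e7]
  ring

/-- constants `C q` -/
lemma Vg_quarter_mul {q : ℚ} (h2 : p ≠ 2) (hq : Vg p 0 q) : Vg p 0 (q / 4) := by
  have := hq.mul (H678.Vg_quarter h2)
  rw [add_zero] at this
  rwa [show q / 4 = q * (1 / 4) by ring]

lemma S_z1 (x : ℚ) : Sg p X x .z1 = core0 p - C x * coreK p
    - C (1 / 4) * C (rho p) * X ^ p := by
  rw [Sg_eq]
  unfold core0 coreK H678.W0
  show -(C (1 / 4) * (Rc p X + C (rho p) * X ^ p)) * (1 + C x * 0)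
    - C (chi p / 4) * X ^ p * (0 + C x * 0)
    + C (chi p / 4) * (lgm + C x * 0)
    - (1 + X) * Hc p 1 X * ((1 - X) * serB + C x * (-((1 - X) * serK)))
    + (1 + X) * Hc p 0 X * ((1 - X) * th serB + C x * (-((1 - X) * th serK))) = _
  ring

lemma S_zl (x : ℚ) : Sg p X x .zl = -(C (chi p / 4) * X ^ p) := by
  rw [Sg_eq]
  show -(C (1 / 4) * (Rc p X + C (rho p) * X ^ p)) * (0 + C x * 0)
    - C (chi p / 4) * X ^ p * (1 + C x * 0)
    + C (chi p / 4) * (0 + C x * 0)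
    - (1 + X) * Hc p 1 X * (0 + C x * 0)
    + (1 + X) * Hc p 0 X * (0 + C x * 0) = _
  ring

lemma S_z8 (x : ℚ) : Sg p X x .z8 = coreK p := by
  rw [Sg_eq]
  unfold coreK H678.W0
  show -(C (1 / 4) * (Rc p X + C (rho p) * X ^ p)) * (0 + C x * 0)
    - C (chi p / 4) * X ^ p * (0 + C x * 0)
    + C (chi p / 4) * (0 + C x * 0)
    - (1 + X) * Hc p 1 X * ((1 - X) * serK + C x * 0)
    + (1 + X) * Hc p 0 X * ((1 - X) * th serK + C x * 0) = _
  ring

lemma S_zab (u : ℚ⟦X⟧) (x : ℚ) : Sg p u x .zab = 0 := by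
  rw [Sg_eq]
  show -(C (1 / 4) * (Rc p u + C (rho p) * u ^ p)) * (0 + C x * 0)
    - C (chi p / 4) * u ^ p * (0 + C x * 0)
    + C (chi p / 4) * (0 + C x * 0)
    - (1 + u) * Hc p 1 u * (0 + C x * 0)
    + (1 + u) * Hc p 0 u * (0 + C x * 0) = _
  ring

/-- at `c1` -/
noncomputable def core1 (p : ℕ) : ℚ⟦X⟧ :=
  -(C (1 / 4) * Rc p (ch (-1))) - C (chi p / 4) * lgm + (1 + ch (-1)) * WW p (-1) serB2

lemma S_w1 (x : ℚ) : Sg p (ch (-1)) x .w1 = core1 p - C (1 / 4) * C (rho p) * ch (-1) ^ p := by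
  rw [Sg_eq]
  unfold core1 H678.WW
  show -(C (1 / 4) * (Rc p (ch (-1)) + C (rho p) * ch (-1) ^ p)) * (1 + C x * 0)
    - C (chi p / 4) * ch (-1) ^ p * (0 + C x * 0)
    + C (chi p / 4) * (-lgm + C x * 0)
    - (1 + ch (-1)) * Hc p 1 (ch (-1)) * (serB2 + C x * 0)
    + (1 + ch (-1)) * Hc p 0 (ch (-1)) * (tw serB2 + C x * 0) = _
  ring

lemma S_wl (x : ℚ) : Sg p (ch (-1)) x .wl = -(C (chi p / 4) * (1 + ch (-1) ^ p)) := by
  rw [Sg_eq]
  show -(C (1 / 4) * (Rc p (ch (-1)) + C (rho p) * ch (-1) ^ p)) * (0 + C x * 0)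
    - C (chi p / 4) * ch (-1) ^ p * (1 + C x * 0)
    + C (chi p / 4) * (-1 + C x * 0)
    - (1 + ch (-1)) * Hc p 1 (ch (-1)) * (0 + C x * 0)
    + (1 + ch (-1)) * Hc p 0 (ch (-1)) * (0 + C x * 0) = _
  ring

lemma S_w8 (x : ℚ) : Sg p (ch (-1)) x .w8 = (1 + ch (-1)) * WW p (-1) serK := by
  rw [Sg_eq]
  unfold H678.WW
  show -(C (1 / 4) * (Rc p (ch (-1)) + C (rho p) * ch (-1) ^ p)) * (0 + C x * 0)
    - C (chi p / 4) * ch (-1) ^ p * (0 + C x * 0)
    + C (chi p / 4) * (0 + C x * 0)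
    - (1 + ch (-1)) * Hc p 1 (ch (-1)) * (serK + C x * 0)
    + (1 + ch (-1)) * Hc p 0 (ch (-1)) * (tw serK + C x * 0) = _
  ring

lemma S_wy (x : ℚ) : Sg p (ch (-1)) x .wy = -((1 + ch (-1)) * WW p (-1) serK) := by
  rw [Sg_eq]
  unfold H678.WW
  show -(C (1 / 4) * (Rc p (ch (-1)) + C (rho p) * ch (-1) ^ p)) * (0 + C x * 0)
    - C (chi p / 4) * ch (-1) ^ p * (0 + C x * 0)
    + C (chi p / 4) * (0 + C x * 0)
    - (1 + ch (-1)) * Hc p 1 (ch (-1)) * (-serK + C x * 0)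
    + (1 + ch (-1)) * Hc p 0 (ch (-1)) * (-tw serK + C x * 0) = _
  ring

lemma S_x2 (x : ℚ) : Sg p (ch 1) x .x2 = (1 + ch 1) * (C (1 / 8) * (X * WW p 1 serK)) := by
  rw [Sg_eq]
  unfold H678.WW
  show -(C (1 / 4) * (Rc p (ch 1) + C (rho p) * ch 1 ^ p)) * (0 + C x * 0)
    - C (chi p / 4) * ch 1 ^ p * (0 + C x * 0)
    + C (chi p / 4) * (0 + C x * 0)
    - (1 + ch 1) * Hc p 1 (ch 1) * (C (1 / 8) * (X * serK) + C x * 0)
    + (1 + ch 1) * Hc p 0 (ch 1) * (C (1 / 8) * (X * tw serK) + C x * 0) = _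
  ring

lemma S_xl (x : ℚ) : Sg p (ch 1) x .xl = -((1 + ch 1) * (X * WW p 1 serK)) := by
  rw [Sg_eq]
  unfold H678.WW
  show -(C (1 / 4) * (Rc p (ch 1) + C (rho p) * ch 1 ^ p)) * (0 + C x * 0)
    - C (chi p / 4) * ch 1 ^ p * (0 + C x * 0)
    + C (chi p / 4) * (0 + C x * 0)
    - (1 + ch 1) * Hc p 1 (ch 1) * (-(X * serK) + C x * 0)
    + (1 + ch 1) * Hc p 0 (ch 1) * (-(X * tw serK) + C x * 0) = _
  ring

lemma S_x1 (x : ℚ) : Sg p (ch 1) x .x1 = -C (chi p / 4) + (1 + ch 1) * (C (1 / 4) * YY p 1) := by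
  rw [Sg_eq]
  unfold H678.YY H678.WW
  show -(C (1 / 4) * (Rc p (ch 1) + C (rho p) * ch 1 ^ p)) * (0 + C x * 0)
    - C (chi p / 4) * ch 1 ^ p * (0 + C x * 0)
    + C (chi p / 4) * (-1 + C x * 0)
    - (1 + ch 1) * Hc p 1 (ch 1) * (C (1 / 4) * (X * serM) + C x * 0)
    + (1 + ch 1) * Hc p 0 (ch 1) * (C (1 / 4) * (X * tw serM + C (1 / 2) * ((1 - X ^ 2) * serK))
      + C x * 0) = _
  ring

/-! ### charts -/

lemma one_add_ch_neg : 1 + ch (-1) = -(2 * X * geo) := by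
  unfold H678.ch
  have hg := H678.geo_mul
  rw [map_neg, map_one]
  linear_combination -hg

lemma one_add_ch_one : 1 + ch 1 = 2 * geo := by
  unfold H678.ch
  have hg := H678.geo_mul
  rw [map_one]
  linear_combination -hg

lemma dd_ch (s : ℚ) : dd (ch s) = C s * (2 * geo ^ 2) := by
  unfold H678.ch
  rw [dd_C_mul, H678.dd_mul, H678.dd_geo, H678.dd_add, H678.dd_one, H678.dd_X]
  have hg := H678.geo_mul
  linear_combination -(C s * geo) * hg

lemma dd_Rc_neg (h1 : 1 ≤ p) :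
    dd (Rc p (ch (-1))) = -(geo * (C (chi p) - Hc p 0 (ch (-1)))) := by
  have hR := tau_dd_Rc (p := p) (H678.tau_ch (-1)) h1
  have hg := H678.geo_mul
  have e : (C (1 / 2) : ℚ⟦X⟧) * 2 = 1 := by rw [H678.two_eq, ← map_mul]; norm_num
  have e1 : (1 - ch (-1)) * tau = (1 + X) := by
    unfold H678.ch H678.tau
    rw [map_neg, map_one]
    linear_combination C (1 / 2) * (1 + X) ^ 2 * hg + (1 + X) * e
  have e3 : ch (-1) = -((1 + X) * geo) := by
    unfold H678.ch; rw [map_neg, map_one]; ring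
  have hgen : ∀ (Q R : ℚ⟦X⟧), (1 - ch (-1)) * (tau * R) = ch (-1) * Q →
      (1 + X) * R = (1 + X) * -(geo * Q) := by
    intro Q R h
    linear_combination -R * e1 + h + Q * e3
  have hne : (1 + X : ℚ⟦X⟧) ≠ 0 := by
    intro h
    have := congrArg (coeff 0) h
    simp at this
  exact mul_left_cancel₀ hne (hgen _ _ hR)


/-! ### values at `c0` -/

lemma coeff_mul_zero {F G : ℚ⟦X⟧} {n : ℕ} (hG : ∀ k < n, coeff k G = 0) :
    ∀ k < n, coeff k (F * G) = 0 := by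
  intro k hk
  rw [coeff_mul]
  refine Finset.sum_eq_zero fun ij hij => ?_
  have : ij.1 + ij.2 = k := by simpa using hij
  rw [hG ij.2 (by omega), mul_zero]

lemma VB_X_pow_mul {N b : ℕ} {e : ℤ} {G : ℚ⟦X⟧} (h : VB p N e G) : VB p (b + N) e (X ^ b * G) := by
  intro k hk
  rw [coeff_X_pow_mul']
  split_ifs with h1
  · exact h _ (by omega)
  · exact H678.Vg.zero _

lemma coeff_zero_Rc : coeff 0 (Rc p X) = 0 := by
  unfold Rc
  rw [map_sum]
  refine Finset.sum_eq_zero fun m _ => ?_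
  rw [coeff_C_mul, coeff_X_pow, if_neg (by omega), mul_zero]

lemma core0_zero : coeff 0 (core0 p) = 0 := by
  unfold core0
  rw [map_add, map_add, map_neg, coeff_C_mul, coeff_C_mul, coeff_zero_Rc, coeff_zero_W0]
  simp [T.lgm]

lemma core0_small (h2 : p ≠ 2) :
    (∀ n ≤ p, coeff n (core0 p) = 0) ∧ VB p (2 * p) 2 (core0 p) :=
  small_of_th (th_core0 h2) core0_zero (H678.VgK h2 _) (fun n hn => by
    have := cB_low h2 n hn
    rwa [serB, coeff_mk])

lemma coreK_small (h2 : p ≠ 2) :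
    (∀ n ≤ p, coeff n (coreK p) = 0) ∧ VB p (2 * p) 2 (coreK p) :=
  small_of_th (th_coreK h2) (coeff_zero_W0 _) (H678.VgK h2 _) (H678.VBK h2 _)

/-- the unit in front, at `c0` -/
lemma VB_F0 (D a b : ℕ) {N : ℕ} : VB p N 0 ((geo ^ (D - 1) * X ^ a * (1 + X) ^ b : ℚ⟦X⟧)) :=
  ((VB.geo.pow _).mul0 (VB.X.pow _)).mul0 (VB_one_add_X.pow _)

lemma rowV_c0 {D a b : ℕ} (ha : a + b + p < D) (x : ℚ) {g : Gp} (hg : g.cusp = 0) :
    rowV p D a b x g = geo ^ (D - 1) * X ^ a * (1 + X) ^ b * Sg p X x g :=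
  rowV_chart _ _ hp.out.one_lt.le ha (fun i _ => by rw [hg]; exact H678.mon0 D i)

variable {D a b : ℕ} {x : ℚ}

lemma V_z1 (h2 : p ≠ 2) (ha : a + b + p < D) (hx : Vg p 0 x) :
    (∀ k < p, coeff k (rowV p D a b x .z1) = 0) ∧ VB p (2 * p) 0 (rowV p D a b x .z1) := by
  rw [rowV_c0 ha x rfl, S_z1]
  constructor
  · refine coeff_mul_zero fun k hk => ?_
    rw [map_sub, map_sub, coeff_C_mul, (core0_small h2).1 k hk.le, (coreK_small h2).1 k hk.le,
      mul_assoc, coeff_C_mul, coeff_C_mul, coeff_X_pow, if_neg hk.ne]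
    ring
  · refine (VB_F0 D a b).mul0 ((VB.sub (VB.sub ?_ ?_) ?_))
    · exact (core0_small h2).2.mono (by norm_num)
    · exact (VB.C hx).mul0 ((coreK_small h2).2.mono (by norm_num))
    · exact ((VB.C (H678.Vg_quarter h2)).mul0 (VB.C (Vg_rho h2))).mul0 (VB.X.pow _)

lemma V_zl (h2 : p ≠ 2) (ha : a + b + p < D) :
    (∀ k < p, coeff k (rowV p D a b x .zl) = 0) ∧ ∀ N, VB p N 0 (rowV p D a b x .zl) := by
  rw [rowV_c0 ha x rfl, S_zl]
  constructor
  · refine coeff_mul_zero fun k hk => ?_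
    rw [map_neg, coeff_C_mul, coeff_X_pow, if_neg hk.ne]
    ring
  · intro N
    exact (VB_F0 D a b).mul0 ((VB.C (Vg_quarter_mul h2 (Vg_chi h2))).mul0 (VB.X.pow _)).neg

lemma V_z8 (h2 : p ≠ 2) (ha : a + b + p < D) :
    (∀ k < p, coeff k (rowV p D a b x .z8) = 0) ∧ VB p (2 * p) 2 (rowV p D a b x .z8) := by
  rw [rowV_c0 ha x rfl, S_z8]
  exact ⟨coeff_mul_zero fun k hk => (coreK_small h2).1 k hk.le,
    (VB_F0 D a b).mul0 (coreK_small h2).2⟩

lemma V_zab (ha : a + b + p < D) : rowV p D a b x .zab = 0 := by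
  rw [rowV_c0 ha x rfl, S_zab, mul_zero]

/-! ### values at `c1` -/

lemma rowV_c1 {D a b : ℕ} (ha : a + b + p < D) (x : ℚ) {g : Gp} (hg : g.cusp = 1) :
    rowV p D a b x g = X ^ b * (sc (1 / 2 ^ (D - 1)) ((1 - X) ^ (D - 1)) * ch (-1) ^ a
      * (-(2 * geo)) ^ b * Sg p (ch (-1)) x g) := by
  rw [rowV_chart _ _ hp.out.one_lt.le ha (fun i hi => by rw [hg]; exact H678.mon1 hi),
    one_add_ch_neg, show (-(2 * X * geo) : ℚ⟦X⟧) = X * -(2 * geo) by ring, mul_pow X]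
  ring

lemma VB_two {N : ℕ} : VB p N 0 (2 : ℚ⟦X⟧) := by
  rw [H678.two_eq]
  exact VB.C (by exact_mod_cast Vg.nat (p := p) 2)

lemma VB_F1 (h2 : p ≠ 2) (D a b : ℕ) {N : ℕ} :
    VB p N 0 ((sc (1 / 2 ^ (D - 1)) ((1 - X) ^ (D - 1)) * ch (-1) ^ a * (-(2 * geo)) ^ b : ℚ⟦X⟧)) :=
  ((VB.sc0 (H678.Vg_two_pow h2 _) (H678.VB_one_sub_X.pow _)).mul0
    ((H678.VB_ch (Or.inr rfl)).pow a)).mul0 ((VB_two.mul0 VB.geo).neg.pow b)

lemma dd_core1 (h2 : p ≠ 2) : dd (core1 p) = geo2 * (1 - X) * (serB2 * eps p (-1)) := by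
  have h := H678.dd_WW (p := p) (Or.inr rfl : (-1 : ℚ) = 1 ∨ (-1 : ℚ) = -1)
    (H678.odd_of_ne_two h2) serB2
  rw [H678.EE_B2] at h
  have e1 : core1 p = -(C (1 / 4) * Rc p (ch (-1))) - C (chi p / 4) * lgm
      - C 2 * (X * geo * WW p (-1) serB2) := by
    unfold core1
    rw [one_add_ch_neg, ← H678.two_eq]
    ring
  have e2 : (C (1 / 2) : ℚ⟦X⟧) * C 2 = 1 := by rw [← map_mul]; norm_num
  have e3 : (C (chi p / 4) : ℚ⟦X⟧) = C (1 / 4) * C (chi p) := by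
    rw [← map_mul]; congr 1; ring
  have e4 : (C (-1 / 4) : ℚ⟦X⟧) = -C (1 / 4) := by
    rw [← map_neg]; congr 1; ring
  rw [e1, H678.dd_sub, H678.dd_sub, H678.dd_neg, dd_C_mul, dd_C_mul, dd_C_mul, dd_lgm, h,
    dd_Rc_neg hp.out.one_lt.le, e3, e4]
  generalize Hc p 0 (ch (-1)) = H
  linear_combination (-(geo * (H * -C (1 / 4)) - geo2 * (1 - X) * (serB2 * eps p (-1)))) * e2

lemma coeff_zero_ch (s : ℚ) : coeff 0 (ch s) = s := by
  unfold H678.ch
  rw [coeff_C_mul, c0_mul]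
  simp [T.geo]

lemma coeff_zero_pow (f : ℚ⟦X⟧) (n : ℕ) : coeff 0 (f ^ n) = coeff 0 f ^ n := by
  simp [coeff_zero_eq_constantCoeff]

lemma core1_zero : coeff 0 (core1 p) = -(1 / 4 * rho p) := by
  unfold core1
  rw [map_add, map_sub, map_neg, coeff_C_mul, coeff_C_mul, one_add_ch_neg]
  have e1 : coeff 0 (Rc p (ch (-1))) = rho p := by
    unfold Rc rho Rp
    rw [map_sum, Polynomial.eval_finsetSum]
    refine Finset.sum_congr rfl fun m _ => ?_
    rw [coeff_C_mul, coeff_zero_pow, coeff_zero_ch, Polynomial.eval_mul, Polynomial.eval_C,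
      Polynomial.eval_pow, Polynomial.eval_X]
  have e2 : coeff 0 (-(2 * X * geo) * WW p (-1) serB2) = 0 := by
    rw [show -(2 * X * geo) * WW p (-1) serB2 = X * (-(2 * geo) * WW p (-1) serB2) by ring,
      coeff_zero_X_mul]
  rw [e1, e2]
  simp [T.lgm]

/-- `1 + u^p` is small below `p` -/
lemma small_one_add (h2 : p ≠ 2) : VB p p 1 (1 + ch (-1) ^ p) := by
  have hodd : Odd p := hp.out.odd_of_ne_two h2
  have h0 : coeff 0 (1 + ch (-1) ^ p) = 0 := by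
    rw [map_add, coeff_zero_pow, coeff_zero_ch, hodd.neg_one_pow]
    simp
  have h1 : dd (1 + ch (-1) ^ p) = C (p : ℚ) * (ch (-1) ^ (p - 1) * dd (ch (-1))) := by
    rw [H678.dd_add, H678.dd_one, H678.dd_eq, H678.dd_eq, Derivation.leibniz_pow, zero_add]
    simp only [smul_eq_mul, nsmul_eq_mul]
    rw [map_natCast]
  intro n hn
  rcases Nat.eq_zero_or_pos n with rfl | hn0
  · rw [h0]; exact H678.Vg.zero _
  · have h3 : Vg p 1 (coeff (n - 1) (dd (1 + ch (-1) ^ p))) := by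
      rw [h1, coeff_C_mul]
      have h4 : VB p p 0 (ch (-1) ^ (p - 1) * dd (ch (-1))) := by
        refine ((H678.VB_ch (Or.inr rfl)).pow _).mul0 ?_
        rw [dd_ch]
        exact (VB.C (by simpa using (H678.Vg.one (p := p)).neg)).mul0 (VB_two.mul0 (VB.geo.pow 2))
      have := (Vg_p (p := p)).mul (h4 (n - 1) (by omega))
      simpa using this
    have h5 : coeff (n - 1) (dd (1 + ch (-1) ^ p)) = (n : ℚ) * coeff n (1 + ch (-1) ^ p) := by
      obtain ⟨m, rfl⟩ : ∃ m, n = m + 1 := ⟨n - 1, by omega⟩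
      rw [T.dd, coeff_mk, Nat.add_sub_cancel]
      push_cast; ring
    rw [h5] at h3
    have h6 := Vg.div_unit (p := p) (n := n) (fun hd => by
      have := Nat.le_of_dvd hn0 hd; omega) h3
    have hn' : (n : ℚ) ≠ 0 := by positivity
    rwa [mul_div_cancel_left₀ _ hn'] at h6

lemma core1_small (h2 : p ≠ 2) :
    VB p p 1 (core1 p + C (1 / 4 * rho p)) ∧ VB p (2 * p) 0 (core1 p) := by
  have h1 := dd_core1 (p := p) h2
  have h3 : VB p p 2 (dd (core1 p)) := by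
    rw [h1]
    refine (VB.geo2.mul0 H678.VB_one_sub_X).mul0 ?_
    have hB : VB p p 0 serB2 := fun n hn => by
      have := cB2_low h2 n hn
      rwa [serB2, coeff_mk]
    exact hB.mul0 (H678.VB_eps h2 (Or.inr rfl))
  have h4 : VB p (2 * p) 0 (dd (core1 p)) := by
    rw [h1]
    refine (VB.geo2.mul0 H678.VB_one_sub_X).mul0 ?_
    have := (H678.VBB2 (p := p) h2 (two_p_le (p := p))).mul
      (H678.VB_eps h2 (Or.inr rfl : (-1 : ℚ) = 1 ∨ (-1 : ℚ) = -1))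
    simpa using this
  have h5 : ∀ n, 0 < n → coeff n (core1 p) = coeff (n - 1) (dd (core1 p)) / n := by
    intro n hn
    obtain ⟨m, rfl⟩ : ∃ m, n = m + 1 := ⟨n - 1, by omega⟩
    rw [T.dd, coeff_mk, Nat.add_sub_cancel]
    have : ((m : ℚ) + 1) ≠ 0 := by positivity
    push_cast
    field_simp
  have hrho : Vg p 0 (1 / 4 * rho p) := by
    have := (H678.Vg_quarter (p := p) h2).mul (Vg_rho h2)
    simpa using this
  constructor
  · intro n hn
    rw [map_add, coeff_C]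
    rcases Nat.eq_zero_or_pos n with rfl | hn0
    · rw [core1_zero, if_pos rfl]
      have : -(1 / 4 * rho p) + 1 / 4 * rho p = 0 := by ring
      rw [this]; exact H678.Vg.zero _
    · rw [if_neg (by omega), add_zero, h5 n hn0]
      exact (Vg.div_unit (fun hd => by have := Nat.le_of_dvd hn0 hd; omega)
        (h3 (n - 1) (by omega))).mono (by norm_num)
  · intro n hn
    rcases Nat.eq_zero_or_pos n with rfl | hn0
    · rw [core1_zero]; exact hrho.neg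
    · rw [h5 n hn0]
      by_cases hd : p ∣ n
      · have hnp : n = p := by
          obtain ⟨c, rfl⟩ := hd
          have : c < 2 := by
            by_contra hc
            have : p * 2 ≤ p * c := Nat.mul_le_mul_left p (by omega)
            omega
          have : c ≠ 0 := by rintro rfl; simp at hn0
          have : c = 1 := by omega
          rw [this, mul_one]
        have hlt : n < p ^ 2 := lt_of_lt_of_le hn (two_p_le (p := p))
        exact (Vg.div_nat hn0 hlt (h3 (n - 1) (by omega))).mono (by norm_num)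
      · exact Vg.div_unit hd (h4 (n - 1) (by omega))

lemma V_w1 (h2 : p ≠ 2) (ha : a + b + p < D) :
    VB p (b + p) 1 (rowV p D a b x .w1) ∧ VB p (2 * p) 0 (rowV p D a b x .w1) := by
  have hrho : Vg p 0 (1 / 4 * rho p) := by
    have := (H678.Vg_quarter (p := p) h2).mul (Vg_rho h2)
    simpa using this
  have e1 : core1 p - C (1 / 4) * C (rho p) * ch (-1) ^ p
      = core1 p + C (1 / 4 * rho p) - C (1 / 4 * rho p) * (1 + ch (-1) ^ p) := by
    rw [map_mul]; ring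
  rw [rowV_c1 ha x rfl, S_w1]
  constructor
  · refine VB_X_pow_mul ((VB_F1 h2 D a b).mul0 ?_)
    rw [e1]
    exact (core1_small h2).1.sub ((VB.C hrho).mul0 (small_one_add h2))
  · refine (VB.X.pow b).mul0 ((VB_F1 h2 D a b).mul0 ?_)
    exact (core1_small h2).2.sub (((VB.C (H678.Vg_quarter h2)).mul0 (VB.C (Vg_rho h2))).mul0
      ((H678.VB_ch (Or.inr rfl)).pow _))

lemma V_wl (h2 : p ≠ 2) (ha : a + b + p < D) :
    VB p (b + p) 1 (rowV p D a b x .wl) ∧ ∀ N, VB p N 0 (rowV p D a b x .wl) := by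
  rw [rowV_c1 ha x rfl, S_wl]
  constructor
  · refine VB_X_pow_mul ((VB_F1 h2 D a b).mul0 ?_)
    exact ((VB.C (Vg_quarter_mul h2 (Vg_chi h2))).mul0 (small_one_add h2)).neg
  · intro N
    refine (VB.X.pow b).mul0 ((VB_F1 h2 D a b).mul0 ?_)
    exact ((VB.C (Vg_quarter_mul h2 (Vg_chi h2))).mul0
      (VB.one.add ((H678.VB_ch (Or.inr rfl)).pow _))).neg

lemma coeff_X_pow_mul_lt (G : ℚ⟦X⟧) : ∀ k < b, coeff k (X ^ b * G) = 0 := by
  intro k hk
  rw [coeff_X_pow_mul', if_neg (by omega)]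

lemma VB_wK (h2 : p ≠ 2) {N : ℕ} (hN : N + 1 ≤ p ^ 2) : VB p N 1 ((1 + ch (-1)) * WW p (-1) serK) :=
  (VB.one.add (H678.VB_ch (Or.inr rfl))).mul0 (H678.VB_WW_K h2 (Or.inr rfl) hN)

lemma V_w8 (h2 : p ≠ 2) (ha : a + b + p < D) :
    (∀ k < b, coeff k (rowV p D a b x .w8) = 0) ∧
      ∀ N, N + 1 ≤ p ^ 2 → VB p N 1 (rowV p D a b x .w8) := by
  rw [rowV_c1 ha x rfl, S_w8]
  exact ⟨coeff_X_pow_mul_lt _, fun N hN => (VB.X.pow b).mul0 ((VB_F1 h2 D a b).mul0 (VB_wK h2 hN))⟩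

lemma V_wy (h2 : p ≠ 2) (ha : a + b + p < D) :
    (∀ k < b, coeff k (rowV p D a b x .wy) = 0) ∧
      ∀ N, N + 1 ≤ p ^ 2 → VB p N 1 (rowV p D a b x .wy) := by
  rw [rowV_c1 ha x rfl, S_wy]
  exact ⟨coeff_X_pow_mul_lt _,
    fun N hN => (VB.X.pow b).mul0 ((VB_F1 h2 D a b).mul0 (VB_wK h2 hN).neg)⟩

lemma Sg_wab (u : ℚ⟦X⟧) (x : ℚ) : Sg p u x .wab = 0 := by
  rw [Sg_eq]
  show -(C (1 / 4) * (Rc p u + C (rho p) * u ^ p)) * (0 + C x * 0)
    - C (chi p / 4) * u ^ p * (0 + C x * 0)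
    + C (chi p / 4) * (0 + C x * 0)
    - (1 + u) * Hc p 1 u * (0 + C x * 0)
    + (1 + u) * Hc p 0 u * (0 + C x * 0) = _
  ring

lemma Sg_wf7 (u : ℚ⟦X⟧) (x : ℚ) : Sg p u x .wf7 = 0 := by
  rw [Sg_eq]
  show -(C (1 / 4) * (Rc p u + C (rho p) * u ^ p)) * (0 + C x * 0)
    - C (chi p / 4) * u ^ p * (0 + C x * 0)
    + C (chi p / 4) * (0 + C x * 0)
    - (1 + u) * Hc p 1 u * (0 + C x * 0)
    + (1 + u) * Hc p 0 u * (0 + C x * 0) = _
  ring

lemma V_wab (ha : a + b + p < D) : rowV p D a b x .wab = 0 := by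
  rw [rowV_c1 ha x rfl, Sg_wab]; ring

lemma V_wf7 (ha : a + b + p < D) : rowV p D a b x .wf7 = 0 := by
  rw [rowV_c1 ha x rfl, Sg_wf7]; ring

/-! ### values at `c3` -/

lemma rowV_c3 {D a b : ℕ} (ha : a + b + p < D) (x : ℚ) {g : Gp} (hg : g.cusp = 3) :
    rowV p D a b x g = sc (1 / (-2) ^ (D - 1)) ((1 - X) ^ (D - 1)) * ch 1 ^ a
      * (2 * geo) ^ b * Sg p (ch 1) x g := by
  rw [rowV_chart _ _ hp.out.one_lt.le ha (fun i hi => by rw [hg]; exact H678.mon3 hi),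
    one_add_ch_one]

lemma VB_F3 (h2 : p ≠ 2) (D a b : ℕ) {N : ℕ} :
    VB p N 0 ((sc (1 / (-2) ^ (D - 1)) ((1 - X) ^ (D - 1)) * ch 1 ^ a * (2 * geo) ^ b : ℚ⟦X⟧)) :=
  ((VB.sc0 (H678.Vg_neg_two_pow h2 _) (H678.VB_one_sub_X.pow _)).mul0
    ((H678.VB_ch (Or.inl rfl)).pow a)).mul0 ((VB_two.mul0 VB.geo).pow b)

lemma V_x2 (h2 : p ≠ 2) (ha : a + b + p < D) {N : ℕ} (hN : N + 1 ≤ p ^ 2) :
    VB p N 1 (rowV p D a b x .x2) := by
  rw [rowV_c3 ha x rfl, S_x2]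
  refine (VB_F3 h2 D a b).mul0 ((VB.one.add (H678.VB_ch (Or.inl rfl))).mul0
    ((VB.C (H678.Vg_eighth h2)).mul0 (VB.X.mul0 (H678.VB_WW_K h2 (Or.inl rfl) hN))))

lemma V_xl (h2 : p ≠ 2) (ha : a + b + p < D) {N : ℕ} (hN : N + 1 ≤ p ^ 2) :
    VB p N 1 (rowV p D a b x .xl) := by
  rw [rowV_c3 ha x rfl, S_xl]
  exact (VB_F3 h2 D a b).mul0 ((VB.one.add (H678.VB_ch (Or.inl rfl))).mul0
    (VB.X.mul0 (H678.VB_WW_K h2 (Or.inl rfl) hN))).neg

lemma coeff_zero_Hc_one : coeff 0 (Hc p 0 (ch 1)) = chi p := by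
  unfold H678.Hc chi
  rw [map_sum]
  refine Finset.sum_congr rfl fun j _ => ?_
  rw [coeff_C_mul, coeff_zero_pow, coeff_zero_ch]
  simp

lemma V_x1 (h2 : p ≠ 2) (ha : a + b + p < D) : VB p p 1 (rowV p D a b x .x1) := by
  rw [rowV_c3 ha x rfl, S_x1]
  refine (VB_F3 h2 D a b).mul0 ?_
  have hodd := H678.odd_of_ne_two (p := p) h2
  have hp1 := hp.out.one_lt
  have hN : p + 1 ≤ p ^ 2 := by nlinarith
  have h := H678.dd_YY (p := p) (Or.inl rfl : (1 : ℚ) = 1 ∨ (1 : ℚ) = -1) hodd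
  have h1 : VB p p 1 (dd (geo * YY p 1)) := by
    rw [h]
    refine VB.sub (VB.neg (VB.geo.mul0 (H678.VB_WW_K h2 (Or.inl rfl) hN))) ?_
    refine (VB.C (H678.Vg_half h2)).mul0 (VB.mul0 (VB.geo2.mul0 (VB.one.sub VB.X)) ?_)
    exact ((H678.VBM h2 (by omega : p ≤ p ^ 2)).mul (H678.VB_eps h2 (Or.inl rfl))).mono (by norm_num)
  have e1 : -C (chi p / 4) + (1 + ch 1) * (C (1 / 4) * YY p 1)
      = C (1 / 2) * (geo * YY p 1 - C (chi p / 2)) := by
    rw [one_add_ch_one]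
    have e2 : (C (1 / 2) : ℚ⟦X⟧) = 2 * C (1 / 4) := by
      rw [H678.two_eq, ← map_mul]; norm_num
    have e3 : (C (chi p / 4) : ℚ⟦X⟧) = C (1 / 2) * C (chi p / 2) := by
      rw [← map_mul]; congr 1; ring
    rw [e3, mul_sub]
    rw [e2]
    ring
  rw [e1]
  refine (VB.C (H678.Vg_half h2)).mul0 fun n hn => ?_
  rw [map_sub, coeff_C]
  rcases Nat.eq_zero_or_pos n with rfl | hn0
  · rw [if_pos rfl]
    have e4 : coeff 0 (geo * YY p 1) = chi p / 2 := by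
      unfold H678.YY
      rw [c0_mul, map_add, coeff_zero_X_mul, coeff_C_mul, c0_mul, c0_mul, coeff_zero_Hc_one]
      simp [T.geo, T.serK]
      ring
    rw [e4, sub_self]; exact H678.Vg.zero _
  · rw [if_neg (by omega), sub_zero]
    have h5 : coeff n (geo * YY p 1) = coeff (n - 1) (dd (geo * YY p 1)) / n := by
      obtain ⟨m, rfl⟩ : ∃ m, n = m + 1 := ⟨n - 1, by omega⟩
      rw [T.dd, coeff_mk, Nat.add_sub_cancel]
      have : ((m : ℚ) + 1) ≠ 0 := by positivity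
      push_cast
      field_simp
    rw [h5]
    exact Vg.div_unit (fun hd => by have := Nat.le_of_dvd hn0 hd; omega) (h1 (n - 1) (by omega))

end Vale.Agent.P030.H404
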