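import Vale.Agent.P030.H404.LineA3

/-!
# P030, odd primes, line (I): the rows `P_Y` at `c2`, and the table of all values
-/

open PowerSeries

set_option linter.unusedSectionVars false
set_option linter.unusedVariables false

namespace Vale.Agent.P030.H404

open Vale.Agent.P030.T
open Vale.Agent.P030.H678 (Vg VB Hc Hr hK WW EE eps ch tau W0 YY)

variable {p : ℕ} [hp : Fact p.Prime]

/-- the value of a polynomial at a component -/
noncomputable def Lp (D : ℕ) (c : Fin 4) (f : ℚ⟦X⟧) (Q : Polynomial ℚ) : ℚ⟦X⟧ :=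
  ∑ i ∈ Finset.range D, C (Q.coeff i) * (mon D c i * f)

lemma Lp_add (D : ℕ) (c : Fin 4) (f : ℚ⟦X⟧) (Q R : Polynomial ℚ) :
    Lp D c f (Q + R) = Lp D c f Q + Lp D c f R := by
  unfold Lp
  rw [← Finset.sum_add_distrib]
  refine Finset.sum_congr rfl fun i _ => ?_
  rw [Polynomial.coeff_add, map_add]; ring

lemma Lp_neg (D : ℕ) (c : Fin 4) (f : ℚ⟦X⟧) (Q : Polynomial ℚ) :
    Lp D c f (-Q) = -Lp D c f Q := by
  unfold Lp
  rw [← Finset.sum_neg_distrib]
  refine Finset.sum_congr rfl fun i _ => ?_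
  rw [Polynomial.coeff_neg, map_neg]; ring

lemma Lp_zero (D : ℕ) (c : Fin 4) (f : ℚ⟦X⟧) : Lp D c f 0 = 0 := by
  unfold Lp
  simp

lemma Lp_sum (D : ℕ) (c : Fin 4) (f : ℚ⟦X⟧) {ι : Type*} (s : Finset ι) (Q : ι → Polynomial ℚ) :
    Lp D c f (∑ i ∈ s, Q i) = ∑ i ∈ s, Lp D c f (Q i) := by
  classical
  induction s using Finset.induction_on with
  | empty => simp [Lp_zero]
  | insert a s ha ih => rw [Finset.sum_insert ha, Finset.sum_insert ha, Lp_add, ih]

lemma Lp_mono (D : ℕ) (c : Fin 4) (f : ℚ⟦X⟧) (r : ℚ) {m : ℕ} (hm : m < D) :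
    Lp D c f (Polynomial.C r * Polynomial.X ^ m) = C r * (mon D c m * f) := by
  unfold Lp
  rw [Finset.sum_eq_single m]
  · rw [Polynomial.coeff_C_mul, Polynomial.coeff_X_pow, if_pos rfl, mul_one]
  · intro i _ hi
    rw [Polynomial.coeff_C_mul, Polynomial.coeff_X_pow, if_neg hi, mul_zero, map_zero, zero_mul]
  · intro h; exact absurd (Finset.mem_range.2 hm) h

lemma rowV_eq_Lp (D a b : ℕ) (x : ℚ) (g : Gp) : rowV p D a b x g
    = ∑ j : Fin 8, Lp D g.cusp (tup0 g j + C x * tup1 g j) (PY p a b j) := rfl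

lemma PY_zero (a b : ℕ) {j : Fin 8} (h : P0 p j = 0) : PY p a b j = 0 := by
  unfold PY; rw [h, mul_zero]

lemma Lp_f_zero (D : ℕ) (c : Fin 4) (Q : Polynomial ℚ) : Lp D c 0 Q = 0 := by
  unfold Lp
  simp

variable {D a b : ℕ} {x : ℚ}

lemma V_v2 : rowV p D a b x .v2 = 0 := by
  rw [rowV_eq_Lp, Fin.sum_univ_eight, PY_zero a b (p := p) (j := 3) rfl,
    PY_zero a b (p := p) (j := 4) rfl, PY_zero a b (p := p) (j := 5) rfl, Lp_zero, Lp_zero, Lp_zero]
  show Lp D 2 (0 + C x * 0) _ + Lp D 2 (0 + C x * 0) _ + Lp D 2 (0 + C x * 0) _ + 0 + 0 + 0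
    + Lp D 2 (0 + C x * 0) _ + Lp D 2 (0 + C x * 0) _ = 0
  simp only [mul_zero, add_zero, Lp_f_zero]

lemma V_vl : rowV p D a b x .vl = 0 := by
  rw [rowV_eq_Lp, Fin.sum_univ_eight, PY_zero a b (p := p) (j := 3) rfl,
    PY_zero a b (p := p) (j := 4) rfl, PY_zero a b (p := p) (j := 5) rfl, Lp_zero, Lp_zero, Lp_zero]
  show Lp D 2 (0 + C x * 0) _ + Lp D 2 (0 + C x * 0) _ + Lp D 2 (0 + C x * 0) _ + 0 + 0 + 0
    + Lp D 2 (0 + C x * 0) _ + Lp D 2 (0 + C x * 0) _ = 0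
  simp only [mul_zero, add_zero, Lp_f_zero]

lemma rowV_vb : rowV p D a b x .vb = Lp D 2 1 (PY p a b 2) := by
  rw [rowV_eq_Lp, Fin.sum_univ_eight, PY_zero a b (p := p) (j := 3) rfl,
    PY_zero a b (p := p) (j := 4) rfl, PY_zero a b (p := p) (j := 5) rfl, Lp_zero, Lp_zero, Lp_zero]
  show Lp D 2 (0 + C x * 0) _ + Lp D 2 (0 + C x * 0) _ + Lp D 2 (1 + C x * 0) _ + 0 + 0 + 0
    + Lp D 2 (0 + C x * 0) _ + Lp D 2 (0 + C x * 0) _ = _
  simp only [mul_zero, add_zero, zero_add, Lp_f_zero]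

lemma V_vb (ha : a + b + p < D) : ∀ k < p, coeff k (rowV p D a b x .vb) = 0 := by
  intro k hk
  rw [rowV_vb]
  unfold Lp
  rw [map_sum]
  refine Finset.sum_eq_zero fun i hi => ?_
  rw [coeff_C_mul]
  by_cases h : i ≤ a + b
  · have e : coeff k (mon D 2 i * 1 : ℚ⟦X⟧) = 0 := by
      rw [mul_one]
      show coeff k (sc ((-1) ^ (D - 1)) (X ^ (D - 1 - i) * geo ^ (D - 1))) = 0
      unfold T.sc
      rw [coeff_C_mul, coeff_X_pow_mul', if_neg (by omega), mul_zero]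
    rw [e, mul_zero]
  · have e : (PY p a b 2).coeff i = 0 := by
      refine Polynomial.coeff_eq_zero_of_natDegree_lt (lt_of_le_of_lt ?_ (not_le.1 h))
      unfold PY
      show (Polynomial.X ^ a * (1 + Polynomial.X) ^ b * Polynomial.C (chi p / 4)).natDegree ≤ a + b
      have hX : ((1 + Polynomial.X : Polynomial ℚ) ^ b).natDegree ≤ b := by
        refine Polynomial.natDegree_pow_le.trans ?_
        have : (1 + Polynomial.X : Polynomial ℚ).natDegree = 1 := by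
          rw [add_comm]; exact Polynomial.natDegree_X_add_C (1 : ℚ)
        rw [this, mul_one]
      refine Polynomial.natDegree_mul_le.trans ?_
      rw [Polynomial.natDegree_C, add_zero]
      exact Polynomial.natDegree_mul_le.trans (add_le_add (Polynomial.natDegree_X_pow a).le hX)
    rw [e, zero_mul]

lemma rowV_v8 : rowV p D a b x .v8
    = Lp D 2 ((1 - X) * dd (X * serK)) (PY p a b 7) + Lp D 2 (-((1 - X) * serK)) (PY p a b 6) := by
  rw [rowV_eq_Lp, Fin.sum_univ_eight, PY_zero a b (p := p) (j := 3) rfl,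
    PY_zero a b (p := p) (j := 4) rfl, PY_zero a b (p := p) (j := 5) rfl, Lp_zero, Lp_zero, Lp_zero]
  show Lp D 2 (0 + C x * 0) _ + Lp D 2 (0 + C x * 0) _ + Lp D 2 (0 + C x * 0) _ + 0 + 0 + 0
    + Lp D 2 (-((1 - X) * serK) + C x * 0) _ + Lp D 2 ((1 - X) * dd (X * serK) + C x * 0) _ = _
  simp only [mul_zero, add_zero, zero_add, Lp_f_zero]
  ring

lemma Lp_Hp (f : ℚ⟦X⟧) (e : ℕ) (ha : a + p ≤ D) :
    Lp D 2 f (Polynomial.X ^ a * Hp p e)
      = ∑ q ∈ Finset.range p, C ((q : ℚ) ^ e * hK q) * (mon D 2 (a + q) * f) := by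
  have e1 : Polynomial.X ^ a * Hp p e
      = ∑ q ∈ Finset.range p, Polynomial.C ((q : ℚ) ^ e * hK q) * Polynomial.X ^ (a + q) := by
    unfold Hp
    rw [Finset.mul_sum]
    refine Finset.sum_congr rfl fun q _ => ?_
    rw [pow_add]
    show _ = Polynomial.C ((q : ℚ) ^ e * coeff q serK) * _
    ring
  rw [e1, Lp_sum]
  refine Finset.sum_congr rfl fun q hq => ?_
  have := Finset.mem_range.1 hq
  exact Lp_mono D 2 f _ (by omega)

lemma Lp_pair (h2 : p ≠ 2) {N : ℕ} (hN : N ≤ p ^ 2) (n : ℕ) : ∀ a, a + n + p ≤ D →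
    VB p N 1 (Lp D 2 ((1 - X) * dd (X * serK)) (Polynomial.X ^ a * (1 + Polynomial.X) ^ n * Hp p 0)
      - Lp D 2 (-((1 - X) * serK)) (Polynomial.X ^ a * (1 + Polynomial.X) ^ n * Hp p 1)) := by
  induction n with
  | zero =>
    intro a ha
    have h := H678.row_v8 (p := p) h2 (D := D) (a := a) (N := N) (by omega) hN
    have e : Lp D 2 ((1 - X) * dd (X * serK)) (Polynomial.X ^ a * (1 + Polynomial.X) ^ 0 * Hp p 0)
        - Lp D 2 (-((1 - X) * serK)) (Polynomial.X ^ a * (1 + Polynomial.X) ^ 0 * Hp p 1)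
        = H678.rowS p D a 2 (tup0 .v8 6) (tup0 .v8 7) := by
      rw [pow_zero, mul_one, Lp_Hp _ _ (by omega), Lp_Hp _ _ (by omega)]
      unfold H678.rowS
      rw [← Finset.sum_sub_distrib]
      refine Finset.sum_congr rfl fun q _ => ?_
      rw [pow_zero, pow_one, one_mul]
      rfl
    rw [e]; exact h
  | succ n ih =>
    intro a ha
    have h1 := ih a (by omega)
    have h3 := ih (a + 1) (by omega)
    have e : ∀ e : ℕ, (Polynomial.X ^ a * (1 + Polynomial.X) ^ (n + 1) * Hp p e : Polynomial ℚ)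
        = Polynomial.X ^ a * (1 + Polynomial.X) ^ n * Hp p e
          + Polynomial.X ^ (a + 1) * (1 + Polynomial.X) ^ n * Hp p e := by
      intro e; ring
    rw [e 0, e 1, Lp_add, Lp_add]
    have := h1.add h3
    refine (congrArg (VB p N 1) ?_).mp this
    ring

lemma V_v8 (h2 : p ≠ 2) (ha : a + b + p < D) {N : ℕ} (hN : N ≤ p ^ 2) :
    VB p N 1 (rowV p D a b x .v8) := by
  rw [rowV_v8]
  have e7 : PY p a b 7 = Polynomial.X ^ a * (1 + Polynomial.X) ^ (b + 1) * Hp p 0 := by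
    unfold PY
    show Polynomial.X ^ a * (1 + Polynomial.X) ^ b * ((1 + Polynomial.X) * Hp p 0) = _
    ring
  have e6 : PY p a b 6 = -(Polynomial.X ^ a * (1 + Polynomial.X) ^ (b + 1) * Hp p 1) := by
    unfold PY
    show Polynomial.X ^ a * (1 + Polynomial.X) ^ b * (-((1 + Polynomial.X) * Hp p 1)) = _
    ring
  rw [e7, e6, Lp_neg, ← sub_eq_add_neg]
  exact Lp_pair h2 hN (b + 1) a (by omega)

end Vale.Agent.P030.H404
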