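import Vale.Agent.P030.H404.LineA4
import Vale.Agent.P030.H678.Ent
import Vale.Agent.P030.H792.Lattice

/-!
# P030, odd primes, line (I): modified columns and their sizes
-/

open PowerSeries

set_option linter.unusedSectionVars false
set_option linter.unusedVariables false

namespace Vale.Agent.P030.H404

open Vale.Agent.P030.T
open Vale.Agent.P030.H678 (Vg VB)

variable {p : ℕ} [hp : Fact p.Prime]

/-- the value of the row `P_Y` on a column -/
noncomputable def rv (p D a b : ℕ) (x : ℚ) (c : Cl) : ℚ :=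
  ∑ r : Fin D × Fin 8, (PY p a b r.2).coeff r.1 * En D x r c

lemma En_eq (D : ℕ) (x : ℚ) (r : Fin D × Fin 8) (c : Cl) :
    En D x r c = coeff c.2 (mon D c.1.cusp r.1 * (tup0 c.1 r.2 + C x * tup1 c.1 r.2)) := by
  unfold En T.ent0 T.ent1
  rw [mul_add, map_add, show mon D c.1.cusp r.1 * (C x * tup1 c.1 r.2)
    = C x * (mon D c.1.cusp r.1 * tup1 c.1 r.2) by ring, coeff_C_mul]
  simp

lemma rv_eq (D a b : ℕ) (x : ℚ) (c : Cl) :
    rv p D a b x c = coeff c.2 (rowV p D a b x c.1) := by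
  unfold rv rowV
  rw [Fintype.sum_prod_type, Finset.sum_comm, map_sum]
  refine Finset.sum_congr rfl fun j _ => ?_
  rw [map_sum, ← Fin.sum_univ_eq_sum_range (fun i => coeff c.2 (C ((PY p a b j).coeff i)
    * (mon D c.1.cusp i * (tup0 c.1 j + C x * tup1 c.1 j)))) D]
  refine Finset.sum_congr rfl fun i _ => ?_
  rw [coeff_C_mul, En_eq]

/-- modified columns -/
def Mq (p m0 m1 : ℕ) (E : Cl → ℚ) (c : Cl) : ℚ :=
  if c.1 = .zab ∧ c.2 < m0 then
    E (.zab, c.2) + (p : ℚ) ^ 2 * cB p * E (.z8, c.2) - (p : ℚ) ^ 2 * E (.z1, p + c.2)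
  else if c.1 = .wab ∧ c.2 < m1 then
    E (.wab, c.2) + 3 / 4 * E (.wy, c.2) + (3 / 4 + (p : ℚ) ^ 2 * cB2 p) * E (.w8, c.2)
      - (p : ℚ) ^ 2 * E (.w1, p + c.2)
  else if c.1 = .wf7 ∧ c.2 < m1 then
    E (.wf7, c.2) - 3 * E (.wab, c.2) + 3 / 4 * (E (.wy, c.2) + E (.w8, c.2))
      - 2 * (p : ℚ) * E (.wl, p + c.2)
  else E c

lemma Mq_sum (p m0 m1 : ℕ) {ι : Type*} (s : Finset ι) (q : ι → ℚ) (E : ι → Cl → ℚ) (c : Cl) :
    Mq p m0 m1 (fun c => ∑ i ∈ s, q i * E i c) c = ∑ i ∈ s, q i * Mq p m0 m1 (E i) c := by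
  unfold Mq
  split_ifs
  · simp only [Finset.mul_sum, mul_add, mul_sub, Finset.sum_add_distrib, Finset.sum_sub_distrib]
    congr 1
    · congr 1
      exact Finset.sum_congr rfl fun i _ => by ring
    · exact Finset.sum_congr rfl fun i _ => by ring
  · simp only [Finset.mul_sum, mul_add, mul_sub, Finset.sum_add_distrib, Finset.sum_sub_distrib]
    congr 1
    · congr 1
      · congr 1
        exact Finset.sum_congr rfl fun i _ => by ring
      · exact Finset.sum_congr rfl fun i _ => by ring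
    · exact Finset.sum_congr rfl fun i _ => by ring
  · simp only [Finset.mul_sum, mul_add, mul_sub, Finset.sum_add_distrib, Finset.sum_sub_distrib]
    congr 1
    · congr 1
      · congr 1
        exact Finset.sum_congr rfl fun i _ => by ring
      · congr 1
        · exact Finset.sum_congr rfl fun i _ => by ring
        · exact Finset.sum_congr rfl fun i _ => by ring
    · exact Finset.sum_congr rfl fun i _ => by ring
  · rfl

/-- is the column modified? -/
def isM (m0 m1 : ℕ) (c : Cl) : Prop :=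
  (c.1 = .zab ∧ c.2 < m0) ∨ (c.1 = .wab ∧ c.2 < m1) ∨ (c.1 = .wf7 ∧ c.2 < m1)

instance (m0 m1 : ℕ) (c : Cl) : Decidable (isM m0 m1 c) := by unfold isM; infer_instance

/-- the weights -/
def wA (p m0 m1 : ℕ) (c : Cl) : ℤ :=
  if isM m0 m1 c then 1 else if c.2 + 3 < p then 0 else H678.wg c.1 - 2

lemma Mq_of_not {p m0 m1 : ℕ} {E : Cl → ℚ} {c : Cl} (h : ¬ isM m0 m1 c) :
    Mq p m0 m1 E c = E c := by
  unfold isM at h
  push Not at h
  unfold Mq
  rw [if_neg (fun h1 => absurd h1.2 (not_lt.2 (h.1 h1.1))),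
    if_neg (fun h1 => absurd h1.2 (not_lt.2 (h.2.1 h1.1))),
    if_neg (fun h1 => absurd h1.2 (not_lt.2 (h.2.2 h1.1)))]

/-- one relation, on a row -/
lemma rel_entry {L e : ℕ} {D : ℕ} (h2 : p ≠ 2) {f g : ℚ⟦X⟧} (h : Rl p L e f g) (cu : Fin 4) (i : ℕ)
    {k : ℕ} (hk : k < L) :
    Vg p 1 ((p : ℚ) ^ e * coeff (p + k) (mon D cu i * f) - coeff k (mon D cu i * g)) := by
  have h1 := (Rl.mul (L := L) (m := mon D cu i) (H678.VB_mon h2 D cu i) h).rel k hk
  rw [map_sub, coeff_C_mul, coeff_hi] at h1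
  exact h1

lemma Vg_x_mul {x y : ℚ} {e : ℤ} (hx : Vg p 0 x) (hy : Vg p e y) : Vg p e (x * y) := by
  have := hx.mul hy
  rwa [zero_add] at this

lemma Vg_b1 (h2 : p ≠ 2) : Vg p 0 ((p : ℚ) ^ 2 * cB p) := by
  have := (Vg_p_pow (p := p) 2).mul (cB_p h2)
  simpa using this

lemma Vg_34 (h2 : p ≠ 2) : Vg p 0 (3 / 4 : ℚ) := by
  have := Vg.nat_mul 3 (H678.Vg_quarter (p := p) h2)
  rwa [show ((3 : ℕ) : ℚ) * (1 / 4) = 3 / 4 by norm_num] at this

lemma Vg_b2 (h2 : p ≠ 2) : Vg p 0 (3 / 4 + (p : ℚ) ^ 2 * cB2 p) := by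
  have := (Vg_p_pow (p := p) 2).mul (cB2_p h2)
  refine (Vg_34 h2).add ?_
  simpa using this

variable {D a b m0 m1 : ℕ} {x : ℚ}

/-- sizes of the unmodified columns -/
lemma Vg_En (hp5 : 5 ≤ p) (hx : Vg p 0 x) (r : Fin D × Fin 8) {c : Cl} (hc : c.2 + 2 ≤ p ^ 2) :
    Vg p (if c.2 + 3 < p then 0 else H678.wg c.1 - 2) (En D x r c) := by
  have h2 : p ≠ 2 := by omega
  have h3 : p ≠ 3 := by omega
  have e : En D x r c = ent0 D c.1 c.2 r.1 r.2 + x * ent1 D c.1 c.2 r.1 r.2 := by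
    unfold En; simp
  rw [e]
  have hx1 : Vg p 0 (x * ent1 D c.1 c.2 r.1 r.2) := by
    refine Vg_x_mul hx ?_
    have := H678.O2_ent1 (p := p) h2 (D := D) c.2 c.1 r.1 r.2
    unfold H678.Vg
    simpa using this
  by_cases hk : c.2 + 3 < p
  · rw [if_pos hk]
    refine Vg.add ?_ hx1
    have := norm_ent0 (p := p) h2 D c.1 c.2 r.1 r.2
    rw [Nat.log_of_lt hk] at this
    unfold H678.Vg
    simpa using this
  · rw [if_neg hk]
    have hw : H678.wg c.1 ≤ 2 := by
      generalize c.1 = g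
      cases g <;> decide
    refine Vg.add ?_ (hx1.mono (by omega))
    have h4 := H678.O2_ent0 (p := p) h2 h3 (D := D) hc c.1 r.1 r.2
    have h5 : H792.wr8 r.2 ≤ 2 := by
      generalize r.2 = j
      fin_cases j <;> decide
    exact Vg.mono (by omega : H678.wg c.1 - 2 ≤ H678.wg c.1 - H792.wr8 r.2) h4

/-- sizes of the modified columns -/
lemma Vg_Mq_En (hp5 : 5 ≤ p) (hx : Vg p 0 x) (r : Fin D × Fin 8) {c : Cl} (hc : c.2 + 2 ≤ p ^ 2)
    (hm0 : m0 + 1 ≤ p) (hm1 : m1 + 1 ≤ p) :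
    Vg p (wA p m0 m1 c) (Mq p m0 m1 (En D x r) c) := by
  have h2 : p ≠ 2 := by omega
  unfold wA
  by_cases hM : isM m0 m1 c
  · rw [if_pos hM]
    obtain ⟨g, k⟩ := c
    rcases hM with ⟨hg, hk⟩ | ⟨hg, hk⟩ | ⟨hg, hk⟩
    · simp only at hg hk
      subst hg
      have h := rel_entry (D := D) h2 (relZ (L := p - 1) h2 (by omega) hx r.2) 0 r.1
        (k := k) (by omega)
      have e : Mq p m0 m1 (En D x r) (.zab, k)
          = -((p : ℚ) ^ 2 * coeff (p + k) (mon D 0 r.1 * (tup0 .z1 r.2 + C x * tup1 .z1 r.2))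
            - coeff k (mon D 0 r.1 * (tup0 .zab r.2 + C ((p : ℚ) ^ 2 * cB p) * tup0 .z8 r.2))) := by
        unfold Mq
        rw [if_pos ⟨rfl, hk⟩, En_eq, En_eq, En_eq]
        show coeff k (mon D 0 r.1 * (tup0 .zab r.2 + C x * 0))
          + (p : ℚ) ^ 2 * cB p * coeff k (mon D 0 r.1 * (tup0 .z8 r.2 + C x * 0))
          - (p : ℚ) ^ 2 * coeff (p + k) (mon D 0 r.1 * (tup0 .z1 r.2 + C x * tup1 .z1 r.2)) = _
        rw [mul_zero, add_zero, add_zero, mul_add (mon D 0 r.1) (tup0 .zab r.2), map_add,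
          show mon D 0 r.1 * (C ((p : ℚ) ^ 2 * cB p) * tup0 .z8 r.2)
            = C ((p : ℚ) ^ 2 * cB p) * (mon D 0 r.1 * tup0 .z8 r.2) by ring, coeff_C_mul]
        ring
      rw [e]; exact h.neg
    · simp only at hg hk
      subst hg
      have h := rel_entry (D := D) h2 (relW (L := p - 1) h2 (by omega) r.2) 1 r.1
        (k := k) (by omega)
      have e : Mq p m0 m1 (En D x r) (.wab, k)
          = -((p : ℚ) ^ 2 * coeff (p + k) (mon D 1 r.1 * tup0 .w1 r.2)
            - coeff k (mon D 1 r.1 * (tup0 .wab r.2 + C (3 / 4) * tup0 .wy r.2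
              + C (3 / 4 + (p : ℚ) ^ 2 * cB2 p) * tup0 .w8 r.2))) := by
        unfold Mq
        rw [if_neg (fun h => by simp at h), if_pos ⟨rfl, hk⟩, En_eq, En_eq, En_eq, En_eq]
        show coeff k (mon D 1 r.1 * (tup0 .wab r.2 + C x * 0))
          + 3 / 4 * coeff k (mon D 1 r.1 * (tup0 .wy r.2 + C x * 0))
          + (3 / 4 + (p : ℚ) ^ 2 * cB2 p) * coeff k (mon D 1 r.1 * (tup0 .w8 r.2 + C x * 0))
          - (p : ℚ) ^ 2 * coeff (p + k) (mon D 1 r.1 * (tup0 .w1 r.2 + C x * 0)) = _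
        simp only [mul_zero, add_zero]
        rw [mul_add (mon D 1 r.1), mul_add (mon D 1 r.1), map_add, map_add,
          show mon D 1 r.1 * (C (3 / 4) * tup0 .wy r.2)
            = C (3 / 4) * (mon D 1 r.1 * tup0 .wy r.2) by ring,
          show mon D 1 r.1 * (C (3 / 4 + (p : ℚ) ^ 2 * cB2 p) * tup0 .w8 r.2)
            = C (3 / 4 + (p : ℚ) ^ 2 * cB2 p) * (mon D 1 r.1 * tup0 .w8 r.2) by ring,
          coeff_C_mul, coeff_C_mul]
        ring
      rw [e]; exact h.neg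
    · simp only at hg hk
      subst hg
      have h := rel_entry (D := D) h2 (relWl (L := p - 1) h2 (by omega) r.2) 1 r.1
        (k := k) (by omega)
      have e : Mq p m0 m1 (En D x r) (.wf7, k)
          = (-2) * ((p : ℚ) ^ 1 * coeff (p + k) (mon D 1 r.1 * tup0 .wl r.2)
            - coeff k (mon D 1 r.1 * (C (1 / 2) * (tup0 .wf7 r.2 - C 3 * tup0 .wab r.2
              + C (3 / 4) * (tup0 .wy r.2 + tup0 .w8 r.2))))) := by
        unfold Mq
        rw [if_neg (fun h => by simp at h), if_neg (fun h => by simp at h), if_pos ⟨rfl, hk⟩,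
          En_eq, En_eq, En_eq, En_eq, En_eq]
        show coeff k (mon D 1 r.1 * (tup0 .wf7 r.2 + C x * 0))
          - 3 * coeff k (mon D 1 r.1 * (tup0 .wab r.2 + C x * 0))
          + 3 / 4 * (coeff k (mon D 1 r.1 * (tup0 .wy r.2 + C x * 0))
            + coeff k (mon D 1 r.1 * (tup0 .w8 r.2 + C x * 0)))
          - 2 * (p : ℚ) * coeff (p + k) (mon D 1 r.1 * (tup0 .wl r.2 + C x * 0)) = _
        simp only [mul_zero, add_zero]
        rw [show mon D 1 r.1 * (C (1 / 2) * (tup0 .wf7 r.2 - C 3 * tup0 .wab r.2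
              + C (3 / 4) * (tup0 .wy r.2 + tup0 .w8 r.2)))
            = C (1 / 2) * (mon D 1 r.1 * tup0 .wf7 r.2 - C 3 * (mon D 1 r.1 * tup0 .wab r.2)
              + C (3 / 4) * (mon D 1 r.1 * tup0 .wy r.2 + mon D 1 r.1 * tup0 .w8 r.2)) by ring,
          coeff_C_mul, map_add, map_sub, coeff_C_mul, coeff_C_mul, map_add]
        ring
      rw [e]
      have h5 : Vg p 0 (-2 : ℚ) := by
        have := (Vg.nat (p := p) 2).neg
        exact_mod_cast this
      exact Vg_x_mul h5 h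
  · rw [if_neg hM, Mq_of_not hM]
    exact Vg_En hp5 hx r hc

/-- values of the rows `P_Y` on the unmodified columns -/
lemma Vg_rv (h2 : p ≠ 2) (hx : Vg p 0 x) (ha : a + b + p < D) {c : Cl} (hc2 : c.2 + 2 ≤ p ^ 2)
    (hcp : c.2 < 2 * p) (hvb : c.1 = .vb → c.2 + 3 < p) (hx1 : c.1 = .x1 → c.2 + 3 < p) :
    Vg p ((if c.2 + 3 < p then 0 else H678.wg c.1 - 2) + 1) (rv p D a b x c) := by
  rw [rv_eq]
  obtain ⟨g, k⟩ := c
  simp only at hc2 hcp hvb hx1 ⊢
  have hN : k + 1 + 1 ≤ p ^ 2 := by omega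
  have h12 : ∀ {e : ℤ} {q : ℚ}, (if k + 3 < p then (0 : ℤ) else 2 - 2) + 1 ≤ e → Vg p e q →
      Vg p ((if k + 3 < p then (0 : ℤ) else 2 - 2) + 1) q := fun h h' => h'.mono h
  have hle : (if k + 3 < p then (0 : ℤ) else 2 - 2) + 1 = 1 := by split_ifs <;> norm_num
  cases g with
  | z1 =>
    by_cases hk : k + 3 < p
    · rw [(V_z1 h2 ha hx).1 k (by omega)]; exact H678.Vg.zero _
    · rw [if_neg hk]
      exact ((V_z1 h2 ha hx).2 k hcp).mono (by simp [H678.wg])
  | zl =>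
    by_cases hk : k + 3 < p
    · rw [(V_zl h2 ha).1 k (by omega)]; exact H678.Vg.zero _
    · rw [if_neg hk]
      exact ((V_zl h2 ha).2 (k + 1) k (by omega)).mono (by simp [H678.wg])
  | z8 => exact ((V_z8 h2 ha).2 k hcp).mono (by simp only [H678.wg]; split_ifs <;> norm_num)
  | zab => rw [V_zab ha, map_zero]; exact H678.Vg.zero _
  | w1 =>
    by_cases hk : k + 3 < p
    · rw [if_pos hk]
      exact ((V_w1 h2 ha).1 k (by omega)).mono (by norm_num)
    · rw [if_neg hk]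
      exact ((V_w1 h2 ha).2 k hcp).mono (by simp [H678.wg])
  | wl =>
    by_cases hk : k + 3 < p
    · rw [if_pos hk]
      exact ((V_wl h2 ha).1 k (by omega)).mono (by norm_num)
    · rw [if_neg hk]
      exact ((V_wl h2 ha).2 (k + 1) k (by omega)).mono (by simp [H678.wg])
  | wy => exact ((V_wy h2 ha).2 (k + 1) hN k (by omega)).mono
            (by simp only [H678.wg]; split_ifs <;> norm_num)
  | w8 => exact ((V_w8 h2 ha).2 (k + 1) hN k (by omega)).mono
            (by simp only [H678.wg]; split_ifs <;> norm_num)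
  | wab => rw [V_wab ha, map_zero]; exact H678.Vg.zero _
  | wf7 => rw [V_wf7 ha, map_zero]; exact H678.Vg.zero _
  | v2 => rw [V_v2, map_zero]; exact H678.Vg.zero _
  | vl => rw [V_vl, map_zero]; exact H678.Vg.zero _
  | v8 => exact (V_v8 h2 ha (N := k + 1) (by omega) k (by omega)).mono
            (by simp only [H678.wg]; split_ifs <;> norm_num)
  | vb => rw [V_vb ha k (by have := hvb rfl; omega)]; exact H678.Vg.zero _
  | x2 => exact (V_x2 h2 ha (N := k + 1) hN k (by omega)).mono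
            (by simp only [H678.wg]; split_ifs <;> norm_num)
  | xl => exact (V_xl h2 ha (N := k + 1) hN k (by omega)).mono
            (by simp only [H678.wg]; split_ifs <;> norm_num)
  | x1 =>
    have hk := hx1 rfl
    rw [if_pos hk]
    exact (V_x1 h2 ha k (by omega)).mono (by norm_num)

/-- values of the rows `P_Y` on all columns -/
lemma Vg_Mq_rv (h2 : p ≠ 2) (hx : Vg p 0 x) (ha : a + b + p < D) {c : Cl} (hc2 : c.2 + 2 ≤ p ^ 2)
    (hcp : c.2 < 2 * p) (hvb : c.1 = .vb → c.2 + 3 < p) (hx1 : c.1 = .x1 → c.2 + 3 < p)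
    (hm0 : m0 + 1 ≤ p) (hm1 : m1 + 1 ≤ p) (hb : m1 ≤ b) :
    Vg p (wA p m0 m1 c + 1) (Mq p m0 m1 (rv p D a b x) c) := by
  unfold wA
  by_cases hM : isM m0 m1 c
  · rw [if_pos hM]
    obtain ⟨g, k⟩ := c
    rcases hM with ⟨hg, hk⟩ | ⟨hg, hk⟩ | ⟨hg, hk⟩
    · simp only at hg hk
      subst hg
      unfold Mq
      rw [if_pos ⟨rfl, hk⟩, rv_eq, rv_eq, rv_eq]
      show Vg p (1 + 1) (coeff k (rowV p D a b x .zab) + (p : ℚ) ^ 2 * cB p
        * coeff k (rowV p D a b x .z8) - (p : ℚ) ^ 2 * coeff (p + k) (rowV p D a b x .z1))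
      rw [V_zab ha, map_zero, (V_z8 h2 ha).1 k (by omega)]
      have h1 := (Vg_p_pow (p := p) 2).mul ((V_z1 h2 ha hx).2 (p + k) (by omega))
      have h3 := h1.neg
      rw [mul_zero, add_zero, zero_sub]
      exact h3.mono (by norm_num)
    · simp only at hg hk
      subst hg
      unfold Mq
      rw [if_neg (fun h => by simp at h), if_pos ⟨rfl, hk⟩, rv_eq, rv_eq, rv_eq, rv_eq]
      show Vg p (1 + 1) (coeff k (rowV p D a b x .wab) + 3 / 4 * coeff k (rowV p D a b x .wy)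
        + (3 / 4 + (p : ℚ) ^ 2 * cB2 p) * coeff k (rowV p D a b x .w8)
        - (p : ℚ) ^ 2 * coeff (p + k) (rowV p D a b x .w1))
      rw [V_wab ha, map_zero, (V_wy h2 ha).1 k (by omega), (V_w8 h2 ha).1 k (by omega)]
      have h1 := (Vg_p_pow (p := p) 2).mul ((V_w1 (x := x) h2 ha).2 (p + k) (by omega))
      have h3 := h1.neg
      rw [mul_zero, mul_zero, add_zero, add_zero, zero_sub]
      exact h3.mono (by norm_num)
    · simp only at hg hk
      subst hg
      unfold Mq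
      rw [if_neg (fun h => by simp at h), if_neg (fun h => by simp at h), if_pos ⟨rfl, hk⟩,
        rv_eq, rv_eq, rv_eq, rv_eq, rv_eq]
      show Vg p (1 + 1) (coeff k (rowV p D a b x .wf7) - 3 * coeff k (rowV p D a b x .wab)
        + 3 / 4 * (coeff k (rowV p D a b x .wy) + coeff k (rowV p D a b x .w8))
        - 2 * (p : ℚ) * coeff (p + k) (rowV p D a b x .wl))
      rw [V_wab ha, map_zero, V_wf7 ha, map_zero, (V_wy h2 ha).1 k (by omega),
        (V_w8 h2 ha).1 k (by omega)]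
      have h1 := (Vg_p (p := p)).mul ((V_wl (x := x) h2 ha).1 (p + k) (by omega))
      have h3 := (Vg.nat_mul 2 h1).neg
      refine (congrArg (Vg p (1 + 1)) ?_).mp h3
      push_cast; ring
  · rw [if_neg hM, Mq_of_not hM]
    exact Vg_rv h2 hx ha hc2 hcp hvb hx1

end Vale.Agent.P030.H404
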