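import Vale.Agent.P030.H404.LineA5

/-!
# P030, odd primes, line (I): the determinant
-/

open Finset Matrix

set_option linter.unusedSectionVars false
set_option linter.unusedVariables false

namespace Vale.Agent.P030.H404

open Vale.Agent.P030.T
open Vale.Agent.P030.H678 (Vg VB)

variable {p : ℕ} [hp : Fact p.Prime]

/-! ### determinants of integral combinations of a family of columns -/

section LA

variable {n κ : Type*} [Fintype n] [DecidableEq n] [Fintype κ]

theorem det_le_of_comb (A : Matrix n n ℚ) (F : Matrix n κ ℚ) {B : ℚ} (hB : 0 ≤ B)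
    (hc : ∀ c, ∃ u : κ → ℚ, (∀ q, padicNorm p (u q) ≤ 1) ∧ ∀ r, A r c = ∑ q, F r q * u q)
    (hτ : ∀ τ : n → κ, Function.Injective τ → padicNorm p (F.submatrix id τ).det ≤ B) :
    padicNorm p A.det ≤ B := by
  choose u hu1 hu2 using hc
  have e : A = F * Matrix.of (fun q c => u c q) := by
    ext r c
    rw [hu2 c r, Matrix.mul_apply]
    rfl
  rw [e, H792.det_mul_sum]
  refine H792.padicNorm_sum_le' _ hB fun τ _ => ?_
  by_cases h : Function.Injective τ
  · rw [padicNorm.mul, H792.padicNorm_prod]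
    have h1 : ∏ c, padicNorm p (Matrix.of (fun q c => u c q) (τ c) c) ≤ 1 :=
      Finset.prod_le_one (fun c _ => padicNorm.nonneg _) fun c _ => hu1 c (τ c)
    calc _ ≤ 1 * B := mul_le_mul h1 (hτ τ h) (padicNorm.nonneg _) zero_le_one
      _ = B := one_mul _
  · rw [H792.det_submatrix_not_inj _ h, mul_zero, padicNorm.zero]
    exact hB

/-- `v` is an integral combination of the columns of `F` -/
def Cmb (p : ℕ) (F : Matrix n κ ℚ) (v : n → ℚ) : Prop :=
  ∃ u : κ → ℚ, (∀ q, padicNorm p (u q) ≤ 1) ∧ ∀ r, v r = ∑ q, F r q * u q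

variable {F : Matrix n κ ℚ} {v w : n → ℚ}

lemma Cmb.add (h1 : Cmb p F v) (h2 : Cmb p F w) : Cmb p F (fun r => v r + w r) := by
  obtain ⟨u, hu, hu'⟩ := h1
  obtain ⟨y, hy, hy'⟩ := h2
  refine ⟨fun q => u q + y q, fun q => padicNorm.nonarchimedean.trans (max_le (hu q) (hy q)),
    fun r => ?_⟩
  show v r + w r = ∑ q, F r q * (u q + y q)
  rw [hu' r, hy' r, ← Finset.sum_add_distrib]
  exact Finset.sum_congr rfl fun q _ => by ring

lemma Cmb.smul {t : ℚ} (ht : Vg p 0 t) (h : Cmb p F v) : Cmb p F (fun r => t * v r) := by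
  obtain ⟨u, hu, hu'⟩ := h
  refine ⟨fun q => t * u q, fun q => ?_, fun r => ?_⟩
  · rw [padicNorm.mul]
    unfold H678.Vg at ht
    rw [neg_zero, zpow_zero] at ht
    calc _ ≤ (1 : ℚ) * 1 := mul_le_mul ht (hu q) (padicNorm.nonneg _) zero_le_one
      _ = 1 := one_mul _
  · show t * v r = ∑ q, F r q * (t * u q)
    rw [hu' r, Finset.mul_sum]
    exact Finset.sum_congr rfl fun q _ => by ring

lemma Cmb.base [DecidableEq κ] (q : κ) : Cmb p F (fun r => F r q) := by
  refine ⟨fun q' => if q' = q then 1 else 0, fun q' => ?_, fun r => ?_⟩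
  · dsimp only
    split_ifs <;> simp
  · simp

lemma Cmb.congr (h : Cmb p F v) (e : ∀ r, v r = w r) : Cmb p F w := by
  obtain ⟨u, hu, hu'⟩ := h
  exact ⟨u, hu, fun r => by rw [← e r, hu' r]⟩

end LA

/-! ### the row operations -/

open Classical in
/-- the rows `P_Y` in place of the rows `(a, 7)`, `a < ra` -/
noncomputable def NA (p D b ra : ℕ) : Matrix (Fin D × Fin 8) (Fin D × Fin 8) ℚ :=
  Matrix.of fun r c => if r.2 = 7 ∧ (r.1 : ℕ) < ra then (PY p r.1 b c.2).coeff c.1
    else if c = r then 1 else 0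

lemma coeff_PY7_zero (h1 : 1 ≤ p) (a b : ℕ) : (PY p a b 7).coeff a = 1 := by
  unfold PY
  show (Polynomial.X ^ a * (1 + Polynomial.X) ^ b * ((1 + Polynomial.X) * Hp p 0)).coeff a = 1
  have e : (Polynomial.X ^ a * (1 + Polynomial.X) ^ b * ((1 + Polynomial.X) * Hp p 0)
      : Polynomial ℚ) = ((1 + Polynomial.X) ^ (b + 1) * Hp p 0) * Polynomial.X ^ a := by ring
  rw [e]
  have h3 := Polynomial.coeff_mul_X_pow (((1 : Polynomial ℚ) + Polynomial.X) ^ (b + 1) * Hp p 0) a 0
  rw [zero_add] at h3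
  rw [h3, Polynomial.mul_coeff_zero]
  have h4 : (Hp p 0).coeff 0 = 1 := by
    unfold Hp
    rw [Polynomial.finsetSum_coeff, Finset.sum_eq_single 0]
    · rw [Polynomial.coeff_C_mul, Polynomial.coeff_X_pow]
      simp [T.serK]
    · intro j _ hj
      rw [Polynomial.coeff_C_mul, Polynomial.coeff_X_pow, if_neg (Ne.symm hj), mul_zero]
    · intro h; exact absurd (Finset.mem_range.2 h1) h
  have h5 : (((1 : Polynomial ℚ) + Polynomial.X) ^ (b + 1)).coeff 0 = 1 := by
    rw [Polynomial.coeff_zero_eq_eval_zero]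
    simp
  rw [h4, h5, mul_one]

lemma coeff_PY_lt (a b : ℕ) (j : Fin 8) {i : ℕ} (h : i < a) : (PY p a b j).coeff i = 0 := by
  unfold PY
  rw [show (Polynomial.X ^ a * (1 + Polynomial.X) ^ b * P0 p j : Polynomial ℚ)
    = ((1 + Polynomial.X) ^ b * P0 p j) * Polynomial.X ^ a by ring, Polynomial.coeff_mul_X_pow',
    if_neg (by omega)]

lemma det_NA (D b ra : ℕ) : (NA p D b ra).det = 1 := by
  have h1 := hp.out.one_lt.le
  rw [H792.det_of_weight _ (fun r : Fin D × Fin 8 => if r.2 = 7 then (r.1 : ℕ) else D)]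
  · refine Finset.prod_eq_one fun r _ => ?_
    unfold NA
    rw [Matrix.of_apply]
    by_cases h : r.2 = 7 ∧ (r.1 : ℕ) < ra
    · rw [if_pos h, h.1, coeff_PY7_zero h1]
    · rw [if_neg h, if_pos rfl]
  · intro r c hrc h
    unfold NA at h
    rw [Matrix.of_apply] at h
    by_cases h7 : r.2 = 7 ∧ (r.1 : ℕ) < ra
    · rw [if_pos h7] at h
      simp only [h7.1, if_true]
      by_cases hc7 : c.2 = 7
      · simp only [hc7, if_true]
        by_contra hcon
        rcases lt_or_eq_of_le (not_lt.1 hcon) with hlt | heq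
        · exact h (coeff_PY_lt _ _ _ hlt)
        · exact hrc (Prod.ext (Fin.ext heq.symm) (h7.1.trans hc7.symm))
      · simp only [hc7, if_false]
        exact r.1.2
    · rw [if_neg h7, if_neg (fun h12 => hrc h12.symm)] at h
      exact absurd rfl h

/-! ### the bound -/

section Main

variable {P : Par} {c0 s : ℕ} {x : ℚ}

/-- the family of modified columns -/
noncomputable def FA (p : ℕ) (P : Par) (c0 s m0 m1 : ℕ) (x : ℚ) :
    Matrix (Fin (P.D0 * s) × Fin 8) {q // q ∈ pool P c0 s} ℚ :=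
  Matrix.of fun r q => Mq p m0 m1 (En (P.D0 * s) x r) q.1

/-- the hypotheses on the sizes -/
structure HypA (p : ℕ) (P : Par) (c0 s m0 m1 b ra : ℕ) : Prop where
  p5 : 5 ≤ p
  two : ∀ g, P.ht g * s + c0 ≤ 2 * p
  sq : ∀ g, P.ht g * s + c0 + 1 ≤ p ^ 2
  vb : P.ht .vb * s + c0 + 3 ≤ p
  x1 : P.ht .x1 * s + c0 + 3 ≤ p
  m0p : m0 + 1 ≤ p
  m1p : m1 + 1 ≤ p
  m0ab : m0 ≤ P.ht .zab * s + c0
  m08 : m0 ≤ P.ht .z8 * s + c0
  m01 : p + m0 ≤ max p (P.ht .z1 * s + c0)
  m1ab : m1 ≤ P.ht .wab * s + c0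
  m1f7 : m1 ≤ P.ht .wf7 * s + c0
  m1y : m1 ≤ P.ht .wy * s + c0
  m18 : m1 ≤ P.ht .w8 * s + c0
  m11 : p + m1 ≤ max p (P.ht .w1 * s + c0)
  m1l : p + m1 ≤ max p (P.ht .wl * s + c0)
  bb : m1 ≤ b
  rab : ra = 0 ∨ ra + b + p ≤ P.D0 * s

variable {m0 m1 b ra : ℕ}

lemma cmb_En (h : HypA p P c0 s m0 m1 b ra) {c : Cl} (hc : c ∈ pool P c0 s) :
    Cmb p (FA p P c0 s m0 m1 x) (fun r => En (P.D0 * s) x r c) := by
  classical
  have h2 : p ≠ 2 := by have := h.p5; omega
  have hbase : ∀ c (hc : c ∈ pool P c0 s), ¬ isM m0 m1 c →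
      Cmb p (FA p P c0 s m0 m1 x) (fun r => En (P.D0 * s) x r c) := by
    intro c hc hM
    refine (Cmb.base (p := p) (F := FA p P c0 s m0 m1 x) ⟨c, hc⟩).congr fun r => ?_
    unfold FA
    rw [Matrix.of_apply, Mq_of_not hM]
  have hz1 : ∀ k, k < m0 → ((.z1, p + k) : Cl) ∈ pool P c0 s := fun k hk => mem_pool.2 (by
    have := h.m01
    have hlt : ((.z1, p + k) : Cl).2 = p + k := rfl
    show p + k < P.ht .z1 * s + c0
    rcases le_total p (P.ht .z1 * s + c0) with h3 | h3
    · rw [max_eq_right h3] at this; omega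
    · rw [max_eq_left h3] at this; omega)
  have hw1 : ∀ k, k < m1 → ((.w1, p + k) : Cl) ∈ pool P c0 s := fun k hk => mem_pool.2 (by
    have := h.m11
    show p + k < P.ht .w1 * s + c0
    rcases le_total p (P.ht .w1 * s + c0) with h3 | h3
    · rw [max_eq_right h3] at this; omega
    · rw [max_eq_left h3] at this; omega)
  have hwl : ∀ k, k < m1 → ((.wl, p + k) : Cl) ∈ pool P c0 s := fun k hk => mem_pool.2 (by
    have := h.m1l
    show p + k < P.ht .wl * s + c0
    rcases le_total p (P.ht .wl * s + c0) with h3 | h3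
    · rw [max_eq_right h3] at this; omega
    · rw [max_eq_left h3] at this; omega)
  have hp2 : Vg p 0 ((p : ℚ) ^ 2) := (Vg_p_pow (p := p) 2).mono (by norm_num)
  have hwab : ∀ k (hk : k < m1), Cmb p (FA p P c0 s m0 m1 x)
      (fun r => En (P.D0 * s) x r (.wab, k)) := by
    intro k hk
    have hcab : ((.wab, k) : Cl) ∈ pool P c0 s := mem_pool.2 (by
      show k < P.ht .wab * s + c0
      have := h.m1ab; omega)
    have hcy : ((.wy, k) : Cl) ∈ pool P c0 s := mem_pool.2 (by
      show k < P.ht .wy * s + c0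
      have := h.m1y; omega)
    have hc8 : ((.w8, k) : Cl) ∈ pool P c0 s := mem_pool.2 (by
      show k < P.ht .w8 * s + c0
      have := h.m18; omega)
    have a1 := Cmb.base (p := p) (F := FA p P c0 s m0 m1 x) ⟨_, hcab⟩
    have a2 := (hbase _ hcy (by simp [isM])).smul (Vg_34 (p := p) h2).neg
    have a3 := (hbase _ hc8 (by simp [isM])).smul (Vg_b2 (p := p) h2).neg
    have a4 := (hbase _ (hw1 k hk) (by simp [isM])).smul hp2
    refine (((a1.add a2).add a3).add a4).congr fun r => ?_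
    unfold FA Mq
    rw [Matrix.of_apply, if_neg (fun h => by simp at h), if_pos ⟨rfl, hk⟩]
    ring
  by_cases hM : isM m0 m1 c
  · obtain ⟨g, k⟩ := c
    have hM' := hM
    rcases hM' with ⟨hg, hk⟩ | ⟨hg, hk⟩ | ⟨hg, hk⟩
    · simp only at hg hk
      subst hg
      have hc8 : ((.z8, k) : Cl) ∈ pool P c0 s := mem_pool.2 (by
        show k < P.ht .z8 * s + c0
        have := h.m08; omega)
      have a1 := Cmb.base (p := p) (F := FA p P c0 s m0 m1 x) ⟨_, hc⟩
      have a2 := (hbase _ hc8 (by simp [isM])).smul (Vg_b1 (p := p) h2).neg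
      have a4 := (hbase _ (hz1 k hk) (by simp [isM])).smul hp2
      refine ((a1.add a2).add a4).congr fun r => ?_
      unfold FA Mq
      rw [Matrix.of_apply, if_pos ⟨rfl, hk⟩]
      ring
    · simp only at hg hk
      subst hg
      exact hwab k hk
    · simp only at hg hk
      subst hg
      have hcy : ((.wy, k) : Cl) ∈ pool P c0 s := mem_pool.2 (by
        show k < P.ht .wy * s + c0
        have := h.m1y; omega)
      have hc8 : ((.w8, k) : Cl) ∈ pool P c0 s := mem_pool.2 (by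
        show k < P.ht .w8 * s + c0
        have := h.m18; omega)
      have a1 := Cmb.base (p := p) (F := FA p P c0 s m0 m1 x) ⟨_, hc⟩
      have a2 := (hwab k hk).smul (Vg.nat (p := p) 3)
      have a3 := (hbase _ hcy (by simp [isM])).smul (Vg_34 (p := p) h2).neg
      have a4 := (hbase _ hc8 (by simp [isM])).smul (Vg_34 (p := p) h2).neg
      have hp1 : Vg p 0 (2 * (p : ℚ)) := by
        have := Vg.nat (p := p) (2 * p)
        exact_mod_cast this
      have a5 := (hbase _ (hwl k hk) (by simp [isM])).smul hp1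
      refine ((((a1.add a2).add a3).add a4).add a5).congr fun r => ?_
      unfold FA Mq
      rw [Matrix.of_apply, if_neg (fun h => by simp at h), if_neg (fun h => by simp at h),
        if_pos ⟨rfl, hk⟩]
      push_cast
      ring
  · exact hbase c hc hM

/-- the bound for one choice of columns of the family -/
lemma det_FA_le (h : HypA p P c0 s m0 m1 b ra) (hx : Vg p 0 x)
    (τ : Fin (P.D0 * s) × Fin 8 → {q // q ∈ pool P c0 s}) :
    padicNorm p ((FA p P c0 s m0 m1 x).submatrix id τ).det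
      ≤ (p : ℚ) ^ (-((ra : ℤ) + ∑ c, wA p m0 m1 (τ c).1)) := by
  have h2 : p ≠ 2 := by have := h.p5; omega
  have e1 : ((FA p P c0 s m0 m1 x).submatrix id τ).det
      = (NA p (P.D0 * s) b ra * (FA p P c0 s m0 m1 x).submatrix id τ).det := by
    rw [Matrix.det_mul, det_NA, one_mul]
  have hent : ∀ r c, (NA p (P.D0 * s) b ra * (FA p P c0 s m0 m1 x).submatrix id τ) r c
      = if r.2 = 7 ∧ (r.1 : ℕ) < ra then Mq p m0 m1 (rv p (P.D0 * s) r.1 b x) (τ c).1
        else Mq p m0 m1 (En (P.D0 * s) x r) (τ c).1 := by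
    intro r c
    rw [Matrix.mul_apply]
    split_ifs with hr
    · have e2 : rv p (P.D0 * s) r.1 b x = fun c => ∑ r' : Fin (P.D0 * s) × Fin 8,
          (PY p r.1 b r'.2).coeff r'.1 * En (P.D0 * s) x r' c := rfl
      rw [e2, Mq_sum]
      refine Finset.sum_congr rfl fun r' _ => ?_
      unfold NA FA
      rw [Matrix.of_apply, if_pos hr, Matrix.submatrix_apply, Matrix.of_apply]
      rfl
    · rw [Finset.sum_eq_single r]
      · unfold NA FA
        rw [Matrix.of_apply, if_neg hr, if_pos rfl, one_mul, Matrix.submatrix_apply,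
          Matrix.of_apply]
        rfl
      · intro r' _ hr'
        unfold NA
        rw [Matrix.of_apply, if_neg hr, if_neg hr', zero_mul]
      · intro h3; exact absurd (Finset.mem_univ _) h3
  rw [e1]
  have hpool : ∀ c, (τ c).1.2 < P.ht (τ c).1.1 * s + c0 := fun c => mem_pool.1 (τ c).2
  have h3 := H792.padicNorm_det_le_dual (p := p)
    (NA p (P.D0 * s) b ra * (FA p P c0 s m0 m1 x).submatrix id τ)
    (fun r c => (if r.2 = 7 ∧ (r.1 : ℕ) < ra then 1 else 0) + wA p m0 m1 (τ c).1)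
    (fun r c => by
      rw [hent]
      have hc2 : (τ c).1.2 + 2 ≤ p ^ 2 := by
        have := hpool c
        have := h.sq (τ c).1.1
        omega
      split_ifs with hr
      · have hD : (r.1 : ℕ) + b + p < P.D0 * s := by
          rcases h.rab with h5 | h5 <;> omega
        have h4 := Vg_Mq_rv (p := p) (c := (τ c).1) h2 hx hD hc2
          (lt_of_lt_of_le (hpool c) (h.two _))
          (fun hg => by have h5 := hpool c; rw [hg] at h5; have := h.vb; omega)
          (fun hg => by have h5 := hpool c; rw [hg] at h5; have := h.x1; omega)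
          h.m0p h.m1p h.bb
        rw [add_comm] at h4
        exact h4
      · rw [zero_add]
        exact Vg_Mq_En h.p5 hx r hc2 h.m0p h.m1p)
    (fun r => if r.2 = 7 ∧ (r.1 : ℕ) < ra then 1 else 0) (fun c => wA p m0 m1 (τ c).1)
    (fun r c _ => le_rfl)
  refine h3.trans (zpow_le_zpow_right₀ (by exact_mod_cast hp.out.one_lt.le) ?_)
  have h4 : (ra : ℤ) ≤ ∑ r : Fin (P.D0 * s) × Fin 8,
      (if r.2 = 7 ∧ (r.1 : ℕ) < ra then (1 : ℤ) else 0) := by
    rw [Fintype.sum_prod_type]
    have h5 : ∀ i : Fin (P.D0 * s), ∑ j : Fin 8, (if j = 7 ∧ (i : ℕ) < ra then (1 : ℤ) else 0)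
        = if (i : ℕ) < ra then 1 else 0 := by
      intro i
      by_cases hi : (i : ℕ) < ra
      · simp [hi]
      · simp [hi]
    have h6 : ∑ i : Fin (P.D0 * s), ∑ j : Fin 8, (if j = 7 ∧ (i : ℕ) < ra then (1 : ℤ) else 0)
        = ∑ i : Fin (P.D0 * s), (if (i : ℕ) < ra then (1 : ℤ) else 0) :=
      Finset.sum_congr rfl fun i _ => h5 i
    have h7 : ∑ i : Fin (P.D0 * s), (if (i : ℕ) < ra then (1 : ℤ) else 0)
        = ∑ i ∈ Finset.range (P.D0 * s), (if i < ra then (1 : ℤ) else 0) :=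
      Fin.sum_univ_eq_sum_range (fun i => if i < ra then (1 : ℤ) else 0) _
    refine le_of_eq ?_
    rw [show (∑ i : Fin (P.D0 * s), ∑ j : Fin 8, (if (i, j).2 = 7 ∧ ((i, j).1 : ℕ) < ra
      then (1 : ℤ) else 0)) = ∑ i : Fin (P.D0 * s), ∑ j : Fin 8,
        (if j = 7 ∧ (i : ℕ) < ra then (1 : ℤ) else 0) from rfl, h6, h7, ← Finset.sum_filter,
      Finset.sum_const, nsmul_eq_mul, mul_one]
    have hle : ra ≤ P.D0 * s := by rcases h.rab with h5 | h5 <;> omega
    have : (Finset.range (P.D0 * s)).filter (fun i => i < ra) = Finset.range ra := by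
      ext i
      simp only [Finset.mem_filter, Finset.mem_range]
      omega
    rw [this, Finset.card_range]
  omega

/-- **line (I)**, exact form -/
theorem le_val_A {σ : Fin (P.D0 * s) × Fin 8 → Cl} (hσ : Adm P c0 s σ)
    (hdet : (Mx (P.D0 * s) x σ).det ≠ 0) (hx : padicNorm p x ≤ 1)
    (h : HypA p P c0 s m0 m1 b ra) :
    (ra : ℤ) + 8 * ((P.D0 * s : ℕ) : ℤ)
        - ∑ g : Gp, ∑ k ∈ Finset.range (P.ht g * s + c0), max (1 - wA p m0 m1 (g, k)) 0
      ≤ padicValRat p (Mx (P.D0 * s) x σ).det := by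
  have hx' : Vg p 0 x := by unfold H678.Vg; simpa using hx
  refine H792.le_padicValRat_of_norm hdet ?_
  refine det_le_of_comb (Mx (P.D0 * s) x σ) (FA p P c0 s m0 m1 x) (H792.zpow_pos' _).le
    (fun c => ?_) fun τ hτ => ?_
  · exact cmb_En h (mem_pool.2 (hσ.2 c))
  · refine (det_FA_le h hx' τ).trans (zpow_le_zpow_right₀ (by exact_mod_cast hp.out.one_lt.le) ?_)
    have h1 := H792.sum_weight_ge (P := P) (c0 := c0) (s := s) (σ := fun c => (τ c).1)
      ⟨fun a b hab => hτ (Subtype.ext hab), fun c => mem_pool.1 (τ c).2⟩ (wA p m0 m1) 1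
    rw [mul_one] at h1
    omega

end Main

end Vale.Agent.P030.H404
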