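import Vale.Agent.P030.H404.PNT

open MeasureTheory Set Filter Topology
open scoped Real

namespace Vale.Agent.P030.H404

section W

variable {c : ℕ → ℝ} {A : ℝ}

/-- Windows: `(1/x) ∑_{s x < k ≤ t x} c k → A (t - s)`. -/
lemma window (h : Tendsto (fun x : ℝ => (∑ k ∈ Finset.Ioc 0 ⌊x⌋₊, c k) / x) atTop (𝓝 A))
    {s t : ℝ} (hs : 0 ≤ s) (hst : s ≤ t) :
    Tendsto (fun x : ℝ => (∑ k ∈ Finset.Ioc ⌊s * x⌋₊ ⌊t * x⌋₊, c k) / x) atTop
      (𝓝 (A * (t - s))) := by
  have h1 : ∀ t : ℝ, 0 ≤ t →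
      Tendsto (fun x : ℝ => (∑ k ∈ Finset.Ioc 0 ⌊t * x⌋₊, c k) / x) atTop (𝓝 (t * A)) := by
    intro t ht
    rcases ht.eq_or_lt with rfl | ht
    · simp
    · have h2 := (h.comp (tendsto_id.const_mul_atTop ht)).const_mul t
      refine h2.congr' ?_
      filter_upwards [eventually_gt_atTop 0] with x hx
      simp only [Function.comp, id]
      field_simp
  have h3 := (h1 t (hs.trans hst)).sub (h1 s hs)
  rw [show A * (t - s) = t * A - s * A by ring]
  refine h3.congr' ?_
  filter_upwards [eventually_gt_atTop 0] with x hx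
  have hle : ⌊s * x⌋₊ ≤ ⌊t * x⌋₊ := Nat.floor_mono (mul_le_mul_of_nonneg_right hst hx.le)
  have h4 := Finset.sum_Ioc_consecutive (fun k => c k) (Nat.zero_le ⌊s * x⌋₊) hle
  rw [← h4]
  ring

/-- Consecutive windows. -/
lemma sum_windows (f : ℕ → ℝ) (m : ℕ → ℕ) (hm : Monotone m) (N : ℕ) :
    ∑ i ∈ Finset.range N, ∑ k ∈ Finset.Ioc (m i) (m (i + 1)), f k
      = ∑ k ∈ Finset.Ioc (m 0) (m N), f k := by
  induction N with
  | zero => simp
  | succ N ih =>
    rw [Finset.sum_range_succ, ih]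
    exact Finset.sum_Ioc_consecutive f (hm (Nat.zero_le N)) (hm (Nat.le_succ N))

/-- Weighted form, `v` continuous on `[a, b]`. -/
theorem weighted (hc : ∀ k, 0 ≤ c k)
    (h : Tendsto (fun x : ℝ => (∑ k ∈ Finset.Ioc 0 ⌊x⌋₊, c k) / x) atTop (𝓝 A))
    {v : ℝ → ℝ} {a b : ℝ} (ha : 0 ≤ a) (hab : a ≤ b) (hv : ContinuousOn v (Icc a b)) :
    Tendsto (fun x : ℝ => (∑ k ∈ Finset.Ioc ⌊a * x⌋₊ ⌊b * x⌋₊, c k * v (k / x)) / x) atTop
      (𝓝 (A * ∫ t in a..b, v t)) := by
  have hA : 0 ≤ A := by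
    refine ge_of_tendsto h ?_
    filter_upwards [eventually_ge_atTop 0] with x hx
    exact div_nonneg (Finset.sum_nonneg fun k _ => hc k) hx
  rw [Metric.tendsto_atTop']
  intro e he
  -- choose ε
  set K : ℝ := 2 * (A * (b - a)) + 3 with hK
  have hKpos : 0 < K := by
    have : 0 ≤ A * (b - a) := mul_nonneg hA (by linarith)
    linarith
  set ε : ℝ := e / K with hε
  have hεpos : 0 < ε := div_pos he hKpos
  obtain ⟨δ, hδ, hδv⟩ := Metric.uniformContinuousOn_iff.mp
    (isCompact_Icc.uniformContinuousOn_of_continuous hv) ε hεpos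
  obtain ⟨N, hN⟩ := exists_nat_gt ((b - a) / δ)
  have hN0 : 0 < (N : ℝ) := lt_of_le_of_lt (div_nonneg (by linarith) hδ.le) hN
  set w : ℝ := (b - a) / N with hw
  have hw0 : 0 ≤ w := div_nonneg (by linarith) hN0.le
  have hwδ : w < δ := by
    rw [hw, div_lt_iff₀ hN0]
    rw [div_lt_iff₀ hδ] at hN
    linarith
  set T : ℕ → ℝ := fun i => a + i * w with hT
  have hTmono : Monotone T := by
    intro i j hij
    have : (i : ℝ) ≤ j := by exact_mod_cast hij
    simp only [hT]
    nlinarith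
  have hT0 : T 0 = a := by simp [hT]
  have hTN : T N = b := by
    simp only [hT, hw]
    field_simp
    ring
  have hTsub : ∀ i, T (i + 1) - T i = w := by
    intro i; simp only [hT]; push_cast; ring
  have hTa : ∀ i, a ≤ T i := fun i => by rw [← hT0]; exact hTmono (Nat.zero_le i)
  have hTb : ∀ i, i ≤ N → T i ≤ b := fun i hi => by rw [← hTN]; exact hTmono hi
  -- the step approximation
  set W : ℝ → ℝ → ℝ → ℝ := fun s t x => (∑ k ∈ Finset.Ioc ⌊s * x⌋₊ ⌊t * x⌋₊, c k) / x with hWdef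
  have hE : Tendsto (fun x : ℝ => ∑ i ∈ Finset.range N, v (T i) * W (T i) (T (i + 1)) x) atTop
      (𝓝 (∑ i ∈ Finset.range N, v (T i) * (A * w))) := by
    refine tendsto_finsetSum _ fun i _ => ?_
    have := window h (ha.trans (hTa i)) (hTmono (Nat.le_succ i))
    rw [Nat.succ_eq_add_one, hTsub] at this
    exact this.const_mul _
  have hWab := window h ha hab
  -- integral comparison
  have hint : |∑ i ∈ Finset.range N, v (T i) * (A * w) - A * ∫ t in a..b, v t|
      ≤ A * ε * (b - a) := by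
    have hsub : ∀ i < N, Icc (T i) (T (i + 1)) ⊆ Icc a b := fun i hi =>
      Icc_subset_Icc (hTa i) (hTb (i + 1) hi)
    have hii : ∀ i < N, IntervalIntegrable v volume (T i) (T (i + 1)) := fun i hi => by
      refine (hv.mono ?_).intervalIntegrable
      rw [uIcc_of_le (hTmono (Nat.le_succ i))]
      exact hsub i hi
    have h1 : ∫ t in a..b, v t = ∑ i ∈ Finset.range N, ∫ t in (T i)..(T (i + 1)), v t := by
      rw [intervalIntegral.sum_integral_adjacent_intervals hii, hT0, hTN]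
    rw [h1, Finset.mul_sum, ← Finset.sum_sub_distrib]
    calc |∑ i ∈ Finset.range N, (v (T i) * (A * w) - A * ∫ t in (T i)..(T (i + 1)), v t)|
        ≤ ∑ i ∈ Finset.range N, |v (T i) * (A * w) - A * ∫ t in (T i)..(T (i + 1)), v t| :=
          Finset.abs_sum_le_sum_abs _ _
      _ ≤ ∑ i ∈ Finset.range N, A * ε * w := by
          refine Finset.sum_le_sum fun i hi => ?_
          have hi' := Finset.mem_range.mp hi
          have h2 : v (T i) * (A * w) - A * ∫ t in (T i)..(T (i + 1)), v t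
              = A * ∫ t in (T i)..(T (i + 1)), (v (T i) - v t) := by
            rw [intervalIntegral.integral_sub (by simp) (hii i hi')]
            rw [intervalIntegral.integral_const, hTsub, smul_eq_mul]
            ring
          rw [h2, abs_mul, abs_of_nonneg hA, mul_assoc]
          refine mul_le_mul_of_nonneg_left ?_ hA
          have h3 := intervalIntegral.norm_integral_le_of_norm_le_const
            (a := T i) (b := T (i + 1)) (C := ε) (f := fun t => v (T i) - v t) ?_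
          · rw [hTsub, abs_of_nonneg hw0] at h3
            exact h3
          · intro t ht
            rw [uIoc_of_le (hTmono (Nat.le_succ i))] at ht
            have h4 : T (i + 1) = T i + w := by linarith [hTsub i]
            have := hδv (T i) (hsub i hi' ⟨le_rfl, hTmono (Nat.le_succ i)⟩) t
              (hsub i hi' ⟨ht.1.le, ht.2⟩) (by
                rw [Real.dist_eq, abs_sub_comm, abs_of_nonneg (by linarith [ht.1])]
                have := ht.2
                rw [h4] at this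
                linarith)
            rw [Real.dist_eq] at this
            exact this.le
      _ = A * ε * (b - a) := by
          rw [Finset.sum_const, Finset.card_range, nsmul_eq_mul, hw]
          field_simp
  -- sum comparison
  have hsum : ∀ x : ℝ, 0 < x →
      |(∑ k ∈ Finset.Ioc ⌊a * x⌋₊ ⌊b * x⌋₊, c k * v (k / x)) / x
        - ∑ i ∈ Finset.range N, v (T i) * W (T i) (T (i + 1)) x| ≤ ε * W a b x := by
    intro x hx
    have hm : Monotone fun i => ⌊T i * x⌋₊ := fun i j hij =>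
      Nat.floor_mono (mul_le_mul_of_nonneg_right (hTmono hij) hx.le)
    have h1 := sum_windows (fun k => c k * v (k / x)) (fun i => ⌊T i * x⌋₊) hm N
    have h2 := sum_windows (fun k => c k) (fun i => ⌊T i * x⌋₊) hm N
    simp only [hT0, hTN] at h1 h2
    have h3 : (∑ k ∈ Finset.Ioc ⌊a * x⌋₊ ⌊b * x⌋₊, c k * v (k / x)) / x
        - ∑ i ∈ Finset.range N, v (T i) * W (T i) (T (i + 1)) x
        = (∑ i ∈ Finset.range N, ∑ k ∈ Finset.Ioc ⌊T i * x⌋₊ ⌊T (i + 1) * x⌋₊,
            c k * (v (k / x) - v (T i))) / x := by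
      rw [← h1, Finset.sum_div, Finset.sum_div, ← Finset.sum_sub_distrib]
      refine Finset.sum_congr rfl fun i _ => ?_
      simp only [hWdef, mul_sub, Finset.sum_sub_distrib, ← Finset.sum_mul]
      ring
    rw [h3, abs_div, abs_of_pos hx]
    simp only [hWdef]
    rw [← mul_div_assoc]
    refine div_le_div_of_nonneg_right ?_ hx.le
    rw [← h2, Finset.mul_sum]
    refine (Finset.abs_sum_le_sum_abs _ _).trans (Finset.sum_le_sum fun i hi => ?_)
    have hi' := Finset.mem_range.mp hi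
    rw [Finset.mul_sum]
    refine (Finset.abs_sum_le_sum_abs _ _).trans (Finset.sum_le_sum fun k hk => ?_)
    rw [Finset.mem_Ioc] at hk
    have hk1 : T i * x < k := (Nat.floor_lt (mul_nonneg (ha.trans (hTa i)) hx.le)).mp hk.1
    have hk2 : (k : ℝ) ≤ T (i + 1) * x :=
      (Nat.le_floor_iff (mul_nonneg (ha.trans (hTa (i + 1))) hx.le)).mp hk.2
    have hk1' : T i < k / x := by rwa [lt_div_iff₀ hx]
    have hk2' : (k : ℝ) / x ≤ T (i + 1) := by rwa [div_le_iff₀ hx]
    rw [abs_mul, abs_of_nonneg (hc k), mul_comm]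
    refine mul_le_mul_of_nonneg_right ?_ (hc k)
    have := hδv (k / x) ⟨(hTa i).trans hk1'.le, hk2'.trans (hTb (i + 1) hi')⟩ (T i)
      ⟨hTa i, hTb i hi'.le⟩ (by
        rw [Real.dist_eq, abs_of_nonneg (by linarith)]
        have h4 : T (i + 1) = T i + w := by linarith [hTsub i]
        rw [h4] at hk2'
        linarith)
    rw [Real.dist_eq] at this
    exact this.le
  have hE' := Metric.tendsto_atTop'.mp hE ε hεpos
  obtain ⟨x₁, hx₁⟩ := hE'
  have hW' := Metric.tendsto_atTop'.mp hWab 1 one_pos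
  obtain ⟨x₂, hx₂⟩ := hW'
  refine ⟨max 0 (max x₁ x₂), fun x hx => ?_⟩
  have hx0 : 0 < x := lt_of_le_of_lt (le_max_left _ _) hx
  have h1 := hx₁ x (lt_of_le_of_lt ((le_max_left _ _).trans (le_max_right _ _)) hx)
  have h2 := hx₂ x (lt_of_le_of_lt ((le_max_right _ _).trans (le_max_right _ _)) hx)
  rw [Real.dist_eq] at h1 h2 ⊢
  have h3 := hsum x hx0
  have h4 : W a b x ≤ A * (b - a) + 1 := by
    have := (abs_lt.mp h2).2
    simp only [hWdef]
    linarith
  have h5 : ε * W a b x ≤ ε * (A * (b - a) + 1) := mul_le_mul_of_nonneg_left h4 hεpos.le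
  have h6 : |(∑ k ∈ Finset.Ioc ⌊a * x⌋₊ ⌊b * x⌋₊, c k * v (k / x)) / x - A * ∫ t in a..b, v t|
      ≤ ε * (A * (b - a) + 1) + ε + A * ε * (b - a) := by
    set X := (∑ k ∈ Finset.Ioc ⌊a * x⌋₊ ⌊b * x⌋₊, c k * v (k / x)) / x
    set Y := ∑ i ∈ Finset.range N, v (T i) * W (T i) (T (i + 1)) x
    set Z := ∑ i ∈ Finset.range N, v (T i) * (A * w)
    set U := A * ∫ t in a..b, v t
    have : X - U = (X - Y) + (Y - Z) + (Z - U) := by ring
    rw [this]
    refine (abs_add_three _ _ _).trans ?_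
    exact add_le_add (add_le_add (h3.trans h5) h1.le) hint
  refine h6.trans_lt ?_
  have h7 : ε * K = e := by rw [hε]; field_simp
  have h8 : ε * (A * (b - a) + 1) + ε + A * ε * (b - a) = ε * K - ε := by rw [hK]; ring
  rw [h8, h7]
  linarith

/-- Weighted form, `v` continuous on `(a, b)` and bounded. -/
theorem weighted_Ioo (hc : ∀ k, 0 ≤ c k)
    (h : Tendsto (fun x : ℝ => (∑ k ∈ Finset.Ioc 0 ⌊x⌋₊, c k) / x) atTop (𝓝 A))
    {v : ℝ → ℝ} {a b M : ℝ} (ha : 0 ≤ a) (hab : a ≤ b) (hv : ContinuousOn v (Ioo a b))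
    (hM : ∀ t ∈ Ioc a b, |v t| ≤ M) :
    Tendsto (fun x : ℝ => (∑ k ∈ Finset.Ioc ⌊a * x⌋₊ ⌊b * x⌋₊, c k * v (k / x)) / x) atTop
      (𝓝 (A * ∫ t in a..b, v t)) := by
  rcases hab.eq_or_lt with rfl | hab
  · simp
  have hA : 0 ≤ A := by
    refine ge_of_tendsto h ?_
    filter_upwards [eventually_ge_atTop 0] with x hx
    exact div_nonneg (Finset.sum_nonneg fun k _ => hc k) hx
  have hM0 : 0 ≤ M := (abs_nonneg _).trans (hM b ⟨hab, le_rfl⟩)
  have hvi : IntervalIntegrable v volume a b := by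
    rw [intervalIntegrable_iff_integrableOn_Ioc_of_le hab.le, integrableOn_Ioc_iff_integrableOn_Ioo]
    refine (integrable_const M).mono' (hv.aestronglyMeasurable measurableSet_Ioo) ?_
    · filter_upwards [ae_restrict_mem measurableSet_Ioo] with t ht
      exact hM t (Ioo_subset_Ioc_self ht)
  rw [Metric.tendsto_atTop']
  intro e he
  set η : ℝ := min ((b - a) / 2) (e / (8 * (M * A) + 8 * M + 8)) with hη
  have hden : 0 < 8 * (M * A) + 8 * M + 8 := by positivity
  have hη0 : 0 < η := lt_min (by linarith) (div_pos he hden)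
  have hη1 : η ≤ (b - a) / 2 := min_le_left _ _
  have hη2 : η * (8 * (M * A) + 8 * M + 8) ≤ e := by
    rw [← le_div_iff₀ hden]; exact min_le_right _ _
  have h1 := weighted hc h (v := v) (a := a + η) (b := b - η) (by linarith) (by linarith)
    (hv.mono fun t ht => ⟨by linarith [ht.1], by linarith [ht.2]⟩)
  have h2 := window h (s := a) (t := a + η) ha (by linarith)
  have h3 := window h (s := b - η) (t := b) (by linarith) (by linarith)
  obtain ⟨x₁, hx₁⟩ := Metric.tendsto_atTop'.mp h1 (e / 4) (by positivity)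
  obtain ⟨x₂, hx₂⟩ := Metric.tendsto_atTop'.mp h2 η hη0
  obtain ⟨x₃, hx₃⟩ := Metric.tendsto_atTop'.mp h3 η hη0
  refine ⟨max 0 (max x₁ (max x₂ x₃)), fun x hx => ?_⟩
  have hx0 : 0 < x := lt_of_le_of_lt (le_max_left _ _) hx
  have hxx := lt_of_le_of_lt (le_max_right _ _) hx
  have g1 := hx₁ x (lt_of_le_of_lt (le_max_left _ _) hxx)
  have g2 := hx₂ x (lt_of_le_of_lt ((le_max_left _ _).trans (le_max_right _ _)) hxx)
  have g3 := hx₃ x (lt_of_le_of_lt ((le_max_right _ _).trans (le_max_right _ _)) hxx)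
  rw [Real.dist_eq] at g1 g2 g3 ⊢
  have m1 : ⌊a * x⌋₊ ≤ ⌊(a + η) * x⌋₊ := Nat.floor_mono (by nlinarith)
  have m2 : ⌊(a + η) * x⌋₊ ≤ ⌊(b - η) * x⌋₊ := Nat.floor_mono (by nlinarith)
  have m3 : ⌊(b - η) * x⌋₊ ≤ ⌊b * x⌋₊ := Nat.floor_mono (by nlinarith)
  have hsplit : ∑ k ∈ Finset.Ioc ⌊a * x⌋₊ ⌊b * x⌋₊, c k * v (k / x)
      = (∑ k ∈ Finset.Ioc ⌊a * x⌋₊ ⌊(a + η) * x⌋₊, c k * v (k / x))
        + (∑ k ∈ Finset.Ioc ⌊(a + η) * x⌋₊ ⌊(b - η) * x⌋₊, c k * v (k / x))
        + ∑ k ∈ Finset.Ioc ⌊(b - η) * x⌋₊ ⌊b * x⌋₊, c k * v (k / x) := by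
    rw [Finset.sum_Ioc_consecutive _ m1 m2, Finset.sum_Ioc_consecutive _ (m1.trans m2) m3]
  have hpiece : ∀ s t : ℝ, a ≤ s → s ≤ t → t ≤ b →
      |(∑ k ∈ Finset.Ioc ⌊s * x⌋₊ ⌊t * x⌋₊, c k * v (k / x)) / x|
        ≤ M * ((∑ k ∈ Finset.Ioc ⌊s * x⌋₊ ⌊t * x⌋₊, c k) / x) := by
    intro s t hs hst ht
    rw [abs_div, abs_of_pos hx0, ← mul_div_assoc]
    refine div_le_div_of_nonneg_right ?_ hx0.le
    rw [Finset.mul_sum]
    refine (Finset.abs_sum_le_sum_abs _ _).trans (Finset.sum_le_sum fun k hk => ?_)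
    rw [Finset.mem_Ioc] at hk
    have hs0 : 0 ≤ s := ha.trans hs
    have hk1 : s * x < k := (Nat.floor_lt (mul_nonneg hs0 hx0.le)).mp hk.1
    have hk2 : (k : ℝ) ≤ t * x :=
      (Nat.le_floor_iff (mul_nonneg (hs0.trans hst) hx0.le)).mp hk.2
    have hk1' : s < k / x := by rwa [lt_div_iff₀ hx0]
    have hk2' : (k : ℝ) / x ≤ t := by rwa [div_le_iff₀ hx0]
    rw [abs_mul, abs_of_nonneg (hc k), mul_comm]
    exact mul_le_mul_of_nonneg_right (hM _ ⟨by linarith, by linarith⟩) (hc k)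
  have p1 := hpiece a (a + η) le_rfl (by linarith) (by linarith)
  have p3 := hpiece (b - η) b (by linarith) (by linarith) le_rfl
  have q1 : (∑ k ∈ Finset.Ioc ⌊a * x⌋₊ ⌊(a + η) * x⌋₊, c k) / x ≤ A * η + η := by
    have := (abs_lt.mp g2).2
    rw [show a + η - a = η by ring] at this
    linarith
  have q3 : (∑ k ∈ Finset.Ioc ⌊(b - η) * x⌋₊ ⌊b * x⌋₊, c k) / x ≤ A * η + η := by
    have := (abs_lt.mp g3).2
    rw [show b - (b - η) = η by ring] at this
    linarith
  have i1 : IntervalIntegrable v volume a (a + η) :=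
    hvi.mono_set (by
      rw [uIcc_of_le (by linarith), uIcc_of_le hab.le]
      exact Icc_subset_Icc le_rfl (by linarith))
  have i2 : IntervalIntegrable v volume (a + η) (b - η) :=
    hvi.mono_set (by
      rw [uIcc_of_le (by linarith), uIcc_of_le hab.le]
      exact Icc_subset_Icc (by linarith) (by linarith))
  have i3 : IntervalIntegrable v volume (b - η) b :=
    hvi.mono_set (by
      rw [uIcc_of_le (by linarith), uIcc_of_le hab.le]
      exact Icc_subset_Icc (by linarith) le_rfl)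
  have hI : ∫ t in a..b, v t = (∫ t in a..(a + η), v t) + (∫ t in (a + η)..(b - η), v t)
      + ∫ t in (b - η)..b, v t := by
    rw [intervalIntegral.integral_add_adjacent_intervals i1 i2,
      intervalIntegral.integral_add_adjacent_intervals (i1.trans i2) i3]
  have r1 : |∫ t in a..(a + η), v t| ≤ M * η := by
    have := intervalIntegral.norm_integral_le_of_norm_le_const (a := a) (b := a + η) (C := M)
      (f := v) (fun t ht => by
        rw [uIoc_of_le (by linarith)] at ht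
        exact hM t ⟨ht.1, by linarith [ht.2]⟩)
    rwa [show a + η - a = η by ring, abs_of_pos hη0] at this
  have r3 : |∫ t in (b - η)..b, v t| ≤ M * η := by
    have := intervalIntegral.norm_integral_le_of_norm_le_const (a := b - η) (b := b) (C := M)
      (f := v) (fun t ht => by
        rw [uIoc_of_le (by linarith)] at ht
        exact hM t ⟨by linarith [ht.1], ht.2⟩)
    rwa [show b - (b - η) = η by ring, abs_of_pos hη0] at this
  rw [hsplit, hI]
  set X1 := ∑ k ∈ Finset.Ioc ⌊a * x⌋₊ ⌊(a + η) * x⌋₊, c k * v (k / x)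
  set X2 := ∑ k ∈ Finset.Ioc ⌊(a + η) * x⌋₊ ⌊(b - η) * x⌋₊, c k * v (k / x)
  set X3 := ∑ k ∈ Finset.Ioc ⌊(b - η) * x⌋₊ ⌊b * x⌋₊, c k * v (k / x)
  set I1 := ∫ t in a..(a + η), v t
  set I2 := ∫ t in (a + η)..(b - η), v t
  set I3 := ∫ t in (b - η)..b, v t
  have hrew : (X1 + X2 + X3) / x - A * (I1 + I2 + I3)
      = (X2 / x - A * I2) + (X1 / x + X3 / x) + (-(A * I1) - A * I3) := by
    field_simp; ring
  rw [hrew]
  have b1 : |X1 / x + X3 / x| ≤ 2 * (M * (A * η + η)) := by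
    refine (abs_add_le _ _).trans ?_
    have := mul_le_mul_of_nonneg_left q1 hM0
    have := mul_le_mul_of_nonneg_left q3 hM0
    linarith
  have b2 : |-(A * I1) - A * I3| ≤ 2 * (A * (M * η)) := by
    refine (abs_sub _ _).trans ?_
    rw [abs_neg, abs_mul, abs_mul, abs_of_nonneg hA]
    have := mul_le_mul_of_nonneg_left r1 hA
    have := mul_le_mul_of_nonneg_left r3 hA
    linarith
  have b3 := abs_add_three (X2 / x - A * I2) (X1 / x + X3 / x) (-(A * I1) - A * I3)
  have : η * (8 * (M * A) + 8 * M + 8) = 8 * (A * (M * η)) + 8 * (M * η) + 8 * η := by ring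
  nlinarith [mul_nonneg hM0 hη0.le]

end W

/-- `θ`-weighted sums: `(1/x) ∑_{a x < p ≤ b x} (log p) v(p/x) → ∫_a^b v`, for bounded `v`
continuous on `(a, b)`. -/
theorem theta_weighted {v : ℝ → ℝ} {a b M : ℝ} (ha : 0 ≤ a) (hab : a ≤ b)
    (hv : ContinuousOn v (Ioo a b)) (hM : ∀ t ∈ Ioc a b, |v t| ≤ M) :
    Tendsto (fun x : ℝ => (∑ p ∈ (Finset.Ioc ⌊a * x⌋₊ ⌊b * x⌋₊).filter Nat.Prime,
      Real.log p * v (p / x)) / x) atTop (𝓝 (∫ t in a..b, v t)) := by
  have h0 : Tendsto (fun x : ℝ => (∑ k ∈ Finset.Ioc 0 ⌊x⌋₊,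
      (if k.Prime then Real.log k else 0)) / x) atTop (𝓝 1) := by
    refine theta_tendsto.congr fun x => ?_
    rw [Chebyshev.theta, Finset.sum_filter]
  have := weighted_Ioo (c := fun k => if k.Prime then Real.log k else 0) (A := 1)
    (fun k => by
      split_ifs with hk
      · exact Real.log_natCast_nonneg k
      · exact le_rfl) h0 ha hab hv hM
  rw [one_mul] at this
  refine this.congr fun x => ?_
  rw [Finset.sum_filter]
  congr 1
  refine Finset.sum_congr rfl fun k _ => ?_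
  split_ifs <;> simp

/-- The same for `Λ` restricted to a residue class. -/
theorem residue_weighted {q : ℕ} [NeZero q] {r : ZMod q} (hr : IsUnit r)
    {v : ℝ → ℝ} {a b M : ℝ} (ha : 0 ≤ a) (hab : a ≤ b)
    (hv : ContinuousOn v (Ioo a b)) (hM : ∀ t ∈ Ioc a b, |v t| ≤ M) :
    Tendsto (fun x : ℝ => (∑ k ∈ Finset.Ioc ⌊a * x⌋₊ ⌊b * x⌋₊,
      ArithmeticFunction.vonMangoldt.residueClass r k * v (k / x)) / x) atTop
      (𝓝 ((q.totient : ℝ)⁻¹ * ∫ t in a..b, v t)) := by
  refine weighted_Ioo (ArithmeticFunction.vonMangoldt.residueClass_nonneg r) ?_ ha hab hv hM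
  exact psi_residue_tendsto hr

end Vale.Agent.P030.H404
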