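import Vale.Agent.P030.H404.Triv
import Vale.Agent.P030.H404.Weighted
import Vale.Agent.P030.T.Frame

/-!
# P030: `StOD` from a local cost profile
-/

open MeasureTheory Set Filter Topology

namespace Vale.Agent.P030.H404

open Vale.Agent.P030.T

/-! ### weighted prime sums, finitely many discontinuities -/

/-- bounded and continuous off a finite set: integrable. -/
lemma intervalIntegrable_of_fin {v : ℝ → ℝ} {a b M : ℝ} (hab : a ≤ b) (E : Finset ℝ)
    (hv : ContinuousOn v (Ioo a b \ E)) (hM : ∀ t ∈ Ioc a b, |v t| ≤ M) :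
    IntervalIntegrable v volume a b := by
  rw [intervalIntegrable_iff_integrableOn_Ioc_of_le hab, integrableOn_Ioc_iff_integrableOn_Ioo]
  have hms : MeasurableSet (Ioo a b \ (E : Set ℝ)) :=
    measurableSet_Ioo.diff E.measurableSet
  have h1 : AEStronglyMeasurable v (volume.restrict (Ioo a b \ (E : Set ℝ))) :=
    hv.aestronglyMeasurable hms
  have h2 : volume.restrict (Ioo a b \ (E : Set ℝ)) = volume.restrict (Ioo a b) := by
    apply Measure.restrict_congr_set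
    exact sdiff_null_ae_eq_self (E.finite_toSet.measure_zero volume)
  rw [h2] at h1
  refine (integrable_const M).mono' h1 ?_
  filter_upwards [ae_restrict_mem measurableSet_Ioo] with t ht
  exact hM t (Ioo_subset_Ioc_self ht)

theorem theta_weighted_fin {v : ℝ → ℝ} {M : ℝ} (E : Finset ℝ) :
    ∀ {a b : ℝ}, 0 ≤ a → a ≤ b → ContinuousOn v (Ioo a b \ E) → (∀ t ∈ Ioc a b, |v t| ≤ M) →
    Tendsto (fun x : ℝ => (∑ p ∈ (Finset.Ioc ⌊a * x⌋₊ ⌊b * x⌋₊).filter Nat.Prime,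
      Real.log p * v (p / x)) / x) atTop (𝓝 (∫ t in a..b, v t)) := by
  classical
  induction E using Finset.induction_on with
  | empty =>
    intro a b ha hab hv hM
    exact theta_weighted ha hab (by simpa using hv) hM
  | insert e E he ih =>
    intro a b ha hab hv hM
    by_cases hin : e ∈ Ioo a b
    · have hv1 : ContinuousOn v (Ioo a e \ E) := hv.mono (by
        rintro t ⟨⟨h1, h2⟩, h3⟩
        refine ⟨⟨h1, h2.trans hin.2⟩, ?_⟩
        rw [Finset.coe_insert, mem_insert_iff, not_or]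
        exact ⟨h2.ne, h3⟩)
      have hv2 : ContinuousOn v (Ioo e b \ E) := hv.mono (by
        rintro t ⟨⟨h1, h2⟩, h3⟩
        refine ⟨⟨hin.1.trans h1, h2⟩, ?_⟩
        rw [Finset.coe_insert, mem_insert_iff, not_or]
        exact ⟨h1.ne', h3⟩)
      have hM1 : ∀ t ∈ Ioc a e, |v t| ≤ M := fun t ht => hM t ⟨ht.1, ht.2.trans hin.2.le⟩
      have hM2 : ∀ t ∈ Ioc e b, |v t| ≤ M := fun t ht => hM t ⟨hin.1.trans ht.1, ht.2⟩
      have t1 := ih ha hin.1.le hv1 hM1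
      have t2 := ih (ha.trans hin.1.le) hin.2.le hv2 hM2
      have i1 := intervalIntegrable_of_fin hin.1.le E hv1 hM1
      have i2 := intervalIntegrable_of_fin hin.2.le E hv2 hM2
      rw [← intervalIntegral.integral_add_adjacent_intervals i1 i2]
      refine (t1.add t2).congr' ?_
      filter_upwards [eventually_ge_atTop 0] with x hx
      have m1 : ⌊a * x⌋₊ ≤ ⌊e * x⌋₊ := Nat.floor_mono (by nlinarith [hin.1])
      have m2 : ⌊e * x⌋₊ ≤ ⌊b * x⌋₊ := Nat.floor_mono (by nlinarith [hin.2])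
      rw [← add_div, Finset.sum_filter, Finset.sum_filter, Finset.sum_filter,
        Finset.sum_Ioc_consecutive _ m1 m2]
    · refine ih ha hab ?_ hM
      refine hv.mono ?_
      rintro t ⟨h1, h3⟩
      refine ⟨h1, ?_⟩
      rw [Finset.coe_insert, mem_insert_iff, not_or]
      exact ⟨fun h => hin (h ▸ h1), h3⟩

/-! ### two elementary asymptotics -/

lemma sqrt_log_small {ε : ℝ} (hε : 0 < ε) : ∀ᶠ y : ℝ in atTop, Real.sqrt y * Real.log y ≤ ε * y := by
  have h := (isLittleO_log_rpow_atTop (r := 1 / 2) (by norm_num)).def hε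
  filter_upwards [h, eventually_ge_atTop 1] with y hy h1
  rw [Real.norm_of_nonneg (Real.log_nonneg h1), Real.norm_of_nonneg (by positivity),
    ← Real.sqrt_eq_rpow] at hy
  have h2 : Real.sqrt y * Real.sqrt y = y := Real.mul_self_sqrt (by linarith)
  have h3 := Real.sqrt_nonneg y
  nlinarith

lemma theta_le : ∀ᶠ y : ℝ in atTop, Chebyshev.theta y ≤ 2 * y := by
  have h := theta_tendsto.eventually (Iio_mem_nhds (show (1 : ℝ) < 2 by norm_num))
  filter_upwards [h, eventually_gt_atTop 0] with y hy h1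
  have : Chebyshev.theta y / y < 2 := hy
  rw [div_lt_iff₀ h1] at this
  exact this.le

/-- `⌊log_p Z⌋ log p ≤ log Z`. -/
lemma natLog_mul_log_le {p Z : ℕ} (hp : 1 ≤ p) (hZ : 1 ≤ Z) :
    (Nat.log p Z : ℝ) * Real.log p ≤ Real.log Z := by
  have h1 : (p : ℝ) ^ Nat.log p Z ≤ Z := by exact_mod_cast Nat.pow_log_le_self p (by omega)
  rw [← Real.log_pow]
  refine Real.log_le_log ?_ h1
  have : (0 : ℝ) < p := by exact_mod_cast hp
  positivity

lemma val_mul_log_le {p d : ℕ} [hp : Fact p.Prime] (hd : d ≠ 0) :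
    (padicValNat p d : ℝ) * Real.log p ≤ Real.log d := by
  have h1 : p ^ padicValNat p d ∣ d := pow_padicValNat_dvd
  have h2 : ((p : ℝ) ^ padicValNat p d) ≤ d := by exact_mod_cast Nat.le_of_dvd (by omega) h1
  rw [← Real.log_pow]
  refine Real.log_le_log ?_ h2
  have : (0 : ℝ) < p := by exact_mod_cast hp.out.pos
  positivity

/-- the trivial cost of one prime -/
lemma triv_log_le {p Z d : ℕ} [hp : Fact p.Prime] (hZ : 1 ≤ Z) (hd : d ≠ 0) :
    (2 * (Nat.log p Z : ℝ) + padicValNat p d) * Real.log p ≤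
      2 * ((if p ≤ Z then Real.log p else 0) + (if p ^ 2 ≤ Z then Real.log Z else 0))
        + (if p ≤ d then Real.log d else 0) := by
  have hlp : 0 ≤ Real.log p := Real.log_natCast_nonneg p
  have hlZ : 0 ≤ Real.log Z := Real.log_natCast_nonneg Z
  have h1 : (Nat.log p Z : ℝ) * Real.log p ≤
      (if p ≤ Z then Real.log p else 0) + (if p ^ 2 ≤ Z then Real.log Z else 0) := by
    by_cases h2 : p ^ 2 ≤ Z
    · have := natLog_mul_log_le hp.out.one_lt.le hZ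
      rw [if_pos h2]
      split_ifs <;> linarith
    · rw [if_neg h2, add_zero]
      by_cases h3 : p ≤ Z
      · rw [if_pos h3]
        have h4 : Nat.log p Z < 2 := Nat.log_lt_of_lt_pow (by omega) (by omega)
        have h5 : (Nat.log p Z : ℝ) ≤ 1 := by exact_mod_cast (by omega : Nat.log p Z ≤ 1)
        nlinarith
      · rw [if_neg h3, Nat.log_of_lt (by omega)]
        simp
  have h2 : (padicValNat p d : ℝ) * Real.log p ≤ if p ≤ d then Real.log d else 0 := by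
    split_ifs with h
    · exact val_mul_log_le hd
    · have : padicValNat p d = 0 := by
        apply padicValNat.eq_zero_of_not_dvd
        intro hdv
        exact h (Nat.le_of_dvd (by omega) hdv)
      rw [this]; simp
  linarith

/-! ### the cost table and its sum -/

/-- the odd primes `< ⌊b s⌋ + ρ` -/
noncomputable def SS (b : ℝ) (ρ s : ℕ) : Finset ℕ :=
  (Finset.range (⌊b * (s : ℝ)⌋₊ + ρ)).filter (fun p => p.Prime ∧ p ≠ 2)

open Classical in
/-- the costs: from `φ` in the middle range, trivial elsewhere (`Z` bounds the orders) -/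
noncomputable def cst (D0 Z d : ℕ) (φ : ℝ → ℝ) (b δ η : ℝ) (s p : ℕ) : ℤ :=
  if δ * s < p ∧ (p : ℝ) < b * s then ⌈(s : ℝ) * (φ (p / s) + η)⌉
  else ((8 * (D0 * s) * (2 * Nat.log p Z + padicValNat p d) : ℕ) : ℤ)

open Classical in
/-- the weight, cut off -/
noncomputable def vv (φ : ℝ → ℝ) (b δ t : ℝ) : ℝ := if δ < t ∧ t < b then φ t else 0

lemma vv_eq {φ : ℝ → ℝ} {b δ t : ℝ} (h1 : δ < t) (h2 : t < b) : vv φ b δ t = φ t :=
  if_pos ⟨h1, h2⟩

lemma vv_zero {φ : ℝ → ℝ} {b δ t : ℝ} (h : ¬ (δ < t ∧ t < b)) : vv φ b δ t = 0 := if_neg h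

section sums

variable {φ : ℝ → ℝ} {b δ η : ℝ} {D0 Z d s ρ : ℕ}

open Classical in
lemma cst_mid {p : ℕ} (hs : 0 < s)
    (hm : δ * s < p ∧ (p : ℝ) < b * s) :
    (cst D0 Z d φ b δ η s p : ℝ) * Real.log p ≤ (s : ℝ) * (Real.log p * vv φ b δ (p / s))
      + (if (p : ℝ) ≤ b * s then (s * η + 1) * Real.log p else 0) := by
  have hs0 : (0 : ℝ) < s := by exact_mod_cast hs
  have hlp : 0 ≤ Real.log p := Real.log_natCast_nonneg p
  have e1 : (cst D0 Z d φ b δ η s p : ℝ) ≤ s * (φ (p / s) + η) + 1 := by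
    rw [cst, if_pos hm]
    exact (Int.ceil_lt_add_one _).le
  have e2 : vv φ b δ (p / s) = φ (p / s) := by
    apply vv_eq
    · rw [lt_div_iff₀ hs0]; exact hm.1
    · rw [div_lt_iff₀ hs0]; exact hm.2
  rw [if_pos hm.2.le, e2]
  refine (mul_le_mul_of_nonneg_right e1 hlp).trans (le_of_eq ?_)
  ring

open Classical in
lemma cst_out {p : ℕ} (hpp : p.Prime) (hs : 0 < s) (hZ : 1 ≤ Z) (hd : d ≠ 0)
    (hm : ¬ (δ * s < p ∧ (p : ℝ) < b * s)) :
    (cst D0 Z d φ b δ η s p : ℝ) * Real.log p ≤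
      (if (p : ℝ) ≤ δ * s then 16 * (D0 : ℝ) * s * Real.log p else 0)
      + (if p ^ 2 ≤ Z then 16 * (D0 : ℝ) * s * Real.log Z else 0)
      + (if b * s ≤ (p : ℝ) then 16 * (D0 : ℝ) * s * Real.log Z else 0)
      + (if p ≤ d then 8 * (D0 : ℝ) * s * Real.log d else 0) := by
  have := Fact.mk hpp
  have hs0 : (0 : ℝ) < s := by exact_mod_cast hs
  have hlp : 0 ≤ Real.log p := Real.log_natCast_nonneg p
  have hlZ : 0 ≤ Real.log Z := Real.log_natCast_nonneg Z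
  have hld : 0 ≤ Real.log d := Real.log_natCast_nonneg d
  have e1 : (cst D0 Z d φ b δ η s p : ℝ)
      = 8 * (D0 * s) * (2 * (Nat.log p Z : ℝ) + padicValNat p d) := by
    rw [cst, if_neg hm]
    simp only [Int.cast_natCast, Nat.cast_mul, Nat.cast_add, Nat.cast_ofNat, Int.cast_mul,
      Int.cast_add, Int.cast_ofNat]
  have e3 := triv_log_le (p := p) hZ hd
  rw [e1, mul_assoc]
  refine (mul_le_mul_of_nonneg_left e3 (by positivity)).trans ?_
  have e5 : 16 * (D0 : ℝ) * s * (if p ≤ Z then Real.log p else 0)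
      ≤ (if (p : ℝ) ≤ δ * s then 16 * (D0 : ℝ) * s * Real.log p else 0)
      + (if b * s ≤ (p : ℝ) then 16 * (D0 : ℝ) * s * Real.log Z else 0) := by
    have a1 : 0 ≤ 16 * (D0 : ℝ) * s * Real.log p := by positivity
    have a2 : 0 ≤ 16 * (D0 : ℝ) * s * Real.log Z := by positivity
    by_cases h1 : (p : ℝ) ≤ δ * s
    · rw [if_pos h1]
      split_ifs <;> linarith
    · have h2 : b * s ≤ (p : ℝ) := by
        by_contra h3
        exact hm ⟨not_le.1 h1, not_le.1 h3⟩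
      rw [if_neg h1, if_pos h2]
      split_ifs with h4
      · have h5 : Real.log p ≤ Real.log Z :=
          Real.log_le_log (by exact_mod_cast hpp.pos) (by exact_mod_cast h4)
        have := mul_le_mul_of_nonneg_left h5 (show 0 ≤ 16 * (D0 : ℝ) * s by positivity)
        linarith
      · linarith
  have e6 : 16 * (D0 : ℝ) * s * (if p ^ 2 ≤ Z then Real.log Z else 0)
      = (if p ^ 2 ≤ Z then 16 * (D0 : ℝ) * s * Real.log Z else 0) := by
    split_ifs <;> ring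
  have e7 : 8 * (D0 : ℝ) * s * (if p ≤ d then Real.log d else 0)
      = (if p ≤ d then 8 * (D0 : ℝ) * s * Real.log d else 0) := by
    split_ifs <;> ring
  rw [← e6, ← e7]
  linarith

open Classical in
lemma cst_term {p : ℕ} (hpp : p.Prime) (hs : 0 < s) (hη : 0 ≤ η) (hZ : 1 ≤ Z) (hd : d ≠ 0) :
    (cst D0 Z d φ b δ η s p : ℝ) * Real.log p ≤
      (s : ℝ) * (Real.log p * vv φ b δ (p / s))
      + (if (p : ℝ) ≤ b * s then (s * η + 1) * Real.log p else 0)
      + (if (p : ℝ) ≤ δ * s then 16 * (D0 : ℝ) * s * Real.log p else 0)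
      + (if p ^ 2 ≤ Z then 16 * (D0 : ℝ) * s * Real.log Z else 0)
      + (if b * s ≤ (p : ℝ) then 16 * (D0 : ℝ) * s * Real.log Z else 0)
      + (if p ≤ d then 8 * (D0 : ℝ) * s * Real.log d else 0) := by
  have hlp : 0 ≤ Real.log p := Real.log_natCast_nonneg p
  have hlZ : 0 ≤ Real.log Z := Real.log_natCast_nonneg Z
  have hld : 0 ≤ Real.log d := Real.log_natCast_nonneg d
  have hs0 : (0 : ℝ) < s := by exact_mod_cast hs
  have n2 : 0 ≤ (if (p : ℝ) ≤ b * s then (s * η + 1) * Real.log p else 0) := by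
    split_ifs <;> positivity
  have n3 : 0 ≤ (if (p : ℝ) ≤ δ * s then 16 * (D0 : ℝ) * s * Real.log p else 0) := by
    split_ifs <;> positivity
  have n4 : 0 ≤ (if p ^ 2 ≤ Z then 16 * (D0 : ℝ) * s * Real.log Z else 0) := by
    split_ifs <;> positivity
  have n5 : 0 ≤ (if b * s ≤ (p : ℝ) then 16 * (D0 : ℝ) * s * Real.log Z else 0) := by
    split_ifs <;> positivity
  have n6 : 0 ≤ (if p ≤ d then 8 * (D0 : ℝ) * s * Real.log d else 0) := by
    split_ifs <;> positivity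
  by_cases hm : δ * s < p ∧ (p : ℝ) < b * s
  · have := cst_mid (D0 := D0) (Z := Z) (d := d) (φ := φ) (η := η) hs hm
    linarith
  · have := cst_out (D0 := D0) (φ := φ) (η := η) hpp hs hZ hd hm
    have h0 : vv φ b δ (p / s) = 0 := by
      apply vv_zero
      rintro ⟨h1, h2⟩
      rw [lt_div_iff₀ hs0] at h1
      rw [div_lt_iff₀ hs0] at h2
      exact hm ⟨h1, h2⟩
    rw [h0, mul_zero, mul_zero]
    linarith

lemma theta_sub (y : ℝ) : ∑ p ∈ (SS b ρ s).filter (fun p : ℕ => (p : ℝ) ≤ y), Real.log p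
    ≤ Chebyshev.theta y := by
  rw [Chebyshev.theta]
  refine Finset.sum_le_sum_of_subset_of_nonneg ?_ fun p _ _ => Real.log_natCast_nonneg p
  intro p hp
  rw [Finset.mem_filter] at hp
  have hpp := (Finset.mem_filter.1 hp.1).2.1
  rw [Finset.mem_filter, Finset.mem_Ioc]
  exact ⟨⟨hpp.pos, Nat.le_floor hp.2⟩, hpp⟩

lemma sum_vv (hs : 0 < s) (hb : 0 ≤ b) (hρ : 1 ≤ ρ) (h2 : 2 ≤ δ * s) :
    ∑ p ∈ SS b ρ s, Real.log p * vv φ b δ (p / s)
      = ∑ p ∈ (Finset.Ioc ⌊δ * (s : ℝ)⌋₊ ⌊b * (s : ℝ)⌋₊).filter Nat.Prime,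
        Real.log p * vv φ b δ (p / s) := by
  classical
  have hs0 : (0 : ℝ) < s := by exact_mod_cast hs
  have h1 : ∑ p ∈ SS b ρ s, Real.log p * vv φ b δ (p / s)
      = ∑ p ∈ (SS b ρ s).filter (fun p : ℕ => δ * s < p ∧ (p : ℝ) ≤ b * s),
        Real.log p * vv φ b δ (p / s) := by
    rw [Finset.sum_filter]
    refine Finset.sum_congr rfl fun p _ => ?_
    split_ifs with h
    · rfl
    · have : vv φ b δ (p / s) = 0 := by
        apply vv_zero
        rintro ⟨a1, a2⟩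
        rw [lt_div_iff₀ hs0] at a1
        rw [div_lt_iff₀ hs0] at a2
        exact h ⟨a1, a2.le⟩
      rw [this, mul_zero]
  rw [h1]
  congr 1
  ext p
  simp only [SS, Finset.mem_filter, Finset.mem_range, Finset.mem_Ioc]
  constructor
  · rintro ⟨⟨a1, a2, a3⟩, a4, a5⟩
    exact ⟨⟨(Nat.floor_lt (by positivity)).2 a4, Nat.le_floor a5⟩, a2⟩
  · rintro ⟨⟨a1, a2⟩, a3⟩
    have a4 : δ * s < p := (Nat.floor_lt (by positivity)).1 a1
    refine ⟨⟨by omega, a3, ?_⟩, a4, (Nat.le_floor_iff (by positivity)).1 a2⟩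
    rintro rfl
    push_cast at a4
    linarith

lemma card_sq : (((SS b ρ s).filter (fun p => p ^ 2 ≤ Z)).card : ℝ) ≤ Real.sqrt Z := by
  have h1 : ((SS b ρ s).filter (fun p => p ^ 2 ≤ Z)) ⊆ Finset.Ioc 0 (Nat.sqrt Z) := by
    intro p hp
    rw [Finset.mem_filter] at hp
    have hpp := (Finset.mem_filter.1 hp.1).2.1
    rw [Finset.mem_Ioc]
    exact ⟨hpp.pos, Nat.le_sqrt'.2 hp.2⟩
  have h2 := Finset.card_le_card h1
  rw [Nat.card_Ioc, Nat.sub_zero] at h2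
  have h3 : ((Nat.sqrt Z : ℕ) : ℝ) ≤ Real.sqrt Z := Real.nat_sqrt_le_real_sqrt
  exact (by exact_mod_cast h2 : (((SS b ρ s).filter (fun p => p ^ 2 ≤ Z)).card : ℝ)
    ≤ ((Nat.sqrt Z : ℕ) : ℝ)).trans h3

open Classical in
lemma card_end : (((SS b ρ s).filter (fun p : ℕ => b * s ≤ (p : ℝ))).card : ℝ) ≤ ρ := by
  have h1 : ((SS b ρ s).filter (fun p : ℕ => b * s ≤ (p : ℝ))) ⊆
      Finset.Ico ⌊b * (s : ℝ)⌋₊ (⌊b * (s : ℝ)⌋₊ + ρ) := by
    intro p hp
    rw [Finset.mem_filter] at hp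
    have h2 := Finset.mem_range.1 (Finset.mem_filter.1 hp.1).1
    rw [Finset.mem_Ico]
    exact ⟨Nat.floor_le_of_le hp.2, h2⟩
  have h2 := Finset.card_le_card h1
  rw [Nat.card_Ico, Nat.add_sub_cancel_left] at h2
  exact_mod_cast h2

lemma card_den : (((SS b ρ s).filter (fun p => p ≤ d)).card : ℝ) ≤ d := by
  have h1 : ((SS b ρ s).filter (fun p => p ≤ d)) ⊆ Finset.Ioc 0 d := by
    intro p hp
    rw [Finset.mem_filter] at hp
    have hpp := (Finset.mem_filter.1 hp.1).2.1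
    rw [Finset.mem_Ioc]
    exact ⟨hpp.pos, hp.2⟩
  have h2 := Finset.card_le_card h1
  rw [Nat.card_Ioc, Nat.sub_zero] at h2
  exact_mod_cast h2

/-- the sum of the costs. -/
lemma cst_sum (hs : 0 < s) (hη : 0 ≤ η) (hZ : 1 ≤ Z) (hd : d ≠ 0) (hb : 0 ≤ b)
    (hρ : 1 ≤ ρ) (h2 : 2 ≤ δ * s) :
    ∑ p ∈ SS b ρ s, (cst D0 Z d φ b δ η s p : ℝ) * Real.log p ≤
      (s : ℝ) * (∑ p ∈ (Finset.Ioc ⌊δ * (s : ℝ)⌋₊ ⌊b * (s : ℝ)⌋₊).filter Nat.Prime,
        Real.log p * vv φ b δ (p / s))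
      + (s * η + 1) * Chebyshev.theta (b * s)
      + 16 * (D0 : ℝ) * s * Chebyshev.theta (δ * s)
      + 16 * (D0 : ℝ) * s * (Real.sqrt Z * Real.log Z)
      + 16 * (D0 : ℝ) * s * (ρ * Real.log Z)
      + 8 * (D0 : ℝ) * s * (d * Real.log d) := by
  classical
  have hlZ : 0 ≤ Real.log Z := Real.log_natCast_nonneg Z
  have hld : 0 ≤ Real.log d := Real.log_natCast_nonneg d
  have hs0 : (0 : ℝ) < s := by exact_mod_cast hs
  refine (Finset.sum_le_sum fun p hp => cst_term (Finset.mem_filter.1 hp).2.1 hs hη hZ hd).trans ?_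
  simp only [Finset.sum_add_distrib]
  refine add_le_add (add_le_add (add_le_add (add_le_add (add_le_add ?_ ?_) ?_) ?_) ?_) ?_
  · rw [← Finset.mul_sum, sum_vv hs hb hρ h2]
  · rw [← Finset.sum_filter, ← Finset.mul_sum]
    exact mul_le_mul_of_nonneg_left (theta_sub _) (by positivity)
  · rw [← Finset.sum_filter, ← Finset.mul_sum]
    exact mul_le_mul_of_nonneg_left (theta_sub _) (by positivity)
  · rw [← Finset.sum_filter, Finset.sum_const, nsmul_eq_mul]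
    have h5 := mul_le_mul_of_nonneg_left (mul_le_mul_of_nonneg_right
      (card_sq (b := b) (ρ := ρ) (s := s) (Z := Z)) hlZ) (show 0 ≤ 16 * (D0 : ℝ) * s by positivity)
    linarith
  · rw [← Finset.sum_filter, Finset.sum_const, nsmul_eq_mul]
    have h5 := mul_le_mul_of_nonneg_left (mul_le_mul_of_nonneg_right
      (card_end (b := b) (ρ := ρ) (s := s)) hlZ) (show 0 ≤ 16 * (D0 : ℝ) * s by positivity)
    linarith
  · rw [← Finset.sum_filter, Finset.sum_const, nsmul_eq_mul]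
    have h5 := mul_le_mul_of_nonneg_left (mul_le_mul_of_nonneg_right
      (card_den (b := b) (ρ := ρ) (s := s) (d := d)) hld)
      (show 0 ≤ 8 * (D0 : ℝ) * s by positivity)
    linarith

end sums

/-! ### integrals -/

lemma intervalIntegrable_of_loc {φ : ℝ → ℝ} {b M : ℝ} (hb : 0 < b)
    (hM : ∀ t ∈ Ioo 0 b, |φ t| ≤ M)
    (hφ : ∀ δ : ℝ, 0 < δ → ∃ E : Finset ℝ, ContinuousOn φ (Ioo δ b \ E)) :
    IntervalIntegrable φ volume 0 b := by
  rw [intervalIntegrable_iff_integrableOn_Ioc_of_le hb.le,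
    integrableOn_Ioc_iff_integrableOn_Ioo]
  have hm : AEStronglyMeasurable φ (volume.restrict (Ioo 0 b)) := by
    have hU : Ioo 0 b = ⋃ n : ℕ, Ioo (1 / ((n : ℝ) + 1)) b := by
      ext t
      simp only [mem_iUnion, mem_Ioo]
      constructor
      · rintro ⟨h1, h2⟩
        obtain ⟨n, hn⟩ := exists_nat_one_div_lt h1
        exact ⟨n, hn, h2⟩
      · rintro ⟨n, h1, h2⟩
        exact ⟨lt_trans (by positivity) h1, h2⟩
    rw [hU, aestronglyMeasurable_iUnion_iff]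
    intro n
    obtain ⟨E', hE'⟩ := hφ (1 / ((n : ℝ) + 1)) (by positivity)
    have h1 := hE'.aestronglyMeasurable (μ := volume)
      (measurableSet_Ioo.diff E'.measurableSet)
    have h2 : volume.restrict (Ioo (1 / ((n : ℝ) + 1)) b \ (E' : Set ℝ))
        = volume.restrict (Ioo (1 / ((n : ℝ) + 1)) b) := by
      apply Measure.restrict_congr_set
      exact sdiff_null_ae_eq_self (E'.finite_toSet.measure_zero volume)
    rwa [h2] at h1
  refine (integrable_const M).mono' hm ?_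
  filter_upwards [ae_restrict_mem measurableSet_Ioo] with t ht
  exact hM t ht

lemma integral_vv_le {φ : ℝ → ℝ} {b M δ : ℝ} (hb : 0 < b)
    (hM : ∀ t ∈ Ioo 0 b, |φ t| ≤ M)
    (hφ : ∀ δ : ℝ, 0 < δ → ∃ E : Finset ℝ, ContinuousOn φ (Ioo δ b \ E)) (hδ0 : 0 < δ)
    (hδb : δ < b) :
    ∫ t in δ..b, vv φ b δ t ≤ (∫ t in (0 : ℝ)..b, φ t) + M * δ := by
  have hI := intervalIntegrable_of_loc hb hM hφ
  have e1 : ∫ t in δ..b, vv φ b δ t = ∫ t in δ..b, φ t := by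
    rw [intervalIntegral.integral_of_le (by linarith), intervalIntegral.integral_of_le
      (by linarith), integral_Ioc_eq_integral_Ioo, integral_Ioc_eq_integral_Ioo]
    exact setIntegral_congr_fun measurableSet_Ioo fun t ht => vv_eq ht.1 ht.2
  have i1 : IntervalIntegrable φ volume 0 δ := hI.mono_set (by
    rw [uIcc_of_le hδ0.le, uIcc_of_le hb.le]; exact Icc_subset_Icc le_rfl (by linarith))
  have i2 : IntervalIntegrable φ volume δ b := hI.mono_set (by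
    rw [uIcc_of_le (by linarith), uIcc_of_le hb.le]; exact Icc_subset_Icc hδ0.le le_rfl)
  rw [← intervalIntegral.integral_add_adjacent_intervals i1 i2, e1]
  have r1 : |∫ t in (0 : ℝ)..δ, φ t| ≤ M * δ := by
    have := intervalIntegral.norm_integral_le_of_norm_le_const (a := 0) (b := δ) (C := M)
      (f := φ) (fun t ht => by
        rw [uIoc_of_le hδ0.le] at ht
        exact hM t ⟨ht.1, by linarith [ht.2]⟩)
    rwa [sub_zero, abs_of_pos hδ0] at this
  linarith [(abs_le.mp r1).1]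

/-- The prime number theorem for the weight. -/
lemma vv_tendsto {φ : ℝ → ℝ} {b M δ : ℝ}
    (hM : ∀ t ∈ Ioo 0 b, |φ t| ≤ M)
    (hφ : ∀ δ : ℝ, 0 < δ → ∃ E : Finset ℝ, ContinuousOn φ (Ioo δ b \ E)) (hδ0 : 0 < δ)
    (hδb : δ < b) :
    Tendsto (fun x : ℝ => (∑ p ∈ (Finset.Ioc ⌊δ * x⌋₊ ⌊b * x⌋₊).filter Nat.Prime,
      Real.log p * vv φ b δ (p / x)) / x) atTop (𝓝 (∫ t in δ..b, vv φ b δ t)) := by
  have hM0 : 0 ≤ M := (abs_nonneg _).trans
    (hM ((δ + b) / 2) ⟨by linarith, by linarith⟩)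
  obtain ⟨E, hE⟩ := hφ δ hδ0
  have hvM : ∀ t, |vv φ b δ t| ≤ M := by
    intro t
    by_cases h : δ < t ∧ t < b
    · rw [vv_eq h.1 h.2]; exact hM t ⟨hδ0.trans h.1, h.2⟩
    · rw [vv_zero h]; simpa using hM0
  have hvc : ContinuousOn (vv φ b δ) (Ioo δ b \ E) := by
    refine hE.congr ?_
    rintro t ⟨⟨h1, h2⟩, _⟩
    exact vv_eq h1 h2
  exact theta_weighted_fin E hδ0.le hδb.le hvc fun t _ => hvM t

lemma collect {s b M δ η ε ε' κ ρ D0 dL I I0 W T1 T2 sqZ lZ : ℝ} (hs1 : 1 ≤ s) (_hb : 0 ≤ b)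
    (hδ : 0 ≤ δ) (hη : 0 ≤ η) (hD0 : 0 ≤ D0) (hρ : 0 ≤ ρ) (hε : 0 ≤ ε) (_hM : 0 ≤ M)
    (g1 : W ≤ s * (I + ε / 8)) (hint : I ≤ I0 + M * δ) (g2 : T1 ≤ 2 * (b * s))
    (g3 : T2 ≤ 2 * (δ * s)) (hsqZ : sqZ ≤ ε' * (κ * s)) (hlogZ : lZ ≤ ε' * (κ * s))
    (g6 : 2 * b ≤ ε / 8 * s) (g7 : 8 * D0 * dL ≤ ε / 8 * s) (hηb : 2 * b * η = ε / 8)
    (hε' : 16 * D0 * κ * (1 + ρ) * ε' ≤ ε / 8) (hδε : δ * (M + 32 * D0 + 1) ≤ ε / 8) :
    s * W + (s * η + 1) * T1 + 16 * D0 * s * T2 + 16 * D0 * s * sqZ + 16 * D0 * s * (ρ * lZ)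
      + 8 * D0 * s * dL ≤ (I0 + ε) * s ^ 2 := by
  have hs0 : 0 ≤ s := by linarith
  have hs2' : 0 ≤ s ^ 2 := by positivity
  have w1 : s * W ≤ (I0 + M * δ + ε / 8) * s ^ 2 := by
    have h1 := mul_le_mul_of_nonneg_left g1 hs0
    have h2 := mul_le_mul_of_nonneg_right hint hs2'
    have h3 : s * (s * (I + ε / 8)) = I * s ^ 2 + ε / 8 * s ^ 2 := by ring
    have h4 : (I0 + M * δ + ε / 8) * s ^ 2 = (I0 + M * δ) * s ^ 2 + ε / 8 * s ^ 2 := by ring
    linarith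
  have w2 : (s * η + 1) * T1 ≤ (ε / 8 + ε / 8) * s ^ 2 := by
    have h0 := mul_le_mul_of_nonneg_left g2 (show 0 ≤ s * η + 1 by positivity)
    have h1 : (s * η + 1) * (2 * (b * s)) = (2 * b * η) * s ^ 2 + 2 * b * s := by ring
    rw [h1, hηb] at h0
    have h2 := mul_le_mul_of_nonneg_right g6 hs0
    have h3 : ε / 8 * s * s = ε / 8 * s ^ 2 := by ring
    have h4 : (ε / 8 + ε / 8) * s ^ 2 = ε / 8 * s ^ 2 + ε / 8 * s ^ 2 := by ring
    linarith
  have w3 : 16 * D0 * s * T2 ≤ 32 * D0 * δ * s ^ 2 := by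
    have h0 := mul_le_mul_of_nonneg_left g3 (show 0 ≤ 16 * D0 * s by positivity)
    refine h0.trans (le_of_eq ?_)
    ring
  have w4 : 16 * D0 * s * sqZ + 16 * D0 * s * (ρ * lZ) ≤ ε / 8 * s ^ 2 := by
    have a1 := mul_le_mul_of_nonneg_left hsqZ (show 0 ≤ 16 * D0 * s by positivity)
    have a2 := mul_le_mul_of_nonneg_left (mul_le_mul_of_nonneg_left hlogZ hρ)
      (show 0 ≤ 16 * D0 * s by positivity)
    have h1 : 16 * D0 * s * (ε' * (κ * s)) + 16 * D0 * s * (ρ * (ε' * (κ * s)))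
      = (16 * D0 * κ * (1 + ρ) * ε') * s ^ 2 := by ring
    have h2 := mul_le_mul_of_nonneg_right hε' hs2'
    linarith
  have w5 : 8 * D0 * s * dL ≤ ε / 8 * s ^ 2 := by
    have h1 := mul_le_mul_of_nonneg_right g7 hs0
    have h2 : ε / 8 * s * s = ε / 8 * s ^ 2 := by ring
    have h3 : 8 * D0 * dL * s = 8 * D0 * s * dL := by ring
    linarith
  have w6 : M * δ + 32 * D0 * δ ≤ ε / 8 := by
    have : δ * (M + 32 * D0 + 1) = M * δ + 32 * D0 * δ + δ := by ring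
    linarith
  have w7 := mul_le_mul_of_nonneg_right w6 hs2'
  have w8 : 0 ≤ ε * s ^ 2 := by positivity
  have w9 : (I0 + ε) * s ^ 2
      = (I0 + M * δ + ε / 8) * s ^ 2 + (ε / 8 + ε / 8) * s ^ 2
        + 32 * D0 * δ * s ^ 2 + ε / 8 * s ^ 2 + ε / 8 * s ^ 2
        + (ε * s ^ 2 * (3 / 8) - (M * δ + 32 * D0 * δ) * s ^ 2) := by ring
  rw [w9]
  linarith

/-- **Asymptotics of the total cost.** -/
theorem cost_le {φ : ℝ → ℝ} {b M : ℝ} (D0 H c0 d : ℕ) (hd : d ≠ 0)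
    (hb : 0 < b) (hM : ∀ t ∈ Ioo 0 b, |φ t| ≤ M)
    (hφ : ∀ δ : ℝ, 0 < δ → ∃ E : Finset ℝ, ContinuousOn φ (Ioo δ b \ E)) {ε : ℝ} (hε : 0 < ε) :
    ∃ δ > 0, ∃ η > 0, ∃ s0 : ℕ, ∀ s : ℕ, s0 ≤ s → (d : ℝ) + 2 ≤ δ * s ∧
      ∑ p ∈ SS b (c0 + d + 5) s, (cst D0 (H * s + c0 + 2) d φ b δ η s p : ℝ) * Real.log p
        ≤ ((∫ t in (0 : ℝ)..b, φ t) + ε) * (s : ℝ) ^ 2 := by
  have hM0 : 0 ≤ M := (abs_nonneg _).trans (hM (b / 2) ⟨by linarith, by linarith⟩)
  have hD00 : (0 : ℝ) ≤ D0 := Nat.cast_nonneg _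
  set ρ : ℕ := c0 + d + 5 with hρ
  have hρ0 : (0 : ℝ) ≤ ρ := Nat.cast_nonneg _
  set κ : ℝ := H + c0 + 2 with hκ
  have hκ0 : 0 < κ := by positivity
  set δ : ℝ := min (b / 2) (ε / (8 * (M + 32 * D0 + 1))) with hδ
  have hδ0 : 0 < δ := lt_min (by linarith) (by positivity)
  have hδb : δ ≤ b / 2 := min_le_left _ _
  have hδε : δ * (M + 32 * D0 + 1) ≤ ε / 8 := by
    have h : δ ≤ ε / (8 * (M + 32 * D0 + 1)) := min_le_right _ _
    rw [le_div_iff₀ (by positivity)] at h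
    linarith
  set η : ℝ := ε / (16 * b) with hη
  have hη0 : 0 < η := by positivity
  have hηb : 2 * b * η = ε / 8 := by rw [hη]; field_simp; norm_num
  set ε' : ℝ := ε / (8 * (16 * D0 * κ * (1 + ρ) + 1)) with hε'
  have hε'0 : 0 < ε' := by positivity
  have hε'1 : 16 * D0 * κ * (1 + ρ) * ε' ≤ ε / 8 := by
    have h1 : ε' * (8 * (16 * D0 * κ * (1 + ρ) + 1)) = ε := by rw [hε']; field_simp
    nlinarith
  have hint := integral_vv_le hb hM hφ hδ0 (by linarith)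
  have hmain := vv_tendsto hM hφ hδ0 (by linarith)
  have hcast : Tendsto (fun s : ℕ => (s : ℝ)) atTop atTop := tendsto_natCast_atTop_atTop
  have hA1 : ∀ᶠ s : ℕ in atTop, (∑ p ∈ (Finset.Ioc ⌊δ * (s : ℝ)⌋₊ ⌊b * (s : ℝ)⌋₊).filter
      Nat.Prime, Real.log p * vv φ b δ (p / s)) ≤ (s : ℝ) * ((∫ t in δ..b, vv φ b δ t) + ε / 8) := by
    have h := (hmain.comp hcast).eventually (Iio_mem_nhds
      (show ∫ t in δ..b, vv φ b δ t < (∫ t in δ..b, vv φ b δ t) + ε / 8 by linarith))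
    filter_upwards [h, eventually_gt_atTop 0] with s hs hs0
    have hs0' : (0 : ℝ) < s := by exact_mod_cast hs0
    have hs' : (∑ p ∈ (Finset.Ioc ⌊δ * (s : ℝ)⌋₊ ⌊b * (s : ℝ)⌋₊).filter
      Nat.Prime, Real.log p * vv φ b δ (p / s)) / (s : ℝ)
        < (∫ t in δ..b, vv φ b δ t) + ε / 8 := hs
    rw [div_lt_iff₀ hs0'] at hs'
    linarith
  have hA2 : ∀ᶠ s : ℕ in atTop, Chebyshev.theta (b * s) ≤ 2 * (b * s) :=
    (hcast.const_mul_atTop hb).eventually theta_le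
  have hA3 : ∀ᶠ s : ℕ in atTop, Chebyshev.theta (δ * s) ≤ 2 * (δ * s) :=
    (hcast.const_mul_atTop hδ0).eventually theta_le
  have hA4 : ∀ᶠ s : ℕ in atTop, Real.sqrt (κ * s) * Real.log (κ * s) ≤ ε' * (κ * s) :=
    (hcast.const_mul_atTop hκ0).eventually (sqrt_log_small hε'0)
  have hA5 : ∀ᶠ s : ℕ in atTop, (d : ℝ) + 2 ≤ δ * s ∧ 2 * b ≤ ε / 8 * s ∧
      8 * D0 * (d * Real.log d) ≤ ε / 8 * s ∧ 1 ≤ s := by
    have h1 := (hcast.const_mul_atTop hδ0).eventually_ge_atTop ((d : ℝ) + 2)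
    have h2 := (hcast.const_mul_atTop (show 0 < ε / 8 by positivity)).eventually_ge_atTop (2 * b)
    have h3 := (hcast.const_mul_atTop (show 0 < ε / 8 by positivity)).eventually_ge_atTop
      (8 * D0 * (d * Real.log d))
    filter_upwards [h1, h2, h3, eventually_ge_atTop 1] with s a1 a2 a3 a4
    exact ⟨a1, a2, a3, a4⟩
  obtain ⟨s1, hs1⟩ := eventually_atTop.1 (hA1.and (hA2.and (hA3.and (hA4.and hA5))))
  refine ⟨δ, hδ0, η, hη0, s1, fun s hs => ?_⟩
  obtain ⟨g1, g2, g3, g4, g5, g6, g7, g8⟩ := hs1 s hs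
  refine ⟨g5, ?_⟩
  clear hs1 hA1 hA2 hA3 hA4 hA5 hmain
  have hs0 : (0 : ℝ) < s := by exact_mod_cast g8
  have hs1' : (1 : ℝ) ≤ s := by exact_mod_cast g8
  set Z : ℕ := H * s + c0 + 2 with hZ
  have hZ1 : 1 ≤ Z := by omega
  have hZκ : (Z : ℝ) ≤ κ * s := by
    rw [hZ, hκ]; push_cast
    nlinarith [Nat.cast_nonneg (α := ℝ) c0]
  have hlZ0 : 0 ≤ Real.log Z := Real.log_natCast_nonneg Z
  have hsqZ : Real.sqrt Z * Real.log Z ≤ ε' * (κ * s) := by
    refine le_trans ?_ g4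
    have hZ0 : (0 : ℝ) < Z := by exact_mod_cast hZ1
    exact mul_le_mul (Real.sqrt_le_sqrt hZκ) (Real.log_le_log hZ0 hZκ) hlZ0 (Real.sqrt_nonneg _)
  have hlogZ : Real.log Z ≤ ε' * (κ * s) := by
    refine le_trans ?_ hsqZ
    have : 1 ≤ Real.sqrt Z := by
      rw [Real.one_le_sqrt]; exact_mod_cast hZ1
    nlinarith
  have hd0' : (0 : ℝ) ≤ d := Nat.cast_nonneg _
  refine (cst_sum (by omega) hη0.le hZ1 hd hb.le (by omega) (by linarith)).trans ?_
  exact collect hs1' hb.le hδ0.le hη0.le hD00 hρ0 hε.le hM0 g1 hint g2 g3 hsqZ hlogZ g6 g7 hηb hε'1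
    hδε

/-! ### the glue -/

/-- **`StOD` from a local cost profile.**  `φ` is the cost per prime at `p = t s`, in units of `s`;
only primes with `δ s < p < b s`, prime to the denominator of `x`, have to be treated. -/
theorem stOD_of_local (P : Par) (c0 H : ℕ) (hH : ∀ g, P.ht g ≤ H) {φ : ℝ → ℝ} {b M : ℝ}
    (hb : 0 < b) (hHb : (H : ℝ) ≤ b) (hM : ∀ t ∈ Ioo 0 b, |φ t| ≤ M)
    (hφ : ∀ δ : ℝ, 0 < δ → ∃ E : Finset ℝ, ContinuousOn φ (Ioo δ b \ E))
    (hloc : ∀ x : ℚ, ∀ δ : ℝ, 0 < δ → ∀ η : ℝ, 0 < η → ∃ s0 : ℕ, ∀ s : ℕ, s0 ≤ s →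
      ∀ p : ℕ, p.Prime → p ≠ 2 → x.den < p → δ * s < p → (p : ℝ) < b * s →
      ∀ σ, Adm P c0 s σ → (Mx (P.D0 * s) x σ).det ≠ 0 →
      -(s * (φ (p / s) + η)) ≤ (padicValRat p (Mx (P.D0 * s) x σ).det : ℝ)) :
    StOD P c0 (∫ t in (0 : ℝ)..b, φ t) := by
  classical
  intro x ε hε
  obtain ⟨δ, hδ0, η, hη0, s1, h1⟩ := cost_le P.D0 H c0 x.den x.den_nz hb hM hφ hε
  obtain ⟨s2, h2⟩ := hloc x δ hδ0 η hη0
  refine ⟨max s1 s2, fun s hs => ?_⟩
  obtain ⟨g1, g2⟩ := h1 s ((le_max_left _ _).trans hs)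
  have k2 := h2 s ((le_max_right _ _).trans hs)
  have hs0 : (0 : ℝ) < s := by
    rcases Nat.eq_zero_or_pos s with h | h
    · rw [h] at g1
      push_cast at g1
      have : (0 : ℝ) ≤ x.den := Nat.cast_nonneg _
      linarith
    · exact_mod_cast h
  refine ⟨SS b (c0 + x.den + 5) s, cst P.D0 (H * s + c0 + 2) x.den φ b δ η s,
    fun p hp => (Finset.mem_filter.1 hp).2, g2, ?_⟩
  intro σ hσ hdet p hpp hp2
  have := Fact.mk hpp
  have htriv := val_det_ge hp2 (P.D0 * s) x σ (H * s + c0) (fun c => lt_of_lt_of_le (hσ.2 c)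
    (Nat.add_le_add_right (Nat.mul_le_mul_right s (hH _)) c0)) hdet
  split_ifs with hpS
  · by_cases hm : δ * s < p ∧ (p : ℝ) < b * s
    · rw [cst, if_pos hm]
      have hdp : x.den < p := by
        have h2 : (x.den : ℝ) < p := by linarith [hm.1]
        exact_mod_cast h2
      have h3 := k2 p hpp hp2 hdp hm.1 hm.2 σ hσ hdet
      have h4 : (-(padicValRat p (Mx (P.D0 * s) x σ).det) : ℤ) ≤ ⌈(s : ℝ) * (φ (p / s) + η)⌉ := by
        have h5 := Int.le_ceil ((s : ℝ) * (φ (p / s) + η))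
        have h6 : ((-(padicValRat p (Mx (P.D0 * s) x σ).det) : ℤ) : ℝ)
            ≤ ((⌈(s : ℝ) * (φ (p / s) + η)⌉ : ℤ) : ℝ) := by
          push_cast
          linarith
        exact_mod_cast h6
      linarith
    · rw [cst, if_neg hm]
      exact htriv
  · -- large primes
    have hbig : ⌊b * (s : ℝ)⌋₊ + (c0 + x.den + 5) ≤ p := by
      by_contra h
      exact hpS (Finset.mem_filter.2 ⟨Finset.mem_range.2 (not_le.1 h), hpp, hp2⟩)
    have hHs : H * s ≤ ⌊b * (s : ℝ)⌋₊ := by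
      refine Nat.le_floor ?_
      push_cast
      exact mul_le_mul_of_nonneg_right hHb hs0.le
    have h1 : Nat.log p (H * s + c0 + 2) = 0 := Nat.log_of_lt (by omega)
    have h2 : padicValNat p x.den = 0 := by
      apply padicValNat.eq_zero_of_not_dvd
      intro hdv
      have := Nat.le_of_dvd x.den_pos hdv
      omega
    rw [h1, h2] at htriv
    simpa using htriv

end Vale.Agent.P030.H404

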