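import Vale.Agent.P030.H404.LineA6
import Vale.Agent.P030.H404.OdGlue

/-!
# P030, odd primes, line (I): the local cost profile `phiA`
-/

open Finset Set

set_option linter.unusedSectionVars false
set_option linter.unusedVariables false

namespace Vale.Agent.P030.H404

open Vale.Agent.P030.T
open Vale.Agent.P030.H678 (Vg VB)

variable {p : ℕ} [hp : Fact p.Prime]

/-- number of modified columns of a group -/
def mmA (m0 m1 : ℕ) : Gp → ℕ
  | .zab => m0
  | .wab => m1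
  | .wf7 => m1
  | _ => 0

lemma term_le (m0 m1 : ℕ) (g : Gp) (k : ℕ) : max (1 - wA p m0 m1 (g, k)) 0
    ≤ 1 + (if k + 3 < p then 0 else 2 - H678.wg g) - (if k < mmA m0 m1 g then 1 else 0) := by
  have hwg : H678.wg g ≤ 2 := by cases g <;> decide
  unfold wA
  by_cases hM : isM m0 m1 (g, k)
  · rw [if_pos hM]
    have h1 : k < mmA m0 m1 g := by
      rcases hM with ⟨hg, hk⟩ | ⟨hg, hk⟩ | ⟨hg, hk⟩ <;>
        · simp only at hg hk
          subst hg
          exact hk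
    rw [if_pos h1]
    simp only [sub_self, max_self]
    split_ifs <;> omega
  · rw [if_neg hM]
    have h1 : ¬ k < mmA m0 m1 g := by
      intro h
      apply hM
      cases g with
      | zab => exact Or.inl ⟨rfl, h⟩
      | wab => exact Or.inr (Or.inl ⟨rfl, h⟩)
      | wf7 => exact Or.inr (Or.inr ⟨rfl, h⟩)
      | _ => exact absurd h (Nat.not_lt_zero _)
    rw [if_neg h1]
    simp only
    split_ifs <;> omega

lemma sum_range_ite_lt (N m : ℕ) (h : m ≤ N) :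
    ∑ k ∈ Finset.range N, (if k < m then (1 : ℤ) else 0) = m := by
  rw [← Finset.sum_filter, Finset.sum_const, nsmul_eq_mul, mul_one]
  have : (Finset.range N).filter (fun k => k < m) = Finset.range m := by
    ext i
    simp only [Finset.mem_filter, Finset.mem_range]
    omega
  rw [this, Finset.card_range]

lemma sum_range_ite_ge (N q : ℕ) (e : ℤ) :
    ∑ k ∈ Finset.range N, (if k + 3 < q then 0 else e) = e * ((N - (q - 3) : ℕ) : ℤ) := by
  have h1 : ∀ k, (if k + 3 < q then (0 : ℤ) else e) = e - e * (if k < min N (q - 3) then 1 else 0)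
      ∨ N ≤ k := by
    intro k
    by_cases hk : N ≤ k
    · exact Or.inr hk
    · left
      by_cases h : k + 3 < q
      · rw [if_pos h, if_pos (by omega)]; ring
      · rw [if_neg h, if_neg (by omega)]; ring
  have h2 : ∑ k ∈ Finset.range N, (if k + 3 < q then 0 else e)
      = ∑ k ∈ Finset.range N, (e - e * (if k < min N (q - 3) then 1 else 0)) := by
    refine Finset.sum_congr rfl fun k hk => ?_
    rcases h1 k with h | h
    · exact h
    · exact absurd (Finset.mem_range.1 hk) (not_lt.2 h)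
  rw [h2, Finset.sum_sub_distrib, ← Finset.mul_sum, sum_range_ite_lt _ _ (min_le_left _ _),
    Finset.sum_const, Finset.card_range, nsmul_eq_mul]
  have : ((N - (q - 3) : ℕ) : ℤ) = N - (min N (q - 3) : ℕ) := by omega
  rw [this]; ring

lemma sum_wA_le {P : Par} {c0 s m0 m1 : ℕ} (hm : ∀ g, mmA m0 m1 g ≤ P.ht g * s + c0) :
    ∑ g : Gp, ∑ k ∈ Finset.range (P.ht g * s + c0), max (1 - wA p m0 m1 (g, k)) 0
      ≤ ∑ g : Gp, (((P.ht g * s + c0 : ℕ) : ℤ)
          + (2 - H678.wg g) * ((P.ht g * s + c0 - (p - 3) : ℕ) : ℤ)) - (m0 + 2 * m1 : ℕ) := by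
  have h1 : ∀ g : Gp, ∑ k ∈ Finset.range (P.ht g * s + c0), max (1 - wA p m0 m1 (g, k)) 0
      ≤ ((P.ht g * s + c0 : ℕ) : ℤ) + (2 - H678.wg g) * ((P.ht g * s + c0 - (p - 3) : ℕ) : ℤ)
        - mmA m0 m1 g := by
    intro g
    refine (Finset.sum_le_sum fun k _ => term_le (p := p) m0 m1 g k).trans (le_of_eq ?_)
    rw [Finset.sum_sub_distrib, Finset.sum_add_distrib, sum_range_ite_lt _ _ (hm g),
      sum_range_ite_ge, Finset.sum_const, Finset.card_range, nsmul_eq_mul, mul_one]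
  refine (Finset.sum_le_sum fun g _ => h1 g).trans (le_of_eq ?_)
  rw [Finset.sum_sub_distrib]
  congr 1
  have h2 : ∀ f : Gp → ℤ, ∑ g : Gp, f g = f .z1 + f .zl + f .z8 + f .zab + f .w1 + f .wl + f .wy
      + f .w8 + f .wab + f .wf7 + f .v2 + f .vl + f .v8 + f .vb + f .x2 + f .xl + f .x1 := by
    intro f
    have : (Finset.univ : Finset Gp) = {.z1, .zl, .z8, .zab, .w1, .wl, .wy, .w8, .wab, .wf7,
      .v2, .vl, .v8, .vb, .x2, .xl, .x1} := by
      ext g; cases g <;> simp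
    rw [this]
    simp only [Finset.sum_insert, Finset.mem_insert, Finset.mem_singleton, reduceCtorEq, or_self,
      not_false_eq_true, Finset.sum_singleton]
    ring
  rw [h2]
  simp only [mmA]
  push_cast
  ring

/-- modified columns at `c0`, per `s` -/
noncomputable def mu0 (P : Par) (t : ℝ) : ℝ :=
  min (min (P.ht .zab : ℝ) (P.ht .z8)) (max ((P.ht .z1 : ℝ) - t) 0)

/-- modified columns at `c1`, per `s` -/
noncomputable def mu1 (P : Par) (t : ℝ) : ℝ :=
  min (min (min (P.ht .wab : ℝ) (P.ht .wf7)) (min (P.ht .wy : ℝ) (P.ht .w8)))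
    (min (max ((P.ht .w1 : ℝ) - t) 0) (max ((P.ht .wl : ℝ) - t) 0))

/-- the cost of line (I) -/
noncomputable def phiA (P : Par) (t : ℝ) : ℝ :=
  ∑ g : Gp, ((P.ht g : ℝ) + (2 - (H678.wg g : ℝ)) * max ((P.ht g : ℝ) - t) 0) - 8 * P.D0
    - mu0 P t - mu1 P t - max ((P.D0 : ℝ) - t) (mu1 P t)

theorem continuous_phiA (P : Par) : Continuous (phiA P) := by
  unfold phiA mu0 mu1
  fun_prop

lemma nat_sub_ge {h s c0 p : ℕ} (hs : 0 < s) :
    (s : ℝ) * max ((h : ℝ) - p / s) 0 ≤ ((h * s + c0 - p : ℕ) : ℝ) := by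
  have hs0 : (0 : ℝ) < s := by exact_mod_cast hs
  rw [mul_max_of_nonneg _ _ hs0.le, mul_sub, mul_zero]
  have e : (s : ℝ) * (p / s) = p := by field_simp
  rw [e]
  refine max_le ?_ (Nat.cast_nonneg _)
  have h1 : ((h * s + c0 : ℕ) : ℝ) ≤ ((h * s + c0 - p : ℕ) : ℝ) + p := by
    exact_mod_cast (by omega : h * s + c0 ≤ (h * s + c0 - p) + p)
  push_cast at h1 ⊢
  have : (0 : ℝ) ≤ c0 := Nat.cast_nonneg _
  linarith

lemma ht_ge {h s c0 : ℕ} : (s : ℝ) * (h : ℝ) ≤ ((h * s + c0 : ℕ) : ℝ) := by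
  push_cast
  have : (0 : ℝ) ≤ c0 := Nat.cast_nonneg _
  linarith [mul_comm (s : ℝ) (h : ℝ)]

/-- **line (I) as a local profile**: primes `p > T0 s`, where `2 T0` exceeds all heights and `T0`
exceeds the heights of `vb` and `x1` -/
theorem loc_A (P : Par) (c0 : ℕ) {T0 : ℝ} (hT : ∀ g, (P.ht g : ℝ) < 2 * T0)
    (hvb : (P.ht .vb : ℝ) < T0) (hx1 : (P.ht .x1 : ℝ) < T0) :
    ∀ x : ℚ, ∀ η : ℝ, 0 < η → ∃ s0 : ℕ, ∀ s : ℕ, s0 ≤ s →
      ∀ p : ℕ, p.Prime → x.den < p → T0 * s < p →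
      ∀ σ, Adm P c0 s σ → (Mx (P.D0 * s) x σ).det ≠ 0 →
      -(s * (phiA P (p / s) + η)) ≤ (padicValRat p (Mx (P.D0 * s) x σ).det : ℝ) := by
  intro x η hη
  have hT0 : 0 < T0 := lt_of_le_of_lt (Nat.cast_nonneg _) hvb
  -- thresholds
  have hA : ∀ g, ∃ s1 : ℕ, ∀ s : ℕ, s1 ≤ s → ∀ p : ℕ, T0 * s < p → P.ht g * s + c0 + 1 ≤ 2 * p := by
    intro g
    obtain ⟨s1, hs1⟩ := exists_nat_gt ((c0 + 1 : ℝ) / (2 * T0 - P.ht g))
    refine ⟨s1, fun s hs p hp => ?_⟩
    have hpos : 0 < 2 * T0 - P.ht g := by linarith [hT g]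
    have h1 := (div_lt_iff₀ hpos).1 hs1
    have h2 : (s1 : ℝ) ≤ s := by exact_mod_cast hs
    have h3 := mul_le_mul_of_nonneg_right h2 hpos.le
    have h4 : ((P.ht g * s + c0 + 1 : ℕ) : ℝ) ≤ ((2 * p : ℕ) : ℝ) := by
      push_cast
      nlinarith
    exact_mod_cast h4
  have hB : ∀ h : ℕ, (h : ℝ) < T0 → ∃ s1 : ℕ, ∀ s : ℕ, s1 ≤ s → ∀ p : ℕ, T0 * s < p →
      h * s + c0 + 3 ≤ p := by
    intro h hh
    obtain ⟨s1, hs1⟩ := exists_nat_gt ((c0 + 3 : ℝ) / (T0 - h))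
    refine ⟨s1, fun s hs p hp => ?_⟩
    have hpos : 0 < T0 - h := by linarith
    have h1 := (div_lt_iff₀ hpos).1 hs1
    have h2 : (s1 : ℝ) ≤ s := by exact_mod_cast hs
    have h3 := mul_le_mul_of_nonneg_right h2 hpos.le
    have h4 : ((h * s + c0 + 3 : ℕ) : ℝ) ≤ (p : ℝ) := by
      push_cast
      nlinarith
    exact_mod_cast h4
  choose f hf using hA
  obtain ⟨s2, hs2⟩ := hB _ hvb
  obtain ⟨s3, hs3⟩ := hB _ hx1
  obtain ⟨s4, hs4⟩ := exists_nat_gt (5 / T0 : ℝ)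
  obtain ⟨s5, hs5⟩ := exists_nat_gt ((17 * (3 * c0 + 6) : ℝ) / η)
  refine ⟨Finset.univ.sup f + s2 + s3 + s4 + s5 + 1, fun s hs p hpp hxp hTp σ hσ hdet => ?_⟩
  have := Fact.mk hpp
  have hs0N : 0 < s := by omega
  have hs0 : (0 : ℝ) < s := by exact_mod_cast hs0N
  have hfs : ∀ g, f g ≤ s := fun g => by
    have := Finset.le_sup (f := f) (Finset.mem_univ g)
    omega
  have h2p : ∀ g, P.ht g * s + c0 + 1 ≤ 2 * p := fun g => hf g s (hfs g) p hTp
  have hvb' := hs2 s (by omega) p hTp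
  have hx1' := hs3 s (by omega) p hTp
  have hp5 : 5 ≤ p := by
    have h1 := (div_lt_iff₀ hT0).1 hs4
    have h2 : (s4 : ℝ) ≤ s := by exact_mod_cast (by omega : s4 ≤ s)
    have h3 := mul_le_mul_of_nonneg_right h2 hT0.le
    have h4 : ((5 : ℕ) : ℝ) ≤ p := by push_cast; linarith
    exact_mod_cast h4
  have hC : (17 * (3 * c0 + 6) : ℝ) ≤ η * s := by
    have h1 := (div_lt_iff₀ hη).1 hs5
    have h2 : (s5 : ℝ) ≤ s := by exact_mod_cast (by omega : s5 ≤ s)
    have h3 := mul_le_mul_of_nonneg_right h2 hη.le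
    linarith
  -- the choice
  set N : Gp → ℕ := fun g => P.ht g * s + c0 with hN
  set m0 := min (min (N .zab) (N .z8)) (N .z1 - p) with hm0
  set m1 := min (min (min (N .wab) (N .wf7)) (min (N .wy) (N .w8)))
    (min (N .w1 - p) (N .wl - p)) with hm1
  have hN2 : ∀ g, N g + 1 ≤ 2 * p := h2p
  have hm0a : m0 ≤ N .zab ∧ m0 ≤ N .z8 ∧ m0 ≤ N .z1 - p :=
    ⟨(min_le_left _ _).trans (min_le_left _ _), (min_le_left _ _).trans (min_le_right _ _),
      min_le_right _ _⟩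
  have hm1a : m1 ≤ N .wab ∧ m1 ≤ N .wf7 ∧ m1 ≤ N .wy ∧ m1 ≤ N .w8 ∧ m1 ≤ N .w1 - p
      ∧ m1 ≤ N .wl - p :=
    ⟨(min_le_left _ _).trans ((min_le_left _ _).trans (min_le_left _ _)),
      (min_le_left _ _).trans ((min_le_left _ _).trans (min_le_right _ _)),
      (min_le_left _ _).trans ((min_le_right _ _).trans (min_le_left _ _)),
      (min_le_left _ _).trans ((min_le_right _ _).trans (min_le_right _ _)),
      (min_le_right _ _).trans (min_le_left _ _),
      (min_le_right _ _).trans (min_le_right _ _)⟩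
  have hyp : HypA p P c0 s m0 m1 m1 (P.D0 * s - (m1 + p)) := by
    constructor
    · exact hp5
    · intro g; have := h2p g; omega
    · intro g
      have h1 := h2p g
      have h2 : 2 * p ≤ p ^ 2 := two_p_le
      omega
    · exact hvb'
    · exact hx1'
    · have := hN2 .z1; omega
    · have := hN2 .w1; omega
    · exact hm0a.1
    · exact hm0a.2.1
    · have h1 := hm0a.2.2
      show p + m0 ≤ max p (N .z1)
      rcases le_total p (N .z1) with h3 | h3
      · rw [max_eq_right h3]; omega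
      · rw [max_eq_left h3]; omega
    · exact hm1a.1
    · exact hm1a.2.1
    · exact hm1a.2.2.1
    · exact hm1a.2.2.2.1
    · have h1 := hm1a.2.2.2.2.1
      show p + m1 ≤ max p (N .w1)
      rcases le_total p (N .w1) with h3 | h3
      · rw [max_eq_right h3]; omega
      · rw [max_eq_left h3]; omega
    · have h1 := hm1a.2.2.2.2.2
      show p + m1 ≤ max p (N .wl)
      rcases le_total p (N .wl) with h3 | h3
      · rw [max_eq_right h3]; omega
      · rw [max_eq_left h3]; omega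
    · exact le_rfl
    · omega
  have hxn : padicNorm p x ≤ 1 := by
    refine H792.norm_of_den_ne_zero ?_
    intro h0
    rw [ZMod.natCast_eq_zero_iff] at h0
    exact absurd (Nat.le_of_dvd x.den_pos h0) (by omega)
  have h1 := le_val_A hσ hdet hxn hyp
  have h2 := sum_wA_le (p := p) (P := P) (c0 := c0) (s := s) (m0 := m0) (m1 := m1) (by
    intro g
    cases g with
    | zab => exact hm0a.1
    | wab => exact hm1a.1
    | wf7 => exact hm1a.2.1
    | _ => exact Nat.zero_le _)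
  have h3 : ((P.D0 * s - (m1 + p) : ℕ) : ℤ) + 8 * ((P.D0 * s : ℕ) : ℤ) + ((m0 + 2 * m1 : ℕ) : ℤ)
      - ∑ g : Gp, (((P.ht g * s + c0 : ℕ) : ℤ)
          + (2 - H678.wg g) * ((P.ht g * s + c0 - (p - 3) : ℕ) : ℤ))
      ≤ padicValRat p (Mx (P.D0 * s) x σ).det := by omega
  have h3' : (((P.D0 * s - (m1 + p) : ℕ) : ℤ) + 8 * ((P.D0 * s : ℕ) : ℤ)
      + ((m0 + 2 * m1 : ℕ) : ℤ) - ∑ g : Gp, (((P.ht g * s + c0 : ℕ) : ℤ)
          + (2 - H678.wg g) * ((P.ht g * s + c0 - (p - 3) : ℕ) : ℤ)) : ℝ)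
      ≤ (padicValRat p (Mx (P.D0 * s) x σ).det : ℝ) := by exact_mod_cast h3
  refine le_trans ?_ h3'
  -- real estimates
  have g0 : (s : ℝ) * mu0 P (p / s) ≤ (m0 : ℝ) := by
    unfold mu0
    rw [mul_min_of_nonneg _ _ hs0.le, mul_min_of_nonneg _ _ hs0.le, hm0, Nat.cast_min, Nat.cast_min]
    exact min_le_min (min_le_min ht_ge ht_ge) (nat_sub_ge hs0N)
  have g1 : (s : ℝ) * mu1 P (p / s) ≤ (m1 : ℝ) := by
    unfold mu1
    rw [mul_min_of_nonneg _ _ hs0.le, mul_min_of_nonneg _ _ hs0.le, mul_min_of_nonneg _ _ hs0.le,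
      mul_min_of_nonneg _ _ hs0.le, mul_min_of_nonneg _ _ hs0.le, hm1, Nat.cast_min, Nat.cast_min,
      Nat.cast_min, Nat.cast_min, Nat.cast_min]
    exact min_le_min (min_le_min (min_le_min ht_ge ht_ge) (min_le_min ht_ge ht_ge))
      (min_le_min (nat_sub_ge hs0N) (nat_sub_ge hs0N))
  have g2 : (s : ℝ) * max ((P.D0 : ℝ) - p / s) (mu1 P (p / s))
      ≤ ((P.D0 * s - (m1 + p) : ℕ) : ℝ) + m1 := by
    rw [mul_max_of_nonneg _ _ hs0.le, mul_sub]
    have e : (s : ℝ) * (p / s) = p := by field_simp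
    rw [e]
    refine max_le ?_ ?_
    · have h4 : ((P.D0 * s : ℕ) : ℝ) ≤ ((P.D0 * s - (m1 + p) : ℕ) : ℝ) + m1 + p := by
        exact_mod_cast (by omega : P.D0 * s ≤ (P.D0 * s - (m1 + p)) + m1 + p)
      push_cast at h4 ⊢
      linarith
    · have : (0 : ℝ) ≤ ((P.D0 * s - (m1 + p) : ℕ) : ℝ) := Nat.cast_nonneg _
      linarith
  have g3 : ((∑ g : Gp, (((P.ht g * s + c0 : ℕ) : ℤ)
          + (2 - H678.wg g) * ((P.ht g * s + c0 - (p - 3) : ℕ) : ℤ)) : ℤ) : ℝ)
      ≤ s * (∑ g : Gp, ((P.ht g : ℝ) + (2 - (H678.wg g : ℝ)) * max ((P.ht g : ℝ) - p / s) 0))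
        + 17 * (3 * c0 + 6) := by
    rw [Int.cast_sum, Finset.mul_sum]
    have h4 : ∑ _g : Gp, (3 * (c0 : ℝ) + 6) = 17 * (3 * c0 + 6) := by
      rw [Finset.sum_const, Finset.card_univ, nsmul_eq_mul]
      rfl
    rw [← h4, ← Finset.sum_add_distrib]
    refine Finset.sum_le_sum fun g _ => ?_
    have hw0 : (0 : ℝ) ≤ 2 - (H678.wg g : ℝ) := by
      have : H678.wg g ≤ 2 := by cases g <;> decide
      have : (H678.wg g : ℝ) ≤ 2 := by exact_mod_cast this
      linarith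
    have hw2 : 2 - (H678.wg g : ℝ) ≤ 2 := by
      have : 0 ≤ H678.wg g := by cases g <;> decide
      have : (0 : ℝ) ≤ (H678.wg g : ℝ) := by exact_mod_cast this
      linarith
    have h5 : ((P.ht g * s + c0 - (p - 3) : ℕ) : ℝ)
        ≤ s * max ((P.ht g : ℝ) - p / s) 0 + (c0 + 3) := by
      rw [mul_max_of_nonneg _ _ hs0.le, mul_sub, mul_zero]
      have e : (s : ℝ) * (p / s) = p := by field_simp
      rw [e]
      have hc0 : (0 : ℝ) ≤ c0 := Nat.cast_nonneg _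
      rcases le_total (p - 3) (P.ht g * s + c0) with h | h
      · rw [Nat.cast_sub h, Nat.cast_sub (by omega)]
        have := le_max_left ((s : ℝ) * (P.ht g : ℝ) - p) 0
        push_cast
        linarith [mul_comm (s : ℝ) (P.ht g : ℝ)]
      · rw [Nat.sub_eq_zero_of_le h]
        have := le_max_right ((s : ℝ) * (P.ht g : ℝ) - p) 0
        push_cast
        linarith
    have h6 := mul_le_mul_of_nonneg_left h5 hw0
    have hc0 : (0 : ℝ) ≤ (c0 : ℝ) + 3 := by positivity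
    have h7 : (2 - (H678.wg g : ℝ)) * ((c0 : ℝ) + 3) ≤ 2 * (c0 + 3) :=
      mul_le_mul_of_nonneg_right hw2 hc0
    push_cast at h6 ⊢
    linarith [mul_comm (s : ℝ) (P.ht g : ℝ)]
  have g4 : (s : ℝ) * (phiA P (p / s) + η)
      = s * (∑ g : Gp, ((P.ht g : ℝ) + (2 - (H678.wg g : ℝ)) * max ((P.ht g : ℝ) - p / s) 0))
        - 8 * (P.D0 * s) - s * mu0 P (p / s) - s * mu1 P (p / s)
        - s * max ((P.D0 : ℝ) - p / s) (mu1 P (p / s)) + η * s := by
    unfold phiA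
    ring
  rw [g4]
  push_cast at g3 ⊢
  linarith

end Vale.Agent.P030.H404
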