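import Vale.Agent.P030.H404.LineA7
import Vale.Agent.P030.H778.Prof
import Vale.Agent.P030.H792.PlugA

/-!
# P030, odd primes: line (I) for design A

`phiA_parA` : the values of the profile; `h4_A`, `h5_A` : the inputs of `H778.stOD_A`; `hI_A` : the
input of `H792.stOD_A_of`; `stOD_A0'` : `StOD DesA c0 (14177 / 8)` without hypotheses;
`stOD_A_of_mid` : only the class gain is left.
-/

open Finset Set

namespace Vale.Agent.P030.H404

open Vale.Agent.P030.T Vale.Agent.P030.H778

/-- line (I) as a `Loc` -/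
theorem Loc_A (P : Par) (c0 : ℕ) {T0 : ℝ} (hT : ∀ g, (P.ht g : ℝ) < 2 * T0)
    (hvb : (P.ht .vb : ℝ) < T0) (hx1 : (P.ht .x1 : ℝ) < T0) : Loc P c0 (Ioi T0) (phiA P) := by
  intro x δ hδ η hη
  obtain ⟨s0, h0⟩ := loc_A P c0 hT hvb hx1 x η hη
  refine ⟨max s0 1, fun s hs p hpp hp2 hxp hδp hA σ hσ hdet => ?_⟩
  have hs1 : (0 : ℝ) < s := by
    exact_mod_cast lt_of_lt_of_le Nat.one_pos ((le_max_right _ _).trans hs)
  exact h0 s ((le_max_left _ _).trans hs) p hpp hxp ((lt_div_iff₀ hs1).1 hA) σ hσ hdet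

/-- the profile of design A -/
theorem phiA_parA {t : ℝ} (h4 : 4 ≤ t) (h32 : t ≤ 32) : phiA H579.parA t
    = 6 * (32 - t) - min (32 - t) 4 - min (32 - t) 2 - max (27 - t) (min (32 - t) 2) := by
  have m2 : max ((2 : ℝ) - t) 0 = 0 := max_eq_right (by linarith)
  have m4 : max ((4 : ℝ) - t) 0 = 0 := max_eq_right (by linarith)
  have m32 : max ((32 : ℝ) - t) 0 = 32 - t := max_eq_left (by linarith)
  have hmu0 : mu0 H579.parA t = min (32 - t) 4 := by
    unfold mu0
    simp only [H579.parA]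
    push_cast
    rw [m32, min_self, min_comm]
  have hmu1 : mu1 H579.parA t = min (32 - t) 2 := by
    unfold mu1
    simp only [H579.parA]
    push_cast
    rw [m32, min_self, min_self, min_eq_right (by norm_num : (2 : ℝ) ≤ 32), min_self, min_comm]
  have hsum : ∑ g : Gp, ((H579.parA.ht g : ℝ) + (2 - (H678.wg g : ℝ))
      * max ((H579.parA.ht g : ℝ) - t) 0) = 216 + 6 * (32 - t) := by
    rw [H579.sum_Gp]
    simp only [H678.wg, H579.parA]
    push_cast
    rw [m32, m4]
    ring
  unfold phiA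
  rw [hsum, hmu0, hmu1]
  simp only [H579.parA]
  push_cast
  ring

theorem hT_A {T0 : ℝ} (h : 16 < T0) : ∀ g, (DesA.ht g : ℝ) < 2 * T0 := fun g =>
  lt_of_le_of_lt (DesA_ht_le g) (by linarith)

theorem Loc_phiA {c0 : ℕ} : Loc DesA c0 (Ioi (33 / 2)) (phiA H579.parA) := by
  rw [parA_eq]
  exact Loc_A DesA c0 (hT_A (by norm_num)) (by
    have : DesA.ht .vb = 4 := rfl
    rw [this]; norm_num) (by
    have : DesA.ht .x1 = 4 := rfl
    rw [this]; norm_num)

/-- `159 - 5 q` on `(67/4, 25]` -/
theorem h4_A (c0 : ℕ) : Loc DesA c0 (Ioc (67 / 4) 25) fun q => 159 - 5 * q :=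
  Loc_phiA.mono (fun q hq => lt_trans (by norm_num) hq.1) fun q hq => by
    rw [phiA_parA (by linarith [hq.1]) (by linarith [hq.2]), min_eq_right (by linarith [hq.2]),
      min_eq_right (by linarith [hq.2]), max_eq_left (by linarith [hq.2])]
    linarith

/-- the top range -/
theorem h5_A (c0 : ℕ) : Loc DesA c0 (Ioo 25 32)
    fun q => 6 * (32 - q) - min (32 - q) 4 - 2 * min (32 - q) 2 :=
  Loc_phiA.mono (fun q hq => lt_trans (by norm_num) hq.1) fun q hq => by
    rw [phiA_parA (by linarith [hq.1]) (by linarith [hq.2])]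
    have h1 := le_max_right (27 - q) (min (32 - q) 2)
    linarith

/-- **the odd part of design A without the class gain, unconditional** -/
theorem stOD_A0' (c0 : ℕ) : StOD DesA c0 (14177 / 8) := stOD_A0 c0 (h4_A c0) (h5_A c0)

/-- **the odd part of design A: only the class gain on `(27/2, 86/5]` is left** -/
theorem stOD_A_of_mid (c0 : ℕ)
    (h1 : Loc DesA c0 (Ioc (27 / 2) 15) fun q => 143 - 5 * q)
    (h2 : Loc DesA c0 (Ioc 15 16) fun q => 83 - q)
    (h3 : Loc DesA c0 (Ioc 16 (86 / 5)) fun q => 5 * q - 13) :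
    StOD DesA c0 (34961 / 20) :=
  stOD_A c0 h1 h2 h3 ((h4_A c0).mono (Ioc_subset_Ioc_left (by norm_num)) fun q _ => le_rfl)
    (h5_A c0)

/-- the input `hI` of `H792.stOD_A_of` -/
theorem hI_A (c0 : ℕ) : H792.LocRange H579.parA c0 (86 / 5) 32 H792.phiA := by
  rw [parA_eq]
  intro x η hη
  obtain ⟨s1, h1⟩ := (Loc_phiA (c0 := c0)) x 1 one_pos η hη
  refine ⟨max s1 1, fun s hs p hpp hp2 hxp hap hbp σ hσ hdet => ?_⟩
  have hs1 : (0 : ℝ) < s := by
    exact_mod_cast lt_of_lt_of_le Nat.one_pos ((le_max_right _ _).trans hs)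
  set q : ℝ := (p : ℝ) / s with hq
  have hqA : q ∈ Ioi ((33 : ℝ) / 2) := by
    show (33 : ℝ) / 2 < q
    linarith
  have h2 := h1 s ((le_max_left _ _).trans hs) p hpp hp2 hxp ((lt_div_iff₀ hs1).1 (by
    show (1 : ℝ) < q
    linarith)) hqA σ hσ hdet
  have h3 : phiA H579.parA q ≤ H792.phiA q := by
    rw [phiA_parA (by linarith) (by linarith)]
    unfold H792.phiA
    rw [if_neg (by linarith), if_neg (by linarith), if_neg (by linarith), if_neg (by linarith)]
    have m1 := le_max_left (27 - q) (min (32 - q) 2)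
    have m2 := le_max_right (27 - q) (min (32 - q) 2)
    by_cases h25 : q < 25
    · rw [if_pos h25, min_eq_right (by linarith : (4 : ℝ) ≤ 32 - q)]
      have : min (32 - q) 2 = 2 := min_eq_right (by linarith)
      rw [this] at m1 m2 ⊢
      linarith
    · rw [if_neg h25]
      by_cases h28 : q < 28
      · rw [if_pos h28, min_eq_right (by linarith : (4 : ℝ) ≤ 32 - q)]
        have : min (32 - q) 2 = 2 := min_eq_right (by linarith)
        rw [this] at m1 m2 ⊢
        linarith
      · rw [if_neg h28]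
        have e4 : min (32 - q) 4 = 32 - q := min_eq_left (by linarith)
        rw [e4]
        by_cases h30 : q < 30
        · rw [if_pos h30]
          have : min (32 - q) 2 = 2 := min_eq_right (by linarith)
          rw [this] at m1 m2 ⊢
          linarith
        · rw [if_neg h30]
          have : min (32 - q) 2 = 32 - q := min_eq_left (by linarith)
          rw [this] at m1 m2 ⊢
          linarith
  have h4 : (0 : ℝ) ≤ s := hs1.le
  nlinarith

/-- **792's plug with line (I) inserted** -/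
theorem stOD_parA_of_mid (c0 : ℕ) (hM : H792.LocRange H579.parA c0 (27 / 2) (86 / 5) H792.phiA) :
    StOD H579.parA c0 (34961 / 20) := H792.stOD_A_of c0 hM (hI_A c0)

end Vale.Agent.P030.H404
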