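import Vale.Agent.P030.H404.Taub

open MeasureTheory Set Filter Topology
open scoped Real

namespace Vale.Agent.P030.H404

/-- **Wiener-Ikehara**, for monotone functions with a linear (Chebyshev) bound. -/
theorem wiener_ikehara {S : ℝ → ℝ} {A C : ℝ} {G : ℂ → ℂ} (hS : Monotone S) (h0 : ∀ x, 0 ≤ S x)
    (hC : ∀ x, 1 ≤ x → S x ≤ C * x) (hA : 0 ≤ A) (hG : ContinuousOn G {s | 1 ≤ s.re})
    (hGS : ∀ s : ℂ, 1 < s.re → G s = s * (∫ t in Ioi (1 : ℝ), (S t : ℂ) * (t : ℂ) ^ (-(s + 1)))
      - A / (s - 1)) :
    Tendsto (fun x : ℝ => S x / x) atTop (𝓝 A) := by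
  set B : ℝ → ℝ := fun t => S (Real.exp t) * Real.exp (-t) with hB
  have hC0 : 0 ≤ C := by simpa using (h0 1).trans (hC 1 le_rfl)
  have hB0 : ∀ t, 0 ≤ B t := fun t => mul_nonneg (h0 _) (Real.exp_pos _).le
  have hBC : ∀ t, 0 ≤ t → B t ≤ C := by
    intro t ht
    have := hC (Real.exp t) (Real.one_le_exp ht)
    calc B t ≤ C * Real.exp t * Real.exp (-t) :=
          mul_le_mul_of_nonneg_right this (Real.exp_pos _).le
      _ = C := by rw [mul_assoc, ← Real.exp_add]; simp
  have hBm : Measurable B := (hS.measurable.comp Real.measurable_exp).mul (by fun_prop)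
  set b : ℝ → ℝ := indicator (Ioi 0) (fun t => B t - A) with hb
  have hbm : Measurable b := (hBm.sub_const A).indicator measurableSet_Ioi
  have hbM : ∀ t, |b t| ≤ C + A := by
    intro t
    by_cases ht : t ∈ Ioi (0 : ℝ)
    · rw [hb, indicator_of_mem ht, abs_le]
      have := hB0 t
      have := hBC t (le_of_lt ht)
      constructor <;> linarith
    · rw [hb, indicator_of_notMem ht, abs_zero]; linarith
  set H : ℂ → ℂ := fun s => (G s - A) / s with hH
  have hHc : ContinuousOn H {s | 1 ≤ s.re} := by
    refine (hG.sub continuousOn_const).div continuousOn_id fun s hs => ?_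
    rintro rfl
    simp at hs
    linarith
  have hHi : ∀ s : ℂ, 1 < s.re →
      ∫ t in Ioi (0 : ℝ), (b t : ℂ) * Complex.exp (-(s - 1) * t) = H s := by
    intro s hs
    have hre : (-(s - 1)).re < 0 := by simp; linarith
    have hs0 : s ≠ 0 := by rintro rfl; simp at hs; linarith
    have hs1 : s - 1 ≠ 0 := by
      intro h
      rw [h] at hre; simp at hre
    have he := integrableOn_exp_mul_complex_Ioi hre 0
    have hBint : IntegrableOn (fun t : ℝ => (B t : ℂ) * Complex.exp (-(s - 1) * t)) (Ioi 0) := by
      refine Integrable.bdd_mul (c := C) he ?_ ?_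
      · exact (Complex.measurable_ofReal.comp hBm).aestronglyMeasurable
      · filter_upwards [ae_restrict_mem measurableSet_Ioi] with t ht
        rw [Complex.norm_real, Real.norm_of_nonneg (hB0 t)]
        exact hBC t (le_of_lt ht)
    have e1 : ∫ t in Ioi (0 : ℝ), (b t : ℂ) * Complex.exp (-(s - 1) * t)
        = (∫ t in Ioi (0 : ℝ), (B t : ℂ) * Complex.exp (-(s - 1) * t))
          - A * ∫ t in Ioi (0 : ℝ), Complex.exp (-(s - 1) * t) := by
      rw [← integral_const_mul, ← integral_sub hBint (he.const_mul _)]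
      refine setIntegral_congr_fun measurableSet_Ioi fun t ht => ?_
      simp only [hb, indicator_of_mem ht]
      push_cast
      ring
    have e2 : ∫ t in Ioi (0 : ℝ), Complex.exp (-(s - 1) * t) = 1 / (s - 1) := by
      rw [integral_exp_mul_complex_Ioi hre 0]
      simp only [Complex.ofReal_zero, mul_zero, Complex.exp_zero]
      rw [neg_div_neg_eq]
    have e3 : ∫ t in Ioi (0 : ℝ), (B t : ℂ) * Complex.exp (-(s - 1) * t)
        = ∫ t in Ioi (1 : ℝ), (S t : ℂ) * (t : ℂ) ^ (-(s + 1)) := by
      have himg : Real.exp '' Ioi 0 = Ioi 1 := by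
        ext x
        constructor
        · rintro ⟨t, ht, rfl⟩
          exact Real.one_lt_exp_iff.mpr ht
        · intro hx
          have hx' : (1 : ℝ) < x := hx
          exact ⟨Real.log x, Real.log_pos hx', Real.exp_log (by linarith)⟩
      have := integral_image_eq_integral_abs_deriv_smul (s := Ioi (0 : ℝ)) (f := Real.exp)
        (f' := Real.exp) measurableSet_Ioi (fun x _ => (Real.hasDerivAt_exp x).hasDerivWithinAt)
        (Real.exp_injective.injOn) (fun x : ℝ => (S x : ℂ) * (x : ℂ) ^ (-(s + 1)))
      rw [himg] at this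
      rw [this]
      refine setIntegral_congr_fun measurableSet_Ioi fun t ht => ?_
      simp only [hB]
      rw [abs_of_pos (Real.exp_pos t), Complex.real_smul]
      have hc : ((Real.exp t : ℝ) : ℂ) ^ (-(s + 1)) = Complex.exp (-(s + 1) * t) := by
        rw [Complex.cpow_def_of_ne_zero (by exact_mod_cast (Real.exp_pos t).ne'),
          ← Complex.ofReal_log (Real.exp_pos t).le, Real.log_exp]
        congr 1; ring
      rw [hc]
      push_cast
      rw [mul_assoc, ← Complex.exp_add, mul_left_comm, ← Complex.exp_add]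
      congr 2
      ring
    have e4 : ∫ t in Ioi (1 : ℝ), (S t : ℂ) * (t : ℂ) ^ (-(s + 1)) = (G s + A / (s - 1)) / s := by
      rw [hGS s hs]
      field_simp
      ring
    rw [e1, e2, e3, e4, hH]
    field_simp
    ring
  have key : ∀ T : ℝ, 0 < T → Tendsto (fun y : ℝ => ∫ t in Ioi (0 : ℝ),
      (S (Real.exp t) * Real.exp (-t)) * kf (T * (y - t))) atTop (𝓝 (A * ∫ u : ℝ, kf (T * u))) := by
    intro T hT
    have h1 := smoothed_tendsto hbm hbM hHi hHc hT
    have h2 := (ker_tendsto hT).const_mul A
    have h3 := h1.add h2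
    rw [zero_add] at h3
    refine h3.congr fun y => ?_
    rw [← integral_const_mul, ← integral_add]
    · refine setIntegral_congr_fun measurableSet_Ioi fun t ht => ?_
      simp only [hb, indicator_of_mem ht, hB]
      ring
    · refine ((integrable_kfTy hT y).integrableOn.const_mul (C + A)).mono' ?_ ?_
      · have : Measurable fun t : ℝ => kf (T * (y - t)) :=
          continuous_kf.measurable.comp (by fun_prop)
        exact (hbm.mul this).aestronglyMeasurable
      · refine Eventually.of_forall fun t => ?_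
        rw [norm_mul, Real.norm_of_nonneg (kf_nonneg _), Real.norm_eq_abs]
        exact mul_le_mul_of_nonneg_right (hbM t) (kf_nonneg _)
    · exact (integrable_kfTy hT y).integrableOn.const_mul A
  have hfin := tauber hS h0 hC hA key
  have h5 := hfin.comp Real.tendsto_log_atTop
  refine h5.congr' ?_
  filter_upwards [eventually_gt_atTop 0] with x hx
  simp only [Function.comp]
  rw [Real.exp_neg, Real.exp_log hx, div_eq_mul_inv]

open ArithmeticFunction in
/-- The prime number theorem in arithmetic progressions for `Λ`. -/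
theorem psi_residue_tendsto {q : ℕ} [NeZero q] {a : ZMod q} (ha : IsUnit a) :
    Tendsto (fun x : ℝ => (∑ k ∈ Finset.Icc 1 ⌊x⌋₊, vonMangoldt.residueClass a k) / x) atTop
      (𝓝 ((q.totient : ℝ)⁻¹)) := by
  have hO : ∀ x : ℝ, 1 ≤ x →
      (∑ k ∈ Finset.Icc 1 ⌊x⌋₊, vonMangoldt.residueClass a k) ≤ (Real.log 4 + 4) * x := by
    intro x hx
    calc (∑ k ∈ Finset.Icc 1 ⌊x⌋₊, vonMangoldt.residueClass a k)
        ≤ ∑ k ∈ Finset.Icc 1 ⌊x⌋₊, vonMangoldt k :=
          Finset.sum_le_sum fun k _ => vonMangoldt.residueClass_le a k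
      _ = Chebyshev.psi x := by
          rw [Chebyshev.psi]
          rfl
      _ ≤ (Real.log 4 + 4) * x := Chebyshev.psi_le_const_mul_self (by linarith)
  refine wiener_ikehara (S := fun x : ℝ => ∑ k ∈ Finset.Icc 1 ⌊x⌋₊, vonMangoldt.residueClass a k)
    (G := vonMangoldt.LFunctionResidueClassAux a) (C := Real.log 4 + 4) ?_ ?_ hO
    (by positivity) (vonMangoldt.continuousOn_LFunctionResidueClassAux a) ?_
  · intro x y hxy
    exact Finset.sum_le_sum_of_subset_of_nonneg
      (Finset.Icc_subset_Icc_right (Nat.floor_mono hxy))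
      fun k _ _ => vonMangoldt.residueClass_nonneg a k
  · intro x
    exact Finset.sum_nonneg fun k _ => vonMangoldt.residueClass_nonneg a k
  · intro s hs
    rw [vonMangoldt.eqOn_LFunctionResidueClassAux ha hs]
    beta_reduce
    have hbig : (fun n : ℕ => ∑ k ∈ Finset.Icc 1 n, vonMangoldt.residueClass a k)
        =O[atTop] fun n => (n : ℝ) ^ (1 : ℝ) := by
      refine Asymptotics.IsBigO.of_bound (Real.log 4 + 4) ?_
      filter_upwards [eventually_ge_atTop 1] with n hn
      have h := hO n (by exact_mod_cast hn)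
      rw [Nat.floor_natCast] at h
      rw [Real.rpow_one, Real.norm_of_nonneg (Finset.sum_nonneg fun k _ =>
        vonMangoldt.residueClass_nonneg a k), Real.norm_of_nonneg (by positivity)]
      exact h
    have := LSeries_eq_mul_integral_of_nonneg (fun n => vonMangoldt.residueClass a n) zero_le_one
      hs hbig (fun n => vonMangoldt.residueClass_nonneg a n)
    rw [this]
    push_cast
    rfl

/-- **The prime number theorem** for `ψ`. -/
theorem psi_tendsto : Tendsto (fun x : ℝ => Chebyshev.psi x / x) atTop (𝓝 1) := by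
  have h := psi_residue_tendsto (q := 1) (a := 1) isUnit_one
  simp only [Nat.totient_one, Nat.cast_one, inv_one] at h
  refine h.congr fun x => ?_
  congr 1
  rw [Chebyshev.psi]
  refine Finset.sum_congr rfl fun k _ => ?_
  simp [ArithmeticFunction.vonMangoldt.residueClass, Subsingleton.elim _ (1 : ZMod 1)]

/-- **The prime number theorem** for `θ`. -/
theorem theta_tendsto : Tendsto (fun x : ℝ => Chebyshev.theta x / x) atTop (𝓝 1) := by
  have h1 := psi_tendsto
  have h2 : Tendsto (fun x : ℝ => (Chebyshev.psi x - Chebyshev.theta x) / x) atTop (𝓝 0) := by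
    have h3 : Tendsto (fun x : ℝ => 2 * (Real.log x / x ^ (1 / 2 : ℝ))) atTop (𝓝 0) := by
      have := (isLittleO_log_rpow_atTop (r := 1 / 2) (by norm_num)).tendsto_div_nhds_zero
      simpa using this.const_mul 2
    refine squeeze_zero' ?_ ?_ h3
    · filter_upwards [eventually_gt_atTop 0] with x hx
      exact div_nonneg (sub_nonneg.mpr (Chebyshev.theta_le_psi x)) hx.le
    · filter_upwards [eventually_ge_atTop 1] with x hx
      have hx0 : 0 < x := by linarith
      have := Chebyshev.psi_sub_theta_le hx
      rw [div_le_iff₀ hx0]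
      refine this.trans_eq ?_
      rw [← Real.sqrt_eq_rpow]
      have hs : 0 < √x := Real.sqrt_pos.mpr hx0
      field_simp
      rw [mul_comm, Real.sq_sqrt hx0.le]
  have h4 := h1.sub h2
  rw [sub_zero] at h4
  refine h4.congr fun x => ?_
  rw [← sub_div]; congr 1; ring

end Vale.Agent.P030.H404
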