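import Vale.Agent.P030.H404.Wiener

open MeasureTheory Set Filter Topology
open scoped Real

namespace Vale.Agent.P030.H404

lemma integrable_kfT {T : ℝ} (hT : 0 < T) : Integrable (fun u : ℝ => kf (T * u)) :=
  integrable_kf.comp_mul_left' hT.ne'

lemma integrable_kfTy {T : ℝ} (hT : 0 < T) (y : ℝ) : Integrable (fun t : ℝ => kf (T * (y - t))) :=
  (integrable_kfT hT).comp_sub_left y

lemma integral_kfT {T : ℝ} (hT : 0 < T) : ∫ u : ℝ, kf (T * u) = T⁻¹ * ∫ v, kf v := by
  rw [Measure.integral_comp_mul_left kf T, abs_of_pos (inv_pos.mpr hT), smul_eq_mul]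

lemma integral_kfT_pos {T : ℝ} (hT : 0 < T) : 0 < ∫ u : ℝ, kf (T * u) := by
  rw [integral_kfT hT]
  exact mul_pos (inv_pos.mpr hT) integral_kf_pos

lemma ker_tendsto {T : ℝ} (hT : 0 < T) :
    Tendsto (fun y : ℝ => ∫ t in Ioi (0 : ℝ), kf (T * (y - t))) atTop
      (𝓝 (∫ u : ℝ, kf (T * u))) := by
  have h1 : ∀ y : ℝ, ∫ t in Ioi (0 : ℝ), kf (T * (y - t)) = ∫ u in Iio y, kf (T * u) := by
    intro y
    rw [← integral_indicator measurableSet_Ioi, ← integral_indicator measurableSet_Iio,
      ← integral_sub_left_eq_self (fun u => indicator (Iio y) (fun u => kf (T * u)) u) volume y]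
    congr 1
    ext t
    by_cases ht : 0 < t
    · rw [indicator_of_mem (mem_Ioi.mpr ht), indicator_of_mem (by simpa using ht)]
    · rw [indicator_of_notMem (by simpa using ht), indicator_of_notMem (by simpa using ht)]
  simp_rw [h1]
  exact (aecover_Iio tendsto_id).integral_tendsto_of_countably_generated (integrable_kfT hT)

lemma loc_eq {T : ℝ} (y δ : ℝ) :
    ∫ t in (y - δ)..(y + δ), kf (T * (y - t)) = ∫ u in (-δ)..δ, kf (T * u) := by
  have := intervalIntegral.integral_comp_sub_left (a := y - δ) (b := y + δ)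
    (fun u => kf (T * u)) y
  rw [this]
  congr 1 <;> ring

lemma exists_T {δ η : ℝ} (hδ : 0 < δ) (hη : 0 < η) :
    ∃ T > 0, (1 - η) * ∫ u : ℝ, kf (T * u) ≤ ∫ u in (-δ)..δ, kf (T * u) := by
  have h1 : Tendsto (fun T : ℝ => ∫ v in (T * (-δ))..(T * δ), kf v) atTop (𝓝 (∫ v, kf v)) := by
    refine intervalIntegral_tendsto_integral integrable_kf ?_ ?_
    · exact tendsto_id.atTop_mul_const_of_neg (by linarith)
    · exact tendsto_id.atTop_mul_const hδ
  have h2 : (1 - η) * ∫ v, kf v < ∫ v, kf v := by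
    have := mul_pos hη integral_kf_pos
    linarith
  obtain ⟨T, hT, hT0⟩ := ((h1.eventually (lt_mem_nhds h2)).and (eventually_gt_atTop 0)).exists
  refine ⟨T, hT0, ?_⟩
  rw [integral_kfT hT0, intervalIntegral.integral_comp_mul_left (fun v => kf v) hT0.ne',
    smul_eq_mul]
  have := inv_pos.mpr hT0
  calc (1 - η) * (T⁻¹ * ∫ v, kf v) = T⁻¹ * ((1 - η) * ∫ v, kf v) := by ring
    _ ≤ _ := mul_le_mul_of_nonneg_left hT.le this.le

/-- The Tauberian step: if all Fejer means of the bounded function `B` with `B t * exp t` monotone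
tend to `A`, then `B` tends to `A`. -/
lemma tauber {S : ℝ → ℝ} {A C : ℝ} (hS : Monotone S) (h0 : ∀ x, 0 ≤ S x)
    (hC : ∀ x, 1 ≤ x → S x ≤ C * x) (hA : 0 ≤ A)
    (hJ : ∀ T : ℝ, 0 < T → Tendsto (fun y : ℝ => ∫ t in Ioi (0 : ℝ),
      (S (Real.exp t) * Real.exp (-t)) * kf (T * (y - t))) atTop (𝓝 (A * ∫ u : ℝ, kf (T * u)))) :
    Tendsto (fun t : ℝ => S (Real.exp t) * Real.exp (-t)) atTop (𝓝 A) := by
  set B : ℝ → ℝ := fun t => S (Real.exp t) * Real.exp (-t) with hB
  have hB0 : ∀ t, 0 ≤ B t := fun t => mul_nonneg (h0 _) (Real.exp_pos _).le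
  have hC0 : 0 ≤ C := by simpa using (h0 1).trans (hC 1 le_rfl)
  have hBC : ∀ t, 0 ≤ t → B t ≤ C := by
    intro t ht
    have := hC (Real.exp t) (Real.one_le_exp ht)
    calc B t ≤ C * Real.exp t * Real.exp (-t) :=
          mul_le_mul_of_nonneg_right this (Real.exp_pos _).le
      _ = C := by rw [mul_assoc, ← Real.exp_add]; simp
  have hBmono : ∀ s t d, s ≤ t → t ≤ s + d → B s * Real.exp (-d) ≤ B t := by
    intro s t d hst htd
    have h1 : S (Real.exp s) ≤ S (Real.exp t) := hS (Real.exp_le_exp.mpr hst)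
    have h2 : Real.exp (-s) * Real.exp (-d) ≤ Real.exp (-t) := by
      rw [← Real.exp_add]; exact Real.exp_le_exp.mpr (by linarith)
    calc B s * Real.exp (-d) = S (Real.exp s) * (Real.exp (-s) * Real.exp (-d)) := by
          rw [hB]; ring
      _ ≤ S (Real.exp t) * Real.exp (-t) := mul_le_mul h1 h2 (by positivity) (h0 _)
  have hBm : Measurable B := by
    exact (hS.measurable.comp Real.measurable_exp).mul (by fun_prop)
  have hint : ∀ T : ℝ, 0 < T → ∀ y : ℝ, IntegrableOn (fun t => B t * kf (T * (y - t))) (Ioi 0) := by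
    intro T hT y
    refine ((integrable_kfTy hT y).integrableOn.const_mul C).mono' ?_ ?_
    · have : Measurable fun t : ℝ => kf (T * (y - t)) := continuous_kf.measurable.comp (by fun_prop)
      exact (hBm.mul this).aestronglyMeasurable
    · filter_upwards [ae_restrict_mem measurableSet_Ioi] with t ht
      rw [Real.norm_of_nonneg (mul_nonneg (hB0 t) (kf_nonneg _))]
      exact mul_le_mul_of_nonneg_right (hBC t (le_of_lt ht)) (kf_nonneg _)
  -- upper bound
  have hupper : ∀ η : ℝ, 0 < η → η < 1 → ∀ᶠ t in atTop, B t ≤ (A + η) * (1 + η) / (1 - η) := by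
    intro η hη hη1
    obtain ⟨δ, hδ, hδe⟩ : ∃ δ > 0, Real.exp (2 * δ) ≤ 1 + η := by
      refine ⟨Real.log (1 + η) / 2, by have := Real.log_pos (by linarith : 1 < 1 + η); positivity, ?_⟩
      rw [mul_div_cancel₀ _ (two_ne_zero), Real.exp_log (by linarith)]
    obtain ⟨T, hT, hTk⟩ := exists_T hδ hη
    have hk := integral_kfT_pos hT
    set κ := ∫ u : ℝ, kf (T * u) with hκ
    have h1 := (hJ T hT).eventually (gt_mem_nhds (show A * κ < (A + η) * κ by nlinarith))
    have h2 : Tendsto (fun t : ℝ => t + δ) atTop atTop := tendsto_atTop_add_const_right _ _ tendsto_id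
    filter_upwards [h2.eventually h1, eventually_gt_atTop 0] with s hs hs0
    -- y = s + δ
    set y := s + δ with hy
    have h3 : B s * Real.exp (-(2 * δ)) * ∫ u in (-δ)..δ, kf (T * u)
        ≤ ∫ t in Ioi (0 : ℝ), B t * kf (T * (y - t)) := by
      rw [← loc_eq y δ, ← intervalIntegral.integral_const_mul,
        intervalIntegral.integral_of_le (by linarith)]
      have hsub : Ioc (y - δ) (y + δ) ⊆ Ioi 0 := by
        intro t ht
        have : y - δ = s := by rw [hy]; ring
        rw [this] at ht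
        exact hs0.trans ht.1
      calc ∫ t in Ioc (y - δ) (y + δ), B s * Real.exp (-(2 * δ)) * kf (T * (y - t))
          ≤ ∫ t in Ioc (y - δ) (y + δ), B t * kf (T * (y - t)) := by
            refine setIntegral_mono_on ((integrable_kfTy hT y).integrableOn.const_mul _)
              ((hint T hT y).mono_set hsub) measurableSet_Ioc fun t ht => ?_
            refine mul_le_mul_of_nonneg_right (hBmono s t (2 * δ) ?_ ?_) (kf_nonneg _)
            · have := ht.1; rw [hy] at this; linarith
            · have := ht.2; rw [hy] at this; linarith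
        _ ≤ _ := setIntegral_mono_set (hint T hT y)
            (Eventually.of_forall fun t => mul_nonneg (hB0 t) (kf_nonneg _))
            (LE.le.eventuallyLE hsub)
    have h4 : B s * Real.exp (-(2 * δ)) * ((1 - η) * κ) ≤ (A + η) * κ := by
      refine le_trans (mul_le_mul_of_nonneg_left hTk (mul_nonneg (hB0 s) (Real.exp_pos _).le)) ?_
      exact h3.trans hs.le
    have h5 : B s * Real.exp (-(2 * δ)) * (1 - η) ≤ A + η := by
      have : (B s * Real.exp (-(2 * δ)) * (1 - η)) * κ ≤ (A + η) * κ := by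
        calc _ = B s * Real.exp (-(2 * δ)) * ((1 - η) * κ) := by ring
          _ ≤ _ := h4
      exact le_of_mul_le_mul_right this hk
    rw [le_div_iff₀ (by linarith)]
    have h6 : B s * (1 - η) = (B s * Real.exp (-(2 * δ)) * (1 - η)) * Real.exp (2 * δ) := by
      have : Real.exp (-(2 * δ)) * Real.exp (2 * δ) = 1 := by rw [← Real.exp_add]; simp
      calc B s * (1 - η) = B s * (1 - η) * (Real.exp (-(2 * δ)) * Real.exp (2 * δ)) := by
            rw [this, mul_one]
        _ = _ := by ring
    rw [h6]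
    exact mul_le_mul h5 hδe (Real.exp_pos _).le (by linarith)
  -- lower bound
  have hlower : ∀ η : ℝ, 0 < η → η < 1 → ∀ᶠ t in atTop, (A - η - C * η) / (1 + η) ≤ B t := by
    intro η hη hη1
    obtain ⟨δ, hδ, hδe⟩ : ∃ δ > 0, Real.exp (2 * δ) ≤ 1 + η := by
      refine ⟨Real.log (1 + η) / 2, by have := Real.log_pos (by linarith : 1 < 1 + η); positivity, ?_⟩
      rw [mul_div_cancel₀ _ (two_ne_zero), Real.exp_log (by linarith)]
    obtain ⟨T, hT, hTk⟩ := exists_T hδ hη
    have hk := integral_kfT_pos hT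
    set κ := ∫ u : ℝ, kf (T * u) with hκ
    have h1 := (hJ T hT).eventually (lt_mem_nhds (show (A - η) * κ < A * κ by nlinarith))
    have h2 : Tendsto (fun t : ℝ => t - δ) atTop atTop := tendsto_atTop_add_const_right _ _ tendsto_id
    filter_upwards [h2.eventually h1, eventually_gt_atTop (2 * δ)] with s hs hs0
    set y := s - δ with hy
    have hsub : Ioc (y - δ) (y + δ) ⊆ Ioi 0 := by
      intro t ht
      have h := ht.1
      rw [hy] at h
      rw [mem_Ioi]; linarith
    have hunion : Ioi (0 : ℝ) = Ioc (y - δ) (y + δ) ∪ (Ioi 0 \ Ioc (y - δ) (y + δ)) := by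
      rw [union_sdiff_cancel hsub]
    have h3 : ∫ t in Ioi (0 : ℝ), B t * kf (T * (y - t))
        = (∫ t in Ioc (y - δ) (y + δ), B t * kf (T * (y - t)))
          + ∫ t in Ioi (0 : ℝ) \ Ioc (y - δ) (y + δ), B t * kf (T * (y - t)) := by
      conv_lhs => rw [hunion]
      exact setIntegral_union disjoint_sdiff_right (measurableSet_Ioi.diff measurableSet_Ioc)
        ((hint T hT y).mono_set hsub) ((hint T hT y).mono_set sdiff_subset)
    set κδ := ∫ u in (-δ)..δ, kf (T * u) with hκδ
    have hloc : ∫ t in Ioc (y - δ) (y + δ), kf (T * (y - t)) = κδ := by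
      rw [hκδ, ← loc_eq y δ, intervalIntegral.integral_of_le (by linarith)]
    have h4 : ∫ t in Ioc (y - δ) (y + δ), B t * kf (T * (y - t)) ≤ B s * Real.exp (2 * δ) * κδ := by
      rw [← hloc, ← integral_const_mul]
      refine setIntegral_mono_on ((hint T hT y).mono_set hsub)
        ((integrable_kfTy hT y).integrableOn.const_mul _) measurableSet_Ioc fun t ht => ?_
      refine mul_le_mul_of_nonneg_right ?_ (kf_nonneg _)
      have h := hBmono t s (2 * δ) (by have := ht.2; rw [hy] at this; linarith)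
        (by have := ht.1; rw [hy] at this; linarith)
      have he : Real.exp (-(2 * δ)) * Real.exp (2 * δ) = 1 := by rw [← Real.exp_add]; simp
      calc B t = (B t * Real.exp (-(2 * δ))) * Real.exp (2 * δ) := by rw [mul_assoc, he, mul_one]
        _ ≤ _ := mul_le_mul_of_nonneg_right h (Real.exp_pos _).le
    have h5 : ∫ t in Ioi (0 : ℝ) \ Ioc (y - δ) (y + δ), B t * kf (T * (y - t)) ≤ C * (κ - κδ) := by
      have e1 : ∫ t in Ioi (0 : ℝ) \ Ioc (y - δ) (y + δ), B t * kf (T * (y - t))
          ≤ ∫ t in Ioi (0 : ℝ) \ Ioc (y - δ) (y + δ), C * kf (T * (y - t)) := by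
        refine setIntegral_mono_on ((hint T hT y).mono_set sdiff_subset)
          ((integrable_kfTy hT y).integrableOn.const_mul _)
          (measurableSet_Ioi.diff measurableSet_Ioc) fun t ht => ?_
        exact mul_le_mul_of_nonneg_right (hBC t (le_of_lt ht.1)) (kf_nonneg _)
      have e2 : ∫ t in Ioi (0 : ℝ) \ Ioc (y - δ) (y + δ), kf (T * (y - t)) ≤ κ - κδ := by
        have e3 : ∫ t in Ioi (0 : ℝ) \ Ioc (y - δ) (y + δ), kf (T * (y - t))
            ≤ ∫ t in (Ioc (y - δ) (y + δ))ᶜ, kf (T * (y - t)) :=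
          setIntegral_mono_set (integrable_kfTy hT y).integrableOn
            (Eventually.of_forall fun t => kf_nonneg _)
            (LE.le.eventuallyLE fun t ht => ht.2)
        have e4 := integral_add_compl (measurableSet_Ioc (a := y - δ) (b := y + δ))
          (integrable_kfTy hT y)
        have e5 : ∫ t : ℝ, kf (T * (y - t)) = κ := by
          rw [hκ]
          exact integral_sub_left_eq_self (fun u => kf (T * u)) volume y
        rw [hloc, e5] at e4
        linarith
      rw [integral_const_mul] at e1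
      exact e1.trans (mul_le_mul_of_nonneg_left e2 hC0)
    have hκδκ : κδ ≤ κ := by
      rw [hκδ, intervalIntegral.integral_of_le (by linarith), hκ]
      exact setIntegral_le_integral (integrable_kfT hT) (Eventually.of_forall fun t => kf_nonneg _)
    have h6 : (A - η) * κ ≤ B s * Real.exp (2 * δ) * κ + C * (η * κ) := by
      have hBe : 0 ≤ B s * Real.exp (2 * δ) := mul_nonneg (hB0 s) (Real.exp_pos _).le
      calc (A - η) * κ ≤ ∫ t in Ioi (0 : ℝ), B t * kf (T * (y - t)) := hs.le
        _ ≤ B s * Real.exp (2 * δ) * κδ + C * (κ - κδ) := by rw [h3]; exact add_le_add h4 h5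
        _ ≤ B s * Real.exp (2 * δ) * κ + C * (η * κ) := by
            refine add_le_add (mul_le_mul_of_nonneg_left hκδκ hBe)
              (mul_le_mul_of_nonneg_left ?_ hC0)
            linarith
    have h7 : A - η ≤ B s * Real.exp (2 * δ) + C * η := by
      have : (A - η) * κ ≤ (B s * Real.exp (2 * δ) + C * η) * κ := by
        calc _ ≤ _ := h6
          _ = _ := by ring
      exact le_of_mul_le_mul_right this hk
    rw [div_le_iff₀ (by linarith)]
    have h8 : B s * Real.exp (2 * δ) ≤ B s * (1 + η) := mul_le_mul_of_nonneg_left hδe (hB0 s)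
    linarith
  -- conclusion
  rw [tendsto_order]
  constructor
  · intro a ha
    have hlim : Tendsto (fun η : ℝ => (A - η - C * η) / (1 + η)) (𝓝[>] 0) (𝓝 A) := by
      have : ContinuousAt (fun η : ℝ => (A - η - C * η) / (1 + η)) 0 :=
        ContinuousAt.div (by fun_prop) (by fun_prop) (by norm_num)
      have h := this.tendsto
      simp only [sub_zero, mul_zero, add_zero, div_one] at h
      exact h.mono_left nhdsWithin_le_nhds
    have h01 : Ioo (0 : ℝ) 1 ∈ 𝓝[>] (0 : ℝ) := Ioo_mem_nhdsGT one_pos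
    obtain ⟨η, hη, hη1⟩ := ((hlim.eventually (lt_mem_nhds ha)).and h01).exists
    filter_upwards [hlower η hη1.1 hη1.2] with t ht
    exact hη.trans_le ht
  · intro a ha
    have hlim : Tendsto (fun η : ℝ => (A + η) * (1 + η) / (1 - η)) (𝓝[>] 0) (𝓝 A) := by
      have : ContinuousAt (fun η : ℝ => (A + η) * (1 + η) / (1 - η)) 0 :=
        ContinuousAt.div (by fun_prop) (by fun_prop) (by norm_num)
      have h := this.tendsto
      simp only [sub_zero, add_zero, div_one, mul_one] at h
      exact h.mono_left nhdsWithin_le_nhds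
    have h01 : Ioo (0 : ℝ) 1 ∈ 𝓝[>] (0 : ℝ) := Ioo_mem_nhdsGT one_pos
    obtain ⟨η, hη, hη1⟩ := ((hlim.eventually (gt_mem_nhds ha)).and h01).exists
    filter_upwards [hupper η hη1.1 hη1.2] with t ht
    exact ht.trans_lt hη

end Vale.Agent.P030.H404
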