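import Vale.Agent.P030.T.Defs

/-!
# P030: the trivial `p`-adic bound, `p` odd

Every entry of the matrix has `p`-adic norm at most `p ^ (2 * log_p (k + 1))`, `k` the order.
-/

open PowerSeries Finset

namespace Vale.Agent.P030.H404

open Vale.Agent.P030.T

section nat

variable {p : ℕ} [hp : Fact p.Prime]

lemma one_le_p : (1 : ℚ) ≤ p := by exact_mod_cast hp.out.one_lt.le

lemma p_pos : (0 : ℚ) < p := by exact_mod_cast hp.out.pos

/-- norm of `1/n`. -/
lemma norm_inv_nat {n : ℕ} (hn : n ≠ 0) : padicNorm p (1 / (n : ℚ)) ≤ (p : ℚ) ^ (Nat.log p n) := by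
  have hn' : (n : ℚ) ≠ 0 := by exact_mod_cast hn
  rw [padicNorm.eq_zpow_of_nonzero (one_div_ne_zero hn')]
  have h1 : padicValRat p (1 / (n : ℚ)) = -(padicValNat p n : ℤ) := by
    rw [one_div, padicValRat.inv, padicValRat.of_nat]
  rw [h1, neg_neg, zpow_natCast]
  exact pow_le_pow_right₀ one_le_p (padicValNat_le_nat_log n)

/-- `v_p (n * C(n-1,k)) ≤ log_p n`, in the form `v_p ((a+b+1)! / (a! b!)) ≤ log_p (a+b+1)`. -/
lemma val_fact (a b : ℕ) :
    padicValNat p (a + b + 1).factorial ≤ padicValNat p a.factorial + padicValNat p b.factorial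
      + Nat.log p (a + b + 1) := by
  set L := Nat.log p (a + b + 1) with hL
  have hn : Nat.log p (a + b + 1) < L + 1 := by omega
  have ha : Nat.log p a < L + 1 :=
    lt_of_le_of_lt (Nat.log_mono_right (by omega)) hn
  have hb : Nat.log p b < L + 1 :=
    lt_of_le_of_lt (Nat.log_mono_right (by omega)) hn
  rw [padicValNat_factorial hn, padicValNat_factorial ha, padicValNat_factorial hb,
    ← Finset.sum_add_distrib]
  have h1 : ∀ i ∈ Finset.Ico 1 (L + 1), (a + b + 1) / p ^ i ≤ (a / p ^ i + b / p ^ i) + 1 := by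
    intro i hi
    have hq : 0 < p ^ i := pow_pos hp.out.pos i
    set q := p ^ i
    have h2 := Nat.div_add_mod a q
    have h3 := Nat.div_add_mod b q
    have h4 := Nat.mod_lt a hq
    have h5 := Nat.mod_lt b hq
    rw [← Nat.lt_succ_iff, Nat.div_lt_iff_lt_mul hq]
    nlinarith
  refine (Finset.sum_le_sum h1).trans ?_
  rw [Finset.sum_add_distrib]
  simp

end nat

/-- growth of the denominators: weight `w`, shift `e` -/
def DB (p w e : ℕ) (f : ℚ⟦X⟧) : Prop :=
  ∀ n, padicNorm p (coeff n f) ≤ (p : ℚ) ^ (w * Nat.log p (n + e))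

section DB

variable {p : ℕ} [hp : Fact p.Prime] {w w' e : ℕ} {f g : ℚ⟦X⟧}

lemma DB.mono (h : DB p w e f) (hw : w ≤ w') : DB p w' e f := fun n =>
  (h n).trans (pow_le_pow_right₀ one_le_p (Nat.mul_le_mul_right _ hw))

lemma DB.shift (h : DB p w e f) {e' : ℕ} (he : e ≤ e') : DB p w e' f := fun n =>
  (h n).trans (pow_le_pow_right₀ one_le_p
    (Nat.mul_le_mul_left _ (Nat.log_mono_right (by omega))))

lemma DB.add (hf : DB p w e f) (hg : DB p w e g) : DB p w e (f + g) := fun n => by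
  rw [map_add]
  exact padicNorm.nonarchimedean.trans (max_le (hf n) (hg n))

omit hp in
lemma DB.neg (hf : DB p w e f) : DB p w e (-f) := fun n => by
  rw [map_neg, padicNorm.neg]
  exact hf n

lemma DB.sub (hf : DB p w e f) (hg : DB p w e g) : DB p w e (f - g) := by
  rw [sub_eq_add_neg]; exact hf.add hg.neg

lemma DB.zero : DB p w e 0 := fun n => by
  rw [map_zero, padicNorm.zero]
  exact pow_nonneg p_pos.le _

lemma DB.mul (hf : DB p w e f) (hg : DB p w' e g) : DB p (w + w') e (f * g) := fun n => by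
  rw [coeff_mul]
  refine padicNorm.sum_le' (fun x hx => ?_) (pow_nonneg p_pos.le _)
  rw [padicNorm.mul, add_mul, pow_add]
  have hx' := HasAntidiagonal.mem_antidiagonal.1 hx
  refine mul_le_mul ((hf _).trans (pow_le_pow_right₀ one_le_p
    (Nat.mul_le_mul_left _ (Nat.log_mono_right (by omega)))))
    ((hg _).trans (pow_le_pow_right₀ one_le_p
    (Nat.mul_le_mul_left _ (Nat.log_mono_right (by omega))))) (padicNorm.nonneg _)
    (pow_nonneg p_pos.le _)

omit hp in
/-- weight zero: integral series. -/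
lemma DB_zero_iff : DB p 0 e f ↔ ∀ n, padicNorm p (coeff n f) ≤ 1 := by
  simp [DB]

lemma DB.mul0 (hf : DB p w e f) (hg : DB p 0 e g) : DB p w e (f * g) := by
  simpa using hf.mul hg

lemma DB.mul0' (hf : DB p 0 e f) (hg : DB p w e g) : DB p w e (f * g) := by
  simpa using hf.mul hg

lemma DB.pow0 (hf : DB p 0 e f) (n : ℕ) : DB p 0 e (f ^ n) := by
  induction n with
  | zero =>
    rw [pow_zero, DB_zero_iff]
    intro n
    rw [coeff_one]
    split_ifs <;> simp
  | succ n ih => rw [pow_succ]; exact ih.mul0 hf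

lemma DB_C {q : ℚ} (hq : padicNorm p q ≤ 1) : DB p w e (C q) := by
  have : DB p 0 e (C q) := by
    rw [DB_zero_iff]
    intro n
    rw [coeff_C]
    split_ifs
    · exact hq
    · simp
  exact this.mono (Nat.zero_le _)

lemma DB.sc {q : ℚ} (hq : padicNorm p q ≤ 1) (hf : DB p w e f) : DB p w e (sc q f) :=
  (DB_C hq).mul0' hf

lemma DB_one : DB p w e 1 := by
  have := DB_C (p := p) (w := w) (e := e) (q := 1) (by simp)
  simpa using this

lemma DB_X : DB p w e X := by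
  have : DB p 0 e X := by
    rw [DB_zero_iff]
    intro n
    rw [coeff_X]
    split_ifs <;> simp
  exact this.mono (Nat.zero_le _)

lemma DB.integ (hf : DB p w e f) : DB p (w + 1) e (integ f) := fun n => by
  unfold T.integ
  rw [coeff_mk]
  split_ifs with h
  · rw [padicNorm.zero]
    exact pow_nonneg p_pos.le _
  · rw [div_eq_mul_one_div, padicNorm.mul, add_mul, one_mul, pow_add]
    refine mul_le_mul ((hf _).trans (pow_le_pow_right₀ one_le_p
      (Nat.mul_le_mul_left _ (Nat.log_mono_right (by omega)))))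
      ((norm_inv_nat h).trans (pow_le_pow_right₀ one_le_p (Nat.log_mono_right (by omega))))
      (padicNorm.nonneg _) (pow_nonneg p_pos.le _)

lemma DB.th (hf : DB p w e f) : DB p w e (th f) := fun n => by
  unfold T.th
  rw [coeff_mk, padicNorm.mul]
  calc _ ≤ 1 * padicNorm p (coeff n f) :=
        mul_le_mul_of_nonneg_right (padicNorm.of_nat n) (padicNorm.nonneg _)
    _ ≤ _ := by rw [one_mul]; exact hf n

lemma DB.dd (hf : DB p w e f) : DB p w (e + 1) (dd f) := fun n => by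
  unfold T.dd
  rw [coeff_mk, padicNorm.mul]
  calc _ ≤ 1 * padicNorm p (coeff (n + 1) f) := by
        refine mul_le_mul_of_nonneg_right ?_ (padicNorm.nonneg _)
        exact_mod_cast padicNorm.of_nat (n + 1)
    _ ≤ _ := by
        rw [one_mul, show n + (e + 1) = n + 1 + e by ring]
        exact hf (n + 1)

/-- the odd prime `p` -/
lemma norm_half (h2 : p ≠ 2) : padicNorm p (1 / 2) ≤ 1 := by
  have h := padicNorm.nat_eq_one_iff (p := p) 2
  have h3 : ¬ p ∣ 2 := fun hd => h2 ((Nat.prime_dvd_prime_iff_eq hp.out Nat.prime_two).1 hd)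
  rw [padicNorm.div, padicNorm.one]
  have h4 : padicNorm p (2 : ℚ) = 1 := by exact_mod_cast h.2 h3
  rw [h4]; norm_num

lemma norm_two (h2 : p ≠ 2) : padicNorm p 2 = 1 := by
  have h := padicNorm.nat_eq_one_iff (p := p) 2
  have h3 : ¬ p ∣ 2 := fun hd => h2 ((Nat.prime_dvd_prime_iff_eq hp.out Nat.prime_two).1 hd)
  exact_mod_cast h.2 h3

lemma norm_int_le (n : ℤ) : padicNorm p (n : ℚ) ≤ 1 := padicNorm.of_int n

lemma norm_pow_le {q : ℚ} (hq : padicNorm p q ≤ 1) (n : ℕ) : padicNorm p (q ^ n) ≤ 1 := by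
  induction n with
  | zero => simp
  | succ n ih =>
    rw [pow_succ, padicNorm.mul]
    exact mul_le_one₀ ih (padicNorm.nonneg _) hq

lemma norm_mul_le {q r : ℚ} (hq : padicNorm p q ≤ 1) (hr : padicNorm p r ≤ 1) :
    padicNorm p (q * r) ≤ 1 := by
  rw [padicNorm.mul]
  exact mul_le_one₀ hq (padicNorm.nonneg _) hr

lemma DB_lgm : DB p 1 e lgm := fun n => by
  unfold lgm
  rw [coeff_mk, one_mul]
  split_ifs with h
  · rw [padicNorm.zero]; exact pow_nonneg p_pos.le _
  · exact (norm_inv_nat h).trans (pow_le_pow_right₀ one_le_p (Nat.log_mono_right (by omega)))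

lemma DB_lgp : DB p 1 e lgp := fun n => by
  unfold lgp
  rw [coeff_mk, one_mul]
  split_ifs with h
  · rw [padicNorm.zero]; exact pow_nonneg p_pos.le _
  · rw [div_eq_mul_one_div, padicNorm.mul]
    have h1 : padicNorm p ((-1) ^ (n + 1)) ≤ 1 := norm_pow_le (by simp) _
    calc _ ≤ 1 * padicNorm p (1 / (n : ℚ)) := mul_le_mul_of_nonneg_right h1 (padicNorm.nonneg _)
      _ ≤ _ := by
        rw [one_mul]
        exact (norm_inv_nat h).trans (pow_le_pow_right₀ one_le_p (Nat.log_mono_right (by omega)))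

lemma DB_li2 : DB p 2 e li2 := fun n => by
  unfold li2
  rw [coeff_mk]
  split_ifs with h
  · rw [padicNorm.zero]; exact pow_nonneg p_pos.le _
  · have h1 := (norm_inv_nat (p := p) h).trans (pow_le_pow_right₀ one_le_p
      (Nat.log_mono_right (show n ≤ n + e by omega)))
    rw [show (1 : ℚ) / (n : ℚ) ^ 2 = (1 / n) * (1 / n) by ring, padicNorm.mul, two_mul, pow_add]
    exact mul_le_mul h1 h1 (padicNorm.nonneg _) (pow_nonneg p_pos.le _)

lemma DB_geo : DB p w e geo := by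
  refine (DB_zero_iff.2 fun n => ?_ : DB p 0 e geo).mono (Nat.zero_le _)
  unfold geo
  rw [coeff_mk]; simp

lemma DB_geoa : DB p w e geoa := by
  refine (DB_zero_iff.2 fun n => ?_ : DB p 0 e geoa).mono (Nat.zero_le _)
  unfold geoa
  rw [coeff_mk]
  exact norm_pow_le (by simp) _

lemma DB_geo2 : DB p w e geo2 := by
  refine (DB_zero_iff.2 fun n => ?_ : DB p 0 e geo2).mono (Nat.zero_le _)
  unfold geo2
  rw [coeff_mk]
  split_ifs <;> simp

/-- `K` is integral at odd primes. -/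
lemma norm_K (h2 : p ≠ 2) (n : ℕ) :
    padicNorm p (((Nat.centralBinom (n / 2) : ℚ)) ^ 2 / 4 ^ n) ≤ 1 := by
  rw [show ((Nat.centralBinom (n / 2) : ℚ)) ^ 2 / 4 ^ n
    = (Nat.centralBinom (n / 2) : ℚ) ^ 2 * ((1 / 2) * (1 / 2)) ^ n by
      rw [show ((1 : ℚ) / 2) * (1 / 2) = 1 / 4 by norm_num, div_pow, one_pow]; ring]
  exact norm_mul_le (norm_pow_le (padicNorm.of_nat _) _)
    (norm_pow_le (norm_mul_le (norm_half h2) (norm_half h2)) _)

lemma DB_serK (h2 : p ≠ 2) : DB p w e serK := by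
  refine (DB_zero_iff.2 fun n => ?_ : DB p 0 e serK).mono (Nat.zero_le _)
  unfold serK
  rw [coeff_mk]
  split_ifs
  · exact norm_K h2 n
  · simp

/-- `M` -/
lemma norm_cMs (n : ℕ) : padicNorm p (cMs n) ≤ (p : ℚ) ^ (Nat.log p n) := by
  unfold cMs
  refine padicNorm.sum_le' (fun j hj => ?_) (pow_nonneg p_pos.le _)
  have hj' := Finset.mem_range.1 hj
  have h2 : padicNorm p (2 : ℚ) ≤ 1 := by exact_mod_cast padicNorm.of_nat (p := p) 2
  have h1 : ∀ m : ℕ, m ≠ 0 → m ≤ n → padicNorm p (2 / (m : ℚ)) ≤ (p : ℚ) ^ (Nat.log p n) := by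
    intro m hm hmn
    rw [div_eq_mul_one_div, padicNorm.mul]
    calc _ ≤ 1 * padicNorm p (1 / (m : ℚ)) := mul_le_mul_of_nonneg_right h2 (padicNorm.nonneg _)
      _ ≤ _ := by
        rw [one_mul]
        exact (norm_inv_nat hm).trans (pow_le_pow_right₀ one_le_p (Nat.log_mono_right hmn))
  refine padicNorm.sub.trans (max_le ?_ ?_)
  · have := h1 (2 * j + 1) (by omega) (by omega)
    push_cast at this; exact this
  · have := h1 (2 * j + 2) (by omega) (by omega)
    push_cast at this; exact this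

lemma DB_serM (h2 : p ≠ 2) : DB p 1 e serM := fun n => by
  unfold serM
  rw [coeff_mk, padicNorm.mul, one_mul]
  have h1 : padicNorm p (coeff n serK) ≤ 1 := by
    simpa using DB_serK (p := p) (w := 0) (e := 0) h2 n
  calc _ ≤ 1 * padicNorm p (cMs n) := mul_le_mul_of_nonneg_right h1 (padicNorm.nonneg _)
    _ ≤ _ := by
      rw [one_mul]
      exact (norm_cMs n).trans (pow_le_pow_right₀ one_le_p (Nat.log_mono_right (by omega)))

/-! ### `B` and `B2` -/

/-- `(a! b!) / (a+b+1)!` -/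
lemma norm_beta (a b : ℕ) :
    padicNorm p (((a.factorial : ℚ) * b.factorial) / (a + b + 1).factorial)
      ≤ (p : ℚ) ^ (Nat.log p (a + b + 1)) := by
  have ha : (a.factorial : ℚ) ≠ 0 := by exact_mod_cast a.factorial_ne_zero
  have hb : (b.factorial : ℚ) ≠ 0 := by exact_mod_cast b.factorial_ne_zero
  have hc : ((a + b + 1).factorial : ℚ) ≠ 0 := by exact_mod_cast (a + b + 1).factorial_ne_zero
  rw [padicNorm.eq_zpow_of_nonzero (div_ne_zero (mul_ne_zero ha hb) hc),
    padicValRat.div (mul_ne_zero ha hb) hc, padicValRat.mul ha hb, padicValRat.of_nat,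
    padicValRat.of_nat, padicValRat.of_nat, ← zpow_natCast]
  have h := val_fact (p := p) a b
  refine zpow_le_zpow_right₀ one_le_p ?_
  omega

lemma centralBinom_eq (m : ℕ) : (Nat.centralBinom m : ℚ) * ((m.factorial : ℚ) * m.factorial)
    = (2 * m).factorial := by
  have h := Nat.choose_mul_factorial_mul_factorial (show m ≤ 2 * m by omega)
  rw [show 2 * m - m = m by omega, ← Nat.centralBinom_eq_two_mul_choose] at h
  exact_mod_cast (by rw [← mul_assoc]; exact h :
    Nat.centralBinom m * (m.factorial * m.factorial) = (2 * m).factorial)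

/-- `1 / (m C(2m,m))`, `m ≥ 1`. -/
lemma norm_cb {m : ℕ} (hm : m ≠ 0) :
    padicNorm p (1 / ((m : ℚ) * Nat.centralBinom m)) ≤ (p : ℚ) ^ (Nat.log p (2 * m)) := by
  obtain ⟨k, rfl⟩ := Nat.exists_eq_succ_of_ne_zero hm
  have h1 := norm_beta (p := p) k (k + 1)
  rw [show k + (k + 1) + 1 = 2 * (k + 1) by ring, ← centralBinom_eq] at h1
  have h0 : ((k + 1).factorial : ℚ) ≠ 0 := by exact_mod_cast (k + 1).factorial_ne_zero
  have h0' : (k.factorial : ℚ) ≠ 0 := by exact_mod_cast k.factorial_ne_zero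
  have h3 : ((k : ℚ) + 1) ≠ 0 := by positivity
  have h4 : (Nat.centralBinom (k + 1) : ℚ) ≠ 0 := by exact_mod_cast Nat.centralBinom_ne_zero _
  have e : (k.factorial : ℚ) * (k + 1).factorial /
      ((Nat.centralBinom (k + 1) : ℚ) * (((k + 1).factorial : ℚ) * (k + 1).factorial))
      = 1 / (((k + 1 : ℕ) : ℚ) * Nat.centralBinom (k + 1)) := by
    rw [Nat.factorial_succ]
    push_cast
    field_simp
  rw [e] at h1
  exact h1

/-- `1 / ((2m+1) C(2m,m))`. -/
lemma norm_cb' (m : ℕ) :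
    padicNorm p (1 / ((2 * (m : ℚ) + 1) * Nat.centralBinom m)) ≤
      (p : ℚ) ^ (Nat.log p (2 * m + 1)) := by
  have h1 := norm_beta (p := p) m m
  rw [show m + m + 1 = 2 * m + 1 by ring, Nat.factorial_succ] at h1
  push_cast at h1
  rw [← centralBinom_eq] at h1
  have h0 : (m.factorial : ℚ) ≠ 0 := by exact_mod_cast m.factorial_ne_zero
  have h3 : (2 * (m : ℚ) + 1) ≠ 0 := by positivity
  have h4 : (Nat.centralBinom m : ℚ) ≠ 0 := by exact_mod_cast Nat.centralBinom_ne_zero _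
  have e : (m.factorial : ℚ) * m.factorial /
      ((2 * (m : ℚ) + 1) * ((Nat.centralBinom m : ℚ) * ((m.factorial : ℚ) * m.factorial)))
      = 1 / ((2 * (m : ℚ) + 1) * Nat.centralBinom m) := by
    field_simp
  rw [e] at h1
  exact h1

/-- `K_m` as a number -/
noncomputable def Km (m : ℕ) : ℚ := ((Nat.centralBinom m : ℚ) / 4 ^ m) ^ 2

noncomputable def Gm (m : ℕ) : ℚ := 4 ^ m / ((2 * (m : ℚ) + 1) * Nat.centralBinom m)

lemma cb_succ (m : ℕ) : (Nat.centralBinom (m + 1) : ℚ)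
    = Nat.centralBinom m * (2 * (2 * m + 1)) / (m + 1) := by
  have h := Nat.succ_mul_centralBinom_succ m
  have h' : ((m : ℚ) + 1) * Nat.centralBinom (m + 1) = 2 * (2 * m + 1) * Nat.centralBinom m := by
    exact_mod_cast h
  have h3 : ((m : ℚ) + 1) ≠ 0 := by positivity
  field_simp
  linarith

lemma Km_succ (m : ℕ) : Km (m + 1) = Km m * ((2 * m + 1) / (2 * m + 2)) ^ 2 := by
  unfold Km
  rw [cb_succ, pow_succ]
  have h3 : ((m : ℚ) + 1) ≠ 0 := by positivity
  field_simp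
  ring

lemma Gm_succ (m : ℕ) : Gm (m + 1) = Gm m * ((2 * m + 2) / (2 * m + 3)) := by
  unfold Gm
  rw [cb_succ, pow_succ]
  have h3 : ((m : ℚ) + 1) ≠ 0 := by positivity
  have h4 : (Nat.centralBinom m : ℚ) ≠ 0 := by exact_mod_cast Nat.centralBinom_ne_zero _
  have h5 : (2 * (m : ℚ) + 1) ≠ 0 := by positivity
  have h6 : (2 * (m : ℚ) + 3) ≠ 0 := by positivity
  push_cast
  have h7 : (2 * ((m : ℚ) + 1) + 1) ≠ 0 := by positivity
  field_simp
  ring

lemma Km_ne (m : ℕ) : Km m ≠ 0 := by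
  unfold Km
  have h4 : (Nat.centralBinom m : ℚ) ≠ 0 := by exact_mod_cast Nat.centralBinom_ne_zero _
  positivity

lemma Gm_ne (m : ℕ) : Gm m ≠ 0 := by
  unfold Gm
  have h4 : (Nat.centralBinom m : ℚ) ≠ 0 := by exact_mod_cast Nat.centralBinom_ne_zero _
  positivity

/-- `B_{2m}` -/
lemma cB_even (m : ℕ) :
    cB (2 * m) = -(1 / 4) * ∑ j ∈ range m, Km m * (1 / (Km (j + 1) * (2 * (j + 1)) ^ 2)) := by
  induction m with
  | zero => simp [cB]
  | succ m ih =>
    rw [show 2 * (m + 1) = 2 * m + 2 by ring, cB, ih, Finset.sum_range_succ,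
      ← Finset.mul_sum, ← Finset.mul_sum, Km_succ]
    have h3 : ((m : ℚ) + 1) ≠ 0 := by positivity
    have h5 : (2 * (m : ℚ) + 1) ≠ 0 := by positivity
    have hk := Km_ne m
    generalize ∑ j ∈ range m, 1 / (Km (j + 1) * (2 * ((j : ℚ) + 1)) ^ 2) = S
    push_cast
    field_simp
    ring

/-- `B_{2m+1}` -/
lemma cB_odd (m : ℕ) :
    cB (2 * m + 1) = -(1 / 4) * (Gm m ^ 2 * ∑ j ∈ range (m + 1), Km j) := by
  induction m with
  | zero => simp [cB, Gm, Km]; norm_num
  | succ m ih =>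
    rw [show 2 * (m + 1) + 1 = (2 * m + 1) + 2 by ring, cB, ih, Finset.sum_range_succ _ (m + 1)]
    have hG : Gm (m + 1) ^ 2 * Km (m + 1) = 1 / (2 * ((m : ℚ) + 1) + 1) ^ 2 := by
      unfold Gm Km
      have h4 : (Nat.centralBinom (m + 1) : ℚ) ≠ 0 := by
        exact_mod_cast Nat.centralBinom_ne_zero _
      have h7 : (2 * ((m : ℚ) + 1) + 1) ≠ 0 := by positivity
      push_cast
      field_simp
    rw [mul_add, hG, Gm_succ]
    have h3 : (2 * (m : ℚ) + 3) ≠ 0 := by positivity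
    generalize ∑ j ∈ range (m + 1), Km j = S
    push_cast
    have h7 : (2 * ((m : ℚ) + 1) + 1) ≠ 0 := by positivity
    have h8 : (2 * (m : ℚ) + 1 + 2) ≠ 0 := by positivity
    field_simp
    ring

lemma cB2_even (m : ℕ) : cB2 (2 * m) = 0 := by
  induction m with
  | zero => simp [cB2]
  | succ m ih =>
    rw [show 2 * (m + 1) = 2 * m + 2 by ring, cB2, ih]
    simp

lemma cB2_odd (m : ℕ) : cB2 (2 * m + 1) = -(1 / 4) * Gm m ^ 2 := by
  induction m with
  | zero => simp [cB2, Gm]; norm_num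
  | succ m ih =>
    rw [show 2 * (m + 1) + 1 = (2 * m + 1) + 2 by ring, cB2, ih, Gm_succ]
    have h3 : (2 * (m : ℚ) + 3) ≠ 0 := by positivity
    push_cast
    have h8 : (2 * (m : ℚ) + 1 + 2) ≠ 0 := by positivity
    field_simp
    ring

lemma norm_quarter (h2 : p ≠ 2) : padicNorm p (-(1 / 4)) ≤ 1 := by
  rw [padicNorm.neg, show (1 : ℚ) / 4 = (1 / 2) * (1 / 2) by norm_num]
  exact norm_mul_le (norm_half h2) (norm_half h2)

lemma norm_four_pow (h2 : p ≠ 2) (m : ℕ) : padicNorm p ((4 : ℚ) ^ m) = 1 := by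
  rw [show (4 : ℚ) = 2 * 2 by norm_num]
  induction m with
  | zero => simp
  | succ m ih => rw [pow_succ, padicNorm.mul, ih, padicNorm.mul, norm_two h2]; norm_num

lemma norm_Km (h2 : p ≠ 2) (m : ℕ) : padicNorm p (Km m) ≤ 1 := by
  unfold Km
  refine norm_pow_le ?_ 2
  rw [padicNorm.div, norm_four_pow h2, div_one]
  exact padicNorm.of_nat _

lemma norm_Gm (h2 : p ≠ 2) (m : ℕ) : padicNorm p (Gm m) ≤ (p : ℚ) ^ (Nat.log p (2 * m + 1)) := by
  unfold Gm
  rw [div_eq_mul_one_div, padicNorm.mul, norm_four_pow h2, one_mul]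
  exact norm_cb' m

omit hp in
lemma sq_le {a : ℚ} (ha : 0 ≤ a) {L : ℕ} (h : a ≤ (p : ℚ) ^ L) : a ^ 2 ≤ (p : ℚ) ^ (2 * L) := by
  rw [mul_comm, pow_mul]
  exact pow_le_pow_left₀ ha h 2

lemma norm_sq_le {q : ℚ} {L : ℕ} (h : padicNorm p q ≤ (p : ℚ) ^ L) :
    padicNorm p (q ^ 2) ≤ (p : ℚ) ^ (2 * L) := by
  rw [pow_two, padicNorm.mul, ← pow_two]
  exact sq_le (padicNorm.nonneg _) h

lemma norm_mul_le' {q r : ℚ} {t : ℚ} (hq : padicNorm p q ≤ 1) (hr : padicNorm p r ≤ t) :
    padicNorm p (q * r) ≤ t := by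
  rw [padicNorm.mul]
  calc _ ≤ 1 * padicNorm p r := mul_le_mul_of_nonneg_right hq (padicNorm.nonneg _)
    _ ≤ t := by rw [one_mul]; exact hr

lemma norm_cB (h2 : p ≠ 2) (n : ℕ) : padicNorm p (cB n) ≤ (p : ℚ) ^ (2 * Nat.log p n) := by
  rcases Nat.even_or_odd' n with ⟨m, rfl | rfl⟩
  · rw [cB_even]
    refine norm_mul_le' (norm_quarter h2) ?_
    refine padicNorm.sum_le' (fun j hj => ?_) (pow_nonneg p_pos.le _)
    have hj' := Finset.mem_range.1 hj
    refine norm_mul_le' (norm_Km h2 m) ?_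
    have h4 : (Nat.centralBinom (j + 1) : ℚ) ≠ 0 := by exact_mod_cast Nat.centralBinom_ne_zero _
    have e : 1 / (Km (j + 1) * (2 * ((j : ℚ) + 1)) ^ 2)
        = ((1 / 2) * (4 ^ (j + 1) * (1 / (((j + 1 : ℕ) : ℚ) * Nat.centralBinom (j + 1))))) ^ 2 := by
      unfold Km
      push_cast
      field_simp
    rw [e]
    refine norm_sq_le ?_
    refine norm_mul_le' (norm_half h2) ?_
    refine norm_mul_le' (norm_four_pow h2 _).le ?_
    exact (norm_cb (Nat.succ_ne_zero j)).trans (pow_le_pow_right₀ one_le_p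
      (Nat.log_mono_right (by omega)))
  · rw [cB_odd]
    refine norm_mul_le' (norm_quarter h2) ?_
    rw [mul_comm]
    refine norm_mul_le' ?_ (norm_sq_le (norm_Gm h2 m))
    exact padicNorm.sum_le' (fun j _ => norm_Km h2 j) zero_le_one

lemma norm_cB2 (h2 : p ≠ 2) (n : ℕ) : padicNorm p (cB2 n) ≤ (p : ℚ) ^ (2 * Nat.log p n) := by
  rcases Nat.even_or_odd' n with ⟨m, rfl | rfl⟩
  · rw [cB2_even, padicNorm.zero]
    exact pow_nonneg p_pos.le _
  · rw [cB2_odd]
    exact norm_mul_le' (norm_quarter h2) (norm_sq_le (norm_Gm h2 m))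

lemma DB_serB (h2 : p ≠ 2) : DB p 2 e serB := fun n => by
  unfold serB
  rw [coeff_mk]
  exact (norm_cB h2 n).trans (pow_le_pow_right₀ one_le_p
    (Nat.mul_le_mul_left _ (Nat.log_mono_right (by omega))))

lemma DB_serB2 (h2 : p ≠ 2) : DB p 2 e serB2 := fun n => by
  unfold serB2
  rw [coeff_mk]
  exact (norm_cB2 h2 n).trans (pow_le_pow_right₀ one_le_p
    (Nat.mul_le_mul_left _ (Nat.log_mono_right (by omega))))

/-! ### the matrix -/

lemma DB_mon (h2 : p ≠ 2) (D : ℕ) (c : Fin 4) (i : ℕ) : DB p 0 e (mon D c i) := by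
  have hX : DB p 0 e (X : ℚ⟦X⟧) := DB_X
  have h1 : DB p 0 e (1 : ℚ⟦X⟧) := DB_one
  have hhalf : ∀ m : ℕ, padicNorm p ((1 / 2) ^ m) ≤ 1 := fun m => norm_pow_le (norm_half h2) m
  have hm1 : ∀ m : ℕ, padicNorm p ((-1) ^ m) ≤ 1 := fun m => norm_pow_le (by simp) m
  fin_cases c
  · exact (hX.pow0 i).mul0 (DB_geo.pow0 _)
  · refine DB.sc ?_ (((h1.add hX).pow0 i).mul0 ((h1.sub hX).pow0 _))
    rw [show (-1 : ℚ) ^ i / 2 ^ (D - 1) = (-1) ^ i * (1 / 2) ^ (D - 1) by
      rw [div_pow, one_pow]; ring]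
    exact norm_mul_le (hm1 _) (hhalf _)
  · exact DB.sc (hm1 _) ((hX.pow0 _).mul0 (DB_geo.pow0 _))
  · refine DB.sc ?_ (((h1.add hX).pow0 i).mul0 ((h1.sub hX).pow0 _))
    rw [show (1 : ℚ) / (-2) ^ (D - 1) = (-1) ^ (D - 1) * (1 / 2) ^ (D - 1) by
      rw [← mul_pow, show (-1 : ℚ) * (1 / 2) = 1 / (-2) by norm_num, div_pow, one_pow]]
    exact norm_mul_le (hm1 _) (hhalf _)

lemma DB_tw (h2 : p ≠ 2) {f : ℚ⟦X⟧} (hf : DB p w e f) : DB p w (e + 1) (tw f) := by
  have hX : DB p 0 e (X : ℚ⟦X⟧) := DB_X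
  have h1 : DB p 0 e (1 : ℚ⟦X⟧) := DB_one
  have hX' : DB p 0 (e + 1) (X : ℚ⟦X⟧) := DB_X
  have h1' : DB p 0 (e + 1) (1 : ℚ⟦X⟧) := DB_one
  exact DB.sc (norm_half h2) ((h1'.add hX').mul0' ((h1.sub hX).mul0' hf).dd)

lemma DB_four_thirds : DB p 2 3 (C (4 / 3 : ℚ)) := fun n => by
  rw [coeff_C]
  split_ifs with h
  · subst h
    have h4 : padicNorm p (4 : ℚ) ≤ 1 := by exact_mod_cast padicNorm.of_nat (p := p) 4
    rw [div_eq_mul_one_div]
    refine norm_mul_le' h4 ?_
    have := norm_inv_nat (p := p) (n := 3) (by norm_num)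
    push_cast at this
    exact this.trans (pow_le_pow_right₀ one_le_p (by rw [Nat.zero_add]; omega))
  · rw [padicNorm.zero]; exact pow_nonneg p_pos.le _

/-- all series of the table -/
lemma DB_tup0 (h2 : p ≠ 2) (g : Gp) (j : Fin 8) : DB p 2 3 (tup0 g j) := by
  have hX : ∀ {e : ℕ}, DB p 0 e (X : ℚ⟦X⟧) := fun {e} => DB_X
  have h1 : ∀ {e : ℕ}, DB p 0 e (1 : ℚ⟦X⟧) := fun {e} => DB_one
  have hz : DB p 2 3 (0 : ℚ⟦X⟧) := DB.zero
  have ho : DB p 2 3 (1 : ℚ⟦X⟧) := DB_one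
  have hm : DB p 2 3 lgm := DB_lgm.mono (by norm_num)
  have hp' : DB p 2 3 lgp := DB_lgp.mono (by norm_num)
  have hli : DB p 2 3 li2 := DB_li2
  have hhalf := norm_half h2
  have hsq : DB p 2 3 (sc (1 / 2) (lgm ^ 2)) := by
    rw [pow_two]
    exact DB.sc hhalf (DB_lgm.mul DB_lgm)
  have hint : DB p 2 3 (T.integ (geoa * lgm)) := (DB_geoa.mul0' DB_lgm).integ
  have hint2 : DB p 2 3 (T.integ (geo2 * lgm)) := (DB_geo2.mul0' DB_lgm).integ
  have hB : DB p 2 3 serB := DB_serB h2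
  have hB2 : DB p 2 3 serB2 := DB_serB2 h2
  have hK : ∀ {e : ℕ}, DB p 2 e serK := fun {e} => DB_serK h2
  have hM : ∀ {e : ℕ}, DB p 2 e serM := fun {e} => (DB_serM h2).mono (by norm_num)
  have hmX : ∀ {e : ℕ}, DB p 0 e (1 - X : ℚ⟦X⟧) := fun {e} => h1.sub hX
  have htw : ∀ {f : ℚ⟦X⟧}, DB p 2 2 f → DB p 2 3 (tw f) := fun h => DB_tw h2 h
  have hq2 : padicNorm p (2 : ℚ) ≤ 1 := (norm_two h2).le
  have hq4 : padicNorm p (1 / 4 : ℚ) ≤ 1 := by
    rw [show (1 : ℚ) / 4 = (1 / 2) * (1 / 2) by norm_num]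
    exact norm_mul_le hhalf hhalf
  have hq8 : padicNorm p (1 / 8 : ℚ) ≤ 1 := by
    rw [show (1 : ℚ) / 8 = (1 / 4) * (1 / 2) by norm_num]
    exact norm_mul_le hq4 hhalf
  cases g <;> fin_cases j
  -- z1
  · exact ho
  · exact hz
  · exact hm
  · exact hli
  · exact hint
  · exact hsq
  · exact hmX.mul0' hB
  · exact hmX.mul0' hB.th
  -- zl
  · exact hz
  · exact ho
  · exact hz
  · exact hz
  · exact (DB.sc hhalf hm).add hp'
  · exact DB.sc hhalf hm
  · exact hz
  · exact hz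
  -- z8
  · exact hz
  · exact hz
  · exact hz
  · exact hz
  · exact hz
  · exact hz
  · exact hmX.mul0' hK
  · exact hmX.mul0' hK.th
  -- zab
  · exact hz
  · exact hz
  · exact hz
  · exact ho
  · exact hz
  · exact hz
  · exact hz
  · exact hz
  -- w1
  · exact ho
  · exact hz
  · exact hm.neg
  · exact (DB.sc hq2 hint2).neg
  · exact hli.neg.sub hsq
  · exact hsq
  · exact hB2
  · exact htw (DB_serB2 h2)
  -- wl
  · exact hz
  · exact ho
  · exact ho.neg
  · exact (hp'.add hm).neg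
  · exact (DB.sc hhalf hm).neg
  · exact DB.sc hhalf hm
  · exact hz
  · exact hz
  -- wy
  · exact hz
  · exact hz
  · exact hz
  · exact DB_four_thirds.neg
  · exact DB_four_thirds.neg
  · exact hz
  · exact hK.neg
  · exact (htw hK).neg
  -- w8
  · exact hz
  · exact hz
  · exact hz
  · exact hz
  · exact hz
  · exact hz
  · exact hK
  · exact htw hK
  -- wab
  · exact hz
  · exact hz
  · exact hz
  · exact ho
  · exact hz
  · exact hz
  · exact hz
  · exact hz
  -- wf7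
  · exact hz
  · exact hz
  · exact hz
  · exact hz
  · exact hz
  · exact ho
  · exact hz
  · exact hz
  -- v2
  · exact hz
  · exact hz
  · exact hz
  · exact ho.neg
  · exact ho.neg
  · exact ho
  · exact hz
  · exact hz
  -- vl
  · exact hz
  · exact hz
  · exact hz
  · exact hz
  · exact ho.neg
  · exact ho
  · exact hz
  · exact hz
  -- v8
  · exact hz
  · exact hz
  · exact hz
  · exact hz
  · exact hz
  · exact hz
  · exact (hmX.mul0' hK).neg
  · exact hmX.mul0' (hX.mul0' (hK (e := 2))).dd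
  -- vb
  · exact hz
  · exact hz
  · exact ho
  · exact hz
  · exact hp'
  · exact hm
  · exact hz
  · exact hz
  -- x2
  · exact hz
  · exact hz
  · exact hz
  · exact hz
  · exact hz
  · exact DB_C hhalf
  · exact DB.sc hq8 (hX.mul0' hK)
  · exact DB.sc hq8 (hX.mul0' (htw hK))
  -- xl
  · exact hz
  · exact hz
  · exact hz
  · exact hz
  · exact ho.neg
  · exact ho
  · exact (hX.mul0' hK).neg
  · exact (hX.mul0' (htw hK)).neg
  -- x1
  · exact hz
  · exact hz
  · exact ho.neg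
  · exact (hp'.add hm).neg
  · exact hm.neg
  · exact hm
  · exact DB.sc hq4 (hX.mul0' hM)
  · refine DB.sc hq4 ((hX.mul0' (htw hM)).add (DB.sc hhalf ((h1.sub ?_).mul0' hK)))
    rw [pow_two]; exact hX.mul0 hX

lemma DB_tup1 (h2 : p ≠ 2) (g : Gp) (j : Fin 8) : DB p 2 3 (tup1 g j) := by
  have hz : DB p 2 3 (0 : ℚ⟦X⟧) := DB.zero
  have hmX : DB p 0 3 (1 - X : ℚ⟦X⟧) := DB_one.sub DB_X
  have hK : DB p 2 3 serK := DB_serK h2
  cases g <;> try exact hz
  fin_cases j
  · exact hz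
  · exact hz
  · exact hz
  · exact hz
  · exact hz
  · exact hz
  · exact (hmX.mul0' hK).neg
  · exact (hmX.mul0' hK.th).neg

/-- **The trivial bound for the entries.** -/
theorem norm_ent0 (h2 : p ≠ 2) (D : ℕ) (g : Gp) (k i : ℕ) (j : Fin 8) :
    padicNorm p (ent0 D g k i j) ≤ (p : ℚ) ^ (2 * Nat.log p (k + 3)) :=
  ((DB_mon h2 D g.cusp i).mul0' (DB_tup0 h2 g j)) k

theorem norm_ent1 (h2 : p ≠ 2) (D : ℕ) (g : Gp) (k i : ℕ) (j : Fin 8) :
    padicNorm p (ent1 D g k i j) ≤ (p : ℚ) ^ (2 * Nat.log p (k + 3)) :=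
  ((DB_mon h2 D g.cusp i).mul0' (DB_tup1 h2 g j)) k

/-- norm of `x` -/
lemma norm_x (x : ℚ) : padicNorm p x ≤ (p : ℚ) ^ (padicValNat p x.den) := by
  rcases eq_or_ne x 0 with rfl | hx
  · simp
  · rw [padicNorm.eq_zpow_of_nonzero hx, ← zpow_natCast]
    refine zpow_le_zpow_right₀ one_le_p ?_
    unfold padicValRat
    omega

/-- **The trivial bound for the determinant** (norm form): all columns of order `< N`. -/
theorem norm_det_le (h2 : p ≠ 2) (D : ℕ) (x : ℚ) (σ : Fin D × Fin 8 → Cl) (N : ℕ)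
    (hσ : ∀ c, (σ c).2 < N) :
    padicNorm p (Mx D x σ).det ≤
      (p : ℚ) ^ (8 * D * (2 * Nat.log p (N + 2) + padicValNat p x.den)) := by
  classical
  rw [Matrix.det_apply]
  refine padicNorm.sum_le' (fun τ _ => ?_) (pow_nonneg p_pos.le _)
  have h1 : ∀ τ : Equiv.Perm (Fin D × Fin 8), ∀ q : ℚ,
      padicNorm p (Equiv.Perm.sign τ • q) = padicNorm p q := by
    intro τ q
    rcases Int.units_eq_one_or (Equiv.Perm.sign τ) with h | h <;> rw [h] <;> simp [Units.smul_def]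
  rw [h1]
  have hent : ∀ r c, padicNorm p (Mx D x σ r c) ≤
      (p : ℚ) ^ (2 * Nat.log p (N + 2) + padicValNat p x.den) := by
    intro r c
    simp only [Mx, Matrix.of_apply]
    have hle : Nat.log p ((σ c).2 + 3) ≤ Nat.log p (N + 2) :=
      Nat.log_mono_right (by have := hσ c; omega)
    refine padicNorm.nonarchimedean.trans (max_le ?_ ?_)
    · refine (norm_ent0 h2 _ _ _ _ _).trans (pow_le_pow_right₀ one_le_p ?_)
      omega
    · rw [padicNorm.mul, pow_add, mul_comm]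
      refine mul_le_mul ?_ (norm_x x) (padicNorm.nonneg _) (pow_nonneg p_pos.le _)
      exact (norm_ent1 h2 _ _ _ _ _).trans (pow_le_pow_right₀ one_le_p (by omega))
  have hprod : ∀ (s : Finset (Fin D × Fin 8)) (f : Fin D × Fin 8 → ℚ) (t : ℚ),
      (∀ c ∈ s, padicNorm p (f c) ≤ t) → padicNorm p (∏ c ∈ s, f c) ≤ t ^ s.card := by
    intro s f t hf
    induction s using Finset.induction_on with
    | empty => simp
    | insert a s ha ih =>
      rw [Finset.prod_insert ha, padicNorm.mul, Finset.card_insert_of_notMem ha, pow_succ, mul_comm]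
      have ht : 0 ≤ t := (padicNorm.nonneg _).trans (hf a (Finset.mem_insert_self _ _))
      exact mul_le_mul (ih fun c hc => hf c (Finset.mem_insert_of_mem hc))
        (hf a (Finset.mem_insert_self _ _)) (padicNorm.nonneg _) (pow_nonneg ht _)
  refine (hprod Finset.univ _ _ (fun c _ => hent _ _)).trans ?_
  rw [← pow_mul]
  refine pow_le_pow_right₀ one_le_p ?_
  rw [Finset.card_univ, Fintype.card_prod, Fintype.card_fin, Fintype.card_fin]
  ring_nf
  exact le_rfl

/-- **The trivial bound for the determinant.** -/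
theorem val_det_ge (h2 : p ≠ 2) (D : ℕ) (x : ℚ) (σ : Fin D × Fin 8 → Cl) (N : ℕ)
    (hσ : ∀ c, (σ c).2 < N) (hdet : (Mx D x σ).det ≠ 0) :
    -((8 * D * (2 * Nat.log p (N + 2) + padicValNat p x.den) : ℕ) : ℤ)
      ≤ padicValRat p (Mx D x σ).det := by
  have h := norm_det_le h2 D x σ N hσ
  rw [padicNorm.eq_zpow_of_nonzero hdet, ← zpow_natCast] at h
  have h3 := (zpow_le_zpow_iff_right₀ (show (1 : ℚ) < p by exact_mod_cast hp.out.one_lt)).1 h
  linarith

end DB

end Vale.Agent.P030.H404
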