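import Vale.Agent.P030.H404.Fejer

open MeasureTheory Set Filter Topology
open scoped Real

namespace Vale.Agent.P030.H404

section WI

variable {b : ℝ → ℝ} {M : ℝ} {H : ℂ → ℂ}

lemma integrable_exp_neg {ε : ℝ} (hε : 0 < ε) :
    Integrable (fun t : ℝ => Real.exp (-ε * t)) (volume.restrict (Ioi 0)) := by
  have := integrableOn_exp_mul_Ioi (a := -ε) (by linarith) 0
  exact this

/-- The smoothed identity at `ε > 0`. -/
lemma smoothed (hb : Measurable b) (hM : ∀ t, |b t| ≤ M)
    (hH : ∀ s : ℂ, 1 < s.re → ∫ t in Ioi (0 : ℝ), (b t : ℂ) * Complex.exp (-(s - 1) * t) = H s)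
    {ε T : ℝ} (hε : 0 < ε) (y : ℝ) :
    ∫ t in Ioi (0 : ℝ), ((b t * Real.exp (-ε * t) * kf (T * (y - t)) : ℝ) : ℂ)
      = ∫ l : ℝ, (tri l : ℂ) * Complex.exp (Complex.I * (l * (T * y)))
          * H (1 + ε + Complex.I * (T * l)) := by
  have hInt : Integrable (fun p : ℝ × ℝ => ((b p.1 : ℂ) * (Real.exp (-ε * p.1) : ℂ)) * (tri p.2 : ℂ)
      * Complex.exp (Complex.I * (p.2 * (T * (y - p.1) : ℝ))))
      ((volume.restrict (Ioi 0)).prod volume) := by
    have h1 : Integrable (fun t : ℝ => (b t : ℂ) * (Real.exp (-ε * t) : ℂ))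
        (volume.restrict (Ioi 0)) := by
      refine ((integrable_exp_neg hε).const_mul M).mono' ?_ (Eventually.of_forall fun t => ?_)
      · exact (Complex.measurable_ofReal.comp hb |>.mul (by fun_prop)).aestronglyMeasurable
      · rw [norm_mul, Complex.norm_real, Complex.norm_real, Real.norm_eq_abs,
          Real.norm_of_nonneg (Real.exp_pos _).le]
        exact mul_le_mul_of_nonneg_right (hM t) (Real.exp_pos _).le
    have h2 : Integrable (fun l : ℝ => (tri l : ℂ)) := integrable_tri.ofReal
    have h3 := h1.mul_prod h2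
    refine h3.mul_bdd (c := 1) ?_ (Eventually.of_forall fun p => ?_)
    · exact (by fun_prop : Measurable fun p : ℝ × ℝ =>
        Complex.exp (Complex.I * (p.2 * (T * (y - p.1) : ℝ)))).aestronglyMeasurable
    · rw [show Complex.I * (p.2 * (T * (y - p.1) : ℝ) : ℂ) = ((p.2 * (T * (y - p.1)) : ℝ) : ℂ) * Complex.I
        by push_cast; ring, Complex.norm_exp_ofReal_mul_I]
  have hL : ∀ t : ℝ, ((b t * Real.exp (-ε * t) * kf (T * (y - t)) : ℝ) : ℂ)
      = ∫ l : ℝ, ((b t : ℂ) * (Real.exp (-ε * t) : ℂ)) * (tri l : ℂ)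
        * Complex.exp (Complex.I * (l * (T * (y - t) : ℝ))) := by
    intro t
    push_cast
    rw [← fourier_tri, ← integral_const_mul]
    congr 1
    ext l
    push_cast
    ring
  simp_rw [hL]
  rw [integral_integral_swap hInt]
  congr 1
  ext l
  rw [← hH _ (by simp [hε]), ← integral_const_mul]
  congr 1
  ext t
  have : Complex.exp (Complex.I * (l * (T * (y - t) : ℝ))) * (Real.exp (-ε * t) : ℂ)
      = Complex.exp (Complex.I * (l * (T * y))) *
        Complex.exp (-(1 + ε + Complex.I * (T * l) - 1) * t) := by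
    rw [Complex.ofReal_exp, ← Complex.exp_add, ← Complex.exp_add]
    congr 1
    push_cast
    ring
  calc _ = (b t : ℂ) * (tri l : ℂ) * (Complex.exp (Complex.I * (l * (T * (y - t) : ℝ)))
      * (Real.exp (-ε * t) : ℂ)) := by ring
    _ = _ := by rw [this]; ring

/-- The smoothed identity on the line `re s = 1`. -/
lemma smoothed_zero (hb : Measurable b) (hM : ∀ t, |b t| ≤ M)
    (hH : ∀ s : ℂ, 1 < s.re → ∫ t in Ioi (0 : ℝ), (b t : ℂ) * Complex.exp (-(s - 1) * t) = H s)
    (hc : ContinuousOn H {s | 1 ≤ s.re}) {T : ℝ} (hT : 0 < T) (y : ℝ) :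
    ∫ t in Ioi (0 : ℝ), ((b t * kf (T * (y - t)) : ℝ) : ℂ)
      = ∫ l : ℝ, (tri l : ℂ) * Complex.exp (Complex.I * (l * (T * y)))
          * H (1 + Complex.I * (T * l)) := by
  have hkT : Integrable (fun t : ℝ => kf (T * (y - t))) := by
    have h1 := integrable_kf.comp_mul_left' hT.ne'
    exact h1.comp_sub_left y
  -- left limit
  have hleft : Tendsto (fun ε : ℝ => ∫ t in Ioi (0 : ℝ),
      ((b t * Real.exp (-ε * t) * kf (T * (y - t)) : ℝ) : ℂ)) (𝓝[>] 0)
      (𝓝 (∫ t in Ioi (0 : ℝ), ((b t * kf (T * (y - t)) : ℝ) : ℂ))) := by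
    refine tendsto_integral_filter_of_dominated_convergence (fun t => M * kf (T * (y - t))) ?_ ?_
      (hkT.integrableOn.const_mul M) ?_
    · refine Eventually.of_forall fun ε => ?_
      have : Measurable fun t : ℝ => kf (T * (y - t)) := continuous_kf.measurable.comp (by fun_prop)
      exact (Complex.measurable_ofReal.comp ((hb.mul (by fun_prop)).mul this)).aestronglyMeasurable
    · filter_upwards [self_mem_nhdsWithin] with ε hε
      filter_upwards [ae_restrict_mem measurableSet_Ioi] with t ht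
      rw [Complex.norm_real, norm_mul, norm_mul, Real.norm_of_nonneg (kf_nonneg _),
        Real.norm_of_nonneg (Real.exp_pos _).le, Real.norm_eq_abs]
      refine mul_le_mul_of_nonneg_right ?_ (kf_nonneg _)
      have h1 : Real.exp (-ε * t) ≤ 1 := by
        rw [Real.exp_le_one_iff]
        have := mul_pos (mem_Ioi.mp hε) (mem_Ioi.mp ht)
        linarith
      calc |b t| * Real.exp (-ε * t) ≤ |b t| * 1 := mul_le_mul_of_nonneg_left h1 (abs_nonneg _)
        _ ≤ M := by rw [mul_one]; exact hM t
    · refine Eventually.of_forall fun t => ?_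
      have : Continuous fun ε : ℝ => ((b t * Real.exp (-ε * t) * kf (T * (y - t)) : ℝ) : ℂ) := by
        fun_prop
      have h := this.tendsto 0
      simp only [neg_zero, zero_mul, Real.exp_zero, mul_one] at h
      exact h.mono_left nhdsWithin_le_nhds
  -- right limit
  have hK : IsCompact ((fun p : ℝ × ℝ => (1 + p.1 + Complex.I * (T * p.2) : ℂ)) ''
      (Icc 0 1 ×ˢ Icc (-1) 1)) := by
    refine (isCompact_Icc.prod isCompact_Icc).image ?_
    fun_prop
  obtain ⟨C, hC⟩ := hK.exists_bound_of_continuousOn (f := H) (hc.mono (by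
    rintro _ ⟨p, hp, rfl⟩
    simp only [mem_ofPred_eq, Complex.add_re, Complex.one_re, Complex.ofReal_re, Complex.mul_re,
      Complex.I_re, Complex.I_im, Complex.mul_im, Complex.ofReal_im]
    have := hp.1.1
    simp
    exact this))
  have hHc : ∀ ε : ℝ, 0 ≤ ε → Continuous fun l : ℝ => H (1 + ε + Complex.I * (T * l)) := by
    intro ε hε
    refine hc.comp_continuous (by fun_prop) fun l => ?_
    simp [hε]
  have hright : Tendsto (fun ε : ℝ => ∫ l : ℝ, (tri l : ℂ) * Complex.exp (Complex.I * (l * (T * y)))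
          * H (1 + ε + Complex.I * (T * l))) (𝓝[>] 0)
      (𝓝 (∫ l : ℝ, (tri l : ℂ) * Complex.exp (Complex.I * (l * (T * y)))
          * H (1 + Complex.I * (T * l)))) := by
    refine tendsto_integral_filter_of_dominated_convergence (fun l => tri l * C) ?_ ?_
      (integrable_tri.mul_const C) ?_
    · filter_upwards [self_mem_nhdsWithin] with ε hε
      have h1 := continuous_tri
      have h2 := hHc ε (le_of_lt hε)
      exact (((Complex.continuous_ofReal.comp h1).mul (by fun_prop)).mul h2).aestronglyMeasurable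
    · have h01 : Ioc (0 : ℝ) 1 ∈ 𝓝[>] (0 : ℝ) := Ioc_mem_nhdsGT one_pos
      filter_upwards [h01] with ε hε
      refine Eventually.of_forall fun l => ?_
      have he : ‖Complex.exp (Complex.I * (l * (T * y)))‖ = 1 := by
        rw [show Complex.I * (l * (T * y) : ℂ) = ((l * (T * y) : ℝ) : ℂ) * Complex.I by
          push_cast; ring, Complex.norm_exp_ofReal_mul_I]
      rw [norm_mul, norm_mul, he, mul_one, Complex.norm_real, Real.norm_of_nonneg (tri_nonneg l)]
      by_cases hl : tri l = 0
      · simp [hl]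
      · have := abs_lt.mp (tri_support hl)
        refine mul_le_mul_of_nonneg_left (hC _ ⟨(ε, l), ⟨⟨hε.1.le, hε.2⟩, ⟨this.1.le, this.2.le⟩⟩, rfl⟩)
          (tri_nonneg l)
    · refine Eventually.of_forall fun l => ?_
      refine Tendsto.const_mul _ ?_
      have h1 : Tendsto (fun ε : ℝ => (1 + ε + Complex.I * (T * l) : ℂ)) (𝓝[>] 0)
          (𝓝[{s | 1 ≤ s.re}] (1 + Complex.I * (T * l))) := by
        refine tendsto_nhdsWithin_iff.mpr ⟨?_, ?_⟩
        · have : Continuous fun ε : ℝ => (1 + ε + Complex.I * (T * l) : ℂ) := by fun_prop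
          have h := this.tendsto 0
          simp only [Complex.ofReal_zero, add_zero] at h
          exact h.mono_left nhdsWithin_le_nhds
        · filter_upwards [self_mem_nhdsWithin] with ε hε
          simp [le_of_lt (mem_Ioi.mp hε)]
      exact (hc (1 + Complex.I * (T * l)) (by simp)).tendsto.comp h1
  have heq : (fun ε : ℝ => ∫ t in Ioi (0 : ℝ),
      ((b t * Real.exp (-ε * t) * kf (T * (y - t)) : ℝ) : ℂ)) =ᶠ[𝓝[>] 0]
      (fun ε : ℝ => ∫ l : ℝ, (tri l : ℂ) * Complex.exp (Complex.I * (l * (T * y)))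
          * H (1 + ε + Complex.I * (T * l))) := by
    filter_upwards [self_mem_nhdsWithin] with ε hε
    exact smoothed hb hM hH hε y
  exact tendsto_nhds_unique (hleft.congr' heq) hright

/-- Riemann-Lebesgue consequence. -/
lemma smoothed_tendsto (hb : Measurable b) (hM : ∀ t, |b t| ≤ M)
    (hH : ∀ s : ℂ, 1 < s.re → ∫ t in Ioi (0 : ℝ), (b t : ℂ) * Complex.exp (-(s - 1) * t) = H s)
    (hc : ContinuousOn H {s | 1 ≤ s.re}) {T : ℝ} (hT : 0 < T) :
    Tendsto (fun y : ℝ => ∫ t in Ioi (0 : ℝ), b t * kf (T * (y - t))) atTop (𝓝 0) := by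
  have h0 : Tendsto (fun y : ℝ => ∫ l : ℝ, (tri l : ℂ) * Complex.exp (Complex.I * (l * (T * y)))
          * H (1 + Complex.I * (T * l))) atTop (𝓝 0) := by
    have hRL := Real.tendsto_integral_exp_smul_cocompact
      (fun l : ℝ => (tri l : ℂ) * H (1 + Complex.I * (T * l)))
    have hy : Tendsto (fun y : ℝ => -(T * y) / (2 * π)) atTop (cocompact ℝ) := by
      have h1 : Tendsto (fun y : ℝ => -(T * y) / (2 * π)) atTop atBot := by
        have : (fun y : ℝ => -(T * y) / (2 * π)) = fun y => (-(T / (2 * π))) * y := by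
          ext y; ring
        rw [this]
        exact (tendsto_const_mul_atBot_of_neg (neg_neg_of_pos (by positivity))).mpr tendsto_id
      exact h1.mono_right atBot_le_cocompact
    refine (hRL.comp hy).congr fun y => ?_
    simp only [Function.comp]
    congr 1
    ext l
    rw [Circle.smul_def, Real.fourierChar_apply, smul_eq_mul]
    have : ((2 * π * -(l * (-(T * y) / (2 * π))) : ℝ) : ℂ) * Complex.I
        = Complex.I * (l * (T * y)) := by
      have hpi : (π : ℂ) ≠ 0 := by exact_mod_cast Real.pi_ne_zero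
      push_cast
      field_simp
    rw [this]
    ring
  have h1 : Tendsto (fun y : ℝ => ((∫ t in Ioi (0 : ℝ), b t * kf (T * (y - t)) : ℝ) : ℂ)) atTop
      (𝓝 0) := by
    refine h0.congr fun y => ?_
    rw [← smoothed_zero hb hM hH hc hT y]
    exact integral_complex_ofReal
  have h2 := (Complex.continuous_re.tendsto 0).comp h1
  simpa [Function.comp_def] using h2

end WI

end Vale.Agent.P030.H404
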